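import Vale.Agent.P179.H166.KN6

/-!
# Sums over all chains and sums over the classes of the normal chains
-/

namespace P179H292

open Subgroup P179H524 P179A P179K P179R P179Y P179C P179N MonoidAlgebra

open P179B (IsNormalChain NChain chainStab krSum)

open scoped Classical Pointwise

universe u

section

variable {p : ℕ} [hp : Fact p.Prime] {G : Type} [Group G] [Finite G]

/-- **chain sums**: for a conjugation invariant function `F` of the stabilisers, `|G|` times the
sum over the classes of the normal chains is the sum over all chains, weighted by the orders of the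
stabilisers -/
theorem card_mul_chainSum (F : Subgroup G → ℤ)
    (hF : ∀ (g : G) (s : Finset (Subgroup G)), F (stab (g • s)) = F (stab s)) :
    (Nat.card G : ℤ) * (F ⊤ + ∑ᶠ c : Quot (NChain.Conj (p := p) (G := G)),
      (-1) ^ c.out.1.card * F (stab c.out.1)) =
      ∑ s ∈ chains p G, (-1 : ℤ) ^ s.card * (Nat.card (stab s) * F (stab s)) := by
  have := Fintype.ofFinite (NChain p G)
  have := Fintype.ofFinite (Quot (NChain.Conj (p := p) (G := G)))
  rw [finsum_eq_sum_of_fintype]
  rw [sum_normal (p := p) (fun s => (Nat.card (stab s) : ℤ) * F (stab s)) (by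
    intro s t h
    change (fun K : Subgroup G => (Nat.card K : ℤ) * F K) (stab s) =
      (fun K : Subgroup G => (Nat.card K : ℤ) * F K) (stab t)
    rw [h])]
  have h1 : (chains p G).filter Nml = insert ∅ ((Finset.univ : Finset (NChain p G)).map
      ⟨Subtype.val, Subtype.val_injective⟩) := by
    ext s
    rw [Finset.mem_filter, mem_chains, Finset.mem_insert, Finset.mem_map]
    constructor
    · rintro ⟨hs, hn⟩
      rcases s.eq_empty_or_nonempty with h | h
      · exact Or.inl h
      · exact Or.inr ⟨⟨s, (isNormalChain_iff s).2 ⟨⟨hs, hn⟩, h⟩⟩, Finset.mem_univ _, rfl⟩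
    · rintro (rfl | ⟨t, -, rfl⟩)
      · exact ⟨P179A.isPChain_empty p, fun Q hQ => absurd hQ (Finset.notMem_empty Q)⟩
      · exact ((isNormalChain_iff _).1 t.2).1
  rw [h1, Finset.sum_insert, Finset.sum_map]
  · rw [Finset.card_empty, pow_zero, one_mul, P179A.stab_empty, mul_add]
    congr 1
    · rw [Nat.card_congr (topEquiv (G := G)).toEquiv]
    rw [← sum_quot (G := G) (R := ℤ) (NChain.Conj (p := p) (G := G)) conj_iff
      (fun s => (-1 : ℤ) ^ s.1.card * F (stab s.1)) (fun g s => by
        rw [val_smul, card_smul, hF])]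
    refine Finset.sum_congr rfl fun s _ => ?_
    rw [stabilizer_nCh]
    change _ = (-1 : ℤ) ^ s.1.card * ((Nat.card (stab s.1) : ℤ) * F (stab s.1))
    ring
  · rw [Finset.mem_map]
    rintro ⟨t, -, h⟩
    have := t.2.1
    have h2 : (t : Finset (Subgroup G)) = ∅ := h
    rw [h2] at this
    exact Finset.not_nonempty_empty this

end

section

variable {p : ℕ} [hp : Fact p.Prime] {k : Type u} [Field k] [IsAlgClosed k] [CharP k p]
  {G : Type} [Group G] [Finite G]

omit [IsAlgClosed k] [CharP k p] hp [Finite G] in
theorem coeff_map_conj {z : MonoidAlgebra k G}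
    (hz : z ∈ Subalgebra.center k (MonoidAlgebra k G)) (g x : G) :
    z.coeff (g * x * g⁻¹) = z.coeff x := (P179C.mem_center_iff z).1 hz g x

/-- `|G|` times the Knörr–Robinson sum as a sum over all chains, provided that the number of
simple modules is invariant under conjugation -/
theorem card_mul_krSum' {B : MonoidAlgebra k G} (hB : IsBlock B)
    (hF : ∀ (g : G) (s : Finset (Subgroup G)),
      P179C.numSimpleIn (trunc (stab (g • s)) B) = P179C.numSimpleIn (trunc (stab s) B))
    (htop : P179C.numSimpleIn (trunc (⊤ : Subgroup G) B) = P179C.numSimpleIn B) :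
    (Nat.card G : ℤ) * krSum p B = ∑ s ∈ chains p G, (-1 : ℤ) ^ s.card *
      (Nat.card (stab s) * (P179C.numSimpleIn (trunc (stab s) B) : ℤ)) := by
  rw [← card_mul_chainSum (p := p) (fun H => (P179C.numSimpleIn (trunc H B) : ℤ))
    (fun g s => by exact_mod_cast hF g s)]
  congr 1
  unfold krSum
  rw [P179B.numSimpleIn_eq, htop]
  congr 1
  refine finsum_congr fun c => ?_
  rw [numSimpleOver_eq hB]

end

end P179H292
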