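import Vale.Agent.P179.R2.H292.Ehat
import Vale.Agent.P179.H166.KN6

/-!
# The exponent of `Z(D)D'/D'` divides the Knörr–Robinson sum
-/

namespace P179H292

open Subgroup P179H524 P179R MonoidAlgebra RegularWreathProduct

open P179B (krSum IsBlock IsDefectGroup)

open scoped Classical

universe u

/-- the group of order `p` -/
abbrev Cp (p : ℕ) : Type := Multiplicative (ZMod p)

theorem card_Cp (p : ℕ) : Nat.card (Cp p) = p :=
  (Nat.card_congr Multiplicative.toAdd).trans (Nat.card_zmod p)

/-- the wreath formula for the Knörr–Robinson sums -/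
def KrWr (p : ℕ) [Fact p.Prime] (k : Type u) [Field k] : Prop :=
  ∀ (G : Type) [Group G] [Fintype G] (e : MonoidAlgebra k G), IsBlock e →
    (p : ℤ) * krSum p (ehat (Cp p) e) = krSum p e ^ p - krSum p e

section Hom

variable {G : Type} [Group G] {Q : Type} [Group Q] [Fintype Q]

/-- the homomorphism of `D ≀ Q` onto the abelianisation of `D` -/
noncomputable def bRHom (Q : Type) [Group Q] [Fintype Q] (D : Subgroup G) :
    bR Q D →* Abelianization D where
  toFun x := ∏ q, Abelianization.of (⟨x.1.left q, x.2 q⟩ : D)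
  map_one' := by
    refine Finset.prod_eq_one fun q _ => ?_
    exact map_one Abelianization.of
  map_mul' x y := by
    have h1 : ∀ q, Abelianization.of (⟨(x * y).1.left q, (x * y).2 q⟩ : D) =
        Abelianization.of (⟨x.1.left q, x.2 q⟩ : D) *
          Abelianization.of (⟨y.1.left (x.1.right⁻¹ * q), y.2 _⟩ : D) := by
      intro q
      rw [← map_mul]
      rfl
    rw [Finset.prod_congr rfl fun q _ => h1 q, Finset.prod_mul_distrib]
    congr 1
    exact Equiv.prod_comp (Equiv.mulLeft x.1.right⁻¹)
      (fun q => Abelianization.of (⟨y.1.left q, y.2 q⟩ : D))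

/-- the diagonal element -/
def dgz (Q : Type) [Group Q] {D : Subgroup G} (z : D) : bR Q D := ⟨incl G Q fun _ => z.1, fun _ => z.2⟩

omit [Fintype Q] in
theorem dgz_pow {D : Subgroup G} (z : D) (n : ℕ) : dgz Q z ^ n = dgz Q (z ^ n) := by
  apply Subtype.ext
  change (incl G Q fun _ => z.1) ^ n = incl G Q fun _ => (z ^ n : D).1
  rw [← map_pow]
  rfl

omit [Fintype Q] in
theorem dgz_center {D : Subgroup G} {z : D} (hz : z ∈ center D) : dgz Q z ∈ center (bR Q D) := by
  rw [mem_center_iff] at hz ⊢
  intro x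
  apply Subtype.ext
  ext q
  · change x.1.left q * z.1 = z.1 * x.1.left ((1 : Q)⁻¹ * q)
    rw [inv_one, one_mul]
    exact congrArg Subtype.val (hz ⟨x.1.left q, x.2 q⟩)
  · change x.1.right * 1 = 1 * x.1.right
    rw [mul_one, one_mul]

theorem bRHom_dgz {D : Subgroup G} (z : D) :
    bRHom Q D (dgz Q z) = Abelianization.of z ^ Fintype.card Q := by
  change ∏ _q : Q, Abelianization.of z = _
  rw [Finset.prod_const, Finset.card_univ]

theorem dgz_not_mem {D : Subgroup G} {z : D} (h : z ^ Fintype.card Q ∉ commutator D) :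
    dgz Q z ∉ commutator (bR Q D) := by
  intro hc
  apply h
  have h1 : commutator (bR Q D) ≤ (bRHom Q D).ker := Abelianization.commutator_subset_ker _
  have h2 := h1 hc
  rw [MonoidHom.mem_ker, bRHom_dgz, ← map_pow] at h2
  rw [← Abelianization.ker_of]
  exact h2

end Hom

variable {p : ℕ} [hp : Fact p.Prime] {k : Type u} [Field k] [IsAlgClosed k] [CharP k p]

/-- **The exponent of `Z(D)D'/D'` divides the Knörr–Robinson sum**, relative to the wreath
formula. -/
theorem pow_dvd_krSum (hkr : KrWr p k) (a : ℕ) : ∀ (G : Type) [Group G] [Finite G]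
    (B : MonoidAlgebra k G), IsBlock B → ∀ D : Subgroup G, IsDefectGroup B D →
      ∀ z ∈ center D, z ^ p ^ a ∉ commutator D → (p : ℤ) ^ (a + 1) ∣ krSum p B := by
  induction a with
  | zero =>
    intro G _ _ B hB D hD z hz hza
    rw [pow_zero, pow_one] at hza
    rw [zero_add, pow_one]
    refine P179B.theoremKR hB hD ?_ (Or.inr (Or.inl ⟨z, hz, Or.inl hza⟩))
    rintro rfl
    apply hza
    have : z = 1 := Subsingleton.elim _ _
    rw [this]
    exact one_mem _
  | succ a ih =>
    intro G _ _ B hB D hD z hz hza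
    have := Fintype.ofFinite G
    have hcard : Fintype.card (Cp p) = p := by rw [← Nat.card_eq_fintype_card, card_Cp]
    have hB' : IsBlock (ehat (Cp p) B) := isBlock_ehat (card_Cp p) hB
    have hD' : IsDefectGroup (ehat (Cp p) B) (bR (Cp p) D) :=
      isDefectGroup_ehat (card_Cp p) hB hD
    have h1 : (p : ℤ) ^ (a + 1) ∣ krSum p (ehat (Cp p) B) := by
      refine ih _ _ hB' _ hD' (dgz (Cp p) z) (dgz_center hz) ?_
      rw [dgz_pow]
      refine dgz_not_mem ?_
      rw [hcard, ← pow_mul, ← pow_succ]
      exact hza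
    have h2 : (p : ℤ) ^ (a + 1) ∣ krSum p B := by
      refine ih _ _ hB _ hD z hz ?_
      intro h
      apply hza
      rw [pow_succ, pow_mul]
      exact pow_mem h p
    have h3 : krSum p B = krSum p B ^ p - (p : ℤ) * krSum p (ehat (Cp p) B) := by
      rw [hkr G B hB]; ring
    rw [h3]
    refine dvd_sub ?_ ?_
    · refine (pow_dvd_pow _ ?_).trans (pow_mul (p : ℤ) (a + 1) p ▸ pow_dvd_pow_of_dvd h2 p)
      have := hp.out.two_le
      nlinarith
    · rw [pow_succ']
      exact mul_dvd_mul_left _ h1

end P179H292
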