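import Vale.Agent.P179.R2.H292.ExpDvd
import Vale.Agent.P179.R2.H443.Glue
import Vale.Agent.P179.R2.H725.Rec
import Vale.Agent.P179.R2.H725.Below
import Vale.Agent.P179.H526.Z18
import Vale.Agent.P179.H526.Z15

/-!
# Assembly, free inertial action
-/

namespace P179H292

open Subgroup P179H524 P179R P179Y MonoidAlgebra

open P179B (krSum IsBlock IsDefectGroup InducesTo numSimpleIn numWeightsIn inertialIndex
  regularElements inertialGroup NChain chainStab)

open scoped Classical

universe u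

/-- the equality for groups with a nontrivial normal `p`-subgroup, free inertial action -/
def M4FreeStmt (p : ℕ) (k : Type u) [Field k] (red : integralClosure ℤ ℂ →+* k) : Prop :=
  ∀ (H : Type) [Group H] [Finite H] (R : Subgroup H) [R.Normal], IsPGroup p R → R ≠ ⊥ →
    ∀ b : MonoidAlgebra k H, IsBlock b → ∀ D : Subgroup H, IsDefectGroup b D →
      (∀ x ∈ D, ∀ y ∈ D, x * y = y * x) → ∀ β : MonoidAlgebra k (centralizer (D : Set H)),
      IsBlock β → InducesTo β b → (∀ u ∈ D, u ≠ 1 → u ∈ regularElements D β) →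
      numSimpleIn b = numWeightsIn p red b

section

variable {p : ℕ} [hp : Fact p.Prime] {k : Type u} [Field k] [IsAlgClosed k] [CharP k p]

/-- for an abelian defect group the exponent divides the Knörr–Robinson sum -/
theorem pow_dvd_krSum_of_comm {G : Type} [Group G] [Finite G] {B : MonoidAlgebra k G}
    (hB : IsBlock B) {D : Subgroup G} (hD : IsDefectGroup B D)
    (hab : ∀ a ∈ D, ∀ b ∈ D, a * b = b * a) {a : ℕ} {z : G} (hz : z ∈ D) (hza : z ^ p ^ a ≠ 1) :
    (p : ℤ) ^ (a + 1) ∣ krSum p B := by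
  refine pow_dvd_krSum (P179H443.krWr p k) a G B hB D hD ⟨z, hz⟩ ?_ ?_
  · rw [mem_center_iff]
    intro y
    exact Subtype.ext (hab _ y.2 _ hz)
  · intro h
    apply hza
    have h1 : commutator D = ⊥ := by
      rw [_root_.commutator_def, Subgroup.commutator_eq_bot_iff_le_centralizer]
      intro x _
      rw [mem_centralizer_iff]
      intro y _
      exact Subtype.ext (hab _ y.2 _ x.2)
    rw [h1, mem_bot] at h
    exact congrArg Subtype.val h

variable (red : integralClosure ℤ ℂ →+* k)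

/-- **the congruence modulo the exponent, free inertial action** -/
theorem dvd_sub_of_free (m4 : M4FreeStmt p k red) {G : Type} [Group G] [Finite G]
    {B : MonoidAlgebra k G} (hB : IsBlock B) {D : Subgroup G} (hD : IsDefectGroup B D)
    (hab : ∀ a ∈ D, ∀ b ∈ D, a * b = b * a) {β : MonoidAlgebra k (centralizer (D : Set G))}
    (hβ : IsBlock β) (hβB : InducesTo β B) (hfree : ∀ u ∈ D, u ≠ 1 → u ∈ regularElements D β)
    {a : ℕ} {z : G} (hz : z ∈ D) (hza : z ^ p ^ a ≠ 1) :
    (p : ℤ) ^ (a + 1) ∣ (numSimpleIn B : ℤ) - numWeightsIn p red B := by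
  have hD1 : D ≠ ⊥ := by
    rintro rfl
    apply hza
    rw [mem_bot.1 hz, one_pow]
  rw [← P179H725.krSum_eq_of_local red hB hD hD1 ?_]
  · exact pow_dvd_krSum_of_comm hB hD hab hz hza
  · intro s b hb hbB
    obtain ⟨M, hMs, -, hMp, hM1, hMH, hMn, hMC⟩ := P179H725.exists_top s
    obtain ⟨E, ε, g, hE, hME, hEab, hε, hεb, -, hreg, -⟩ :=
      P179H725.below_data (p := p) hB hD hab hβ ((P179B.inducesTo_iff β B).1 hβB) hMp hMH
        (fun x hx => P179A.mem_stab.1 hx M hMs) hMC hb ((P179B.inducesTo_iff b B).1 hbB)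
    have hn : (M.subgroupOf (chainStab s.1)).Normal := hMn
    refine m4 (chainStab s.1) (M.subgroupOf (chainStab s.1))
      (hMp.of_equiv (subgroupOfEquivOfLe hMH).symm) ?_ b hb E hE hEab ε hε
      ((P179B.inducesTo_iff ε b).2 hεb) (hreg hfree)
    intro h
    apply hM1
    rw [subgroupOf_eq_bot, disjoint_iff] at h
    rw [← h]
    exact (inf_eq_left.mpr hMH).symm

theorem modEq_of_free (m4 : M4FreeStmt p k red) {G : Type} [Group G] [Finite G]
    {B : MonoidAlgebra k G} (hB : IsBlock B) {D : Subgroup G} (hD : IsDefectGroup B D)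
    (hab : ∀ a ∈ D, ∀ b ∈ D, a * b = b * a) {β : MonoidAlgebra k (centralizer (D : Set G))}
    (hβ : IsBlock β) (hβB : InducesTo β B) (hfree : ∀ u ∈ D, u ≠ 1 → u ∈ regularElements D β)
    {a : ℕ} {z : G} (hz : z ∈ D) (hza : z ^ p ^ a ≠ 1) :
    numSimpleIn B ≡ numWeightsIn p red B [MOD p ^ (a + 1)] := by
  have h := dvd_sub_of_free red m4 hB hD hab hβ hβB hfree hz hza
  rw [← Int.natCast_modEq_iff]
  refine Int.ModEq.symm ((Int.modEq_iff_dvd).2 ?_)
  exact_mod_cast h

/-- **the equality, free inertial action** -/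
theorem eq_of_free (m4 : M4FreeStmt p k red) (hp2 : p ≠ 2) {G : Type} [Group G] [Finite G]
    {B : MonoidAlgebra k G} (hB : IsBlock B) {D : Subgroup G} (hD : IsDefectGroup B D)
    (hab : ∀ a ∈ D, ∀ b ∈ D, a * b = b * a) {β : MonoidAlgebra k (centralizer (D : Set G))}
    (hβ : IsBlock β) (hβB : InducesTo β B) (hfree : ∀ u ∈ D, u ≠ 1 → u ∈ regularElements D β)
    {a : ℕ} {z : G} (hz : z ∈ D) (hza : z ^ p ^ a ≠ 1)
    (hw : numWeightsIn p red B ≤ p ^ (a + 1))
    (he : inertialIndex D β < p ^ (a + 1) + numWeightsIn p red B) :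
    numSimpleIn B = numWeightsIn p red B := by
  have := Fintype.ofFinite G
  have h1 := modEq_of_free red m4 hB hD hab hβ hβB hfree hz hza
  obtain ⟨h2, -⟩ := P179I.bounds_free (p := p) red hB hD hab hβ
    ((P179B.inducesTo_iff β B).1 hβB) hp2 hfree
  have h3 : 0 < numSimpleIn B := by
    rw [P179B.numSimpleIn_eq]
    exact P179C.numSimpleIn_pos B hB
  rw [← P179B.numSimpleIn_eq] at h2
  exact P179I.eq_of_modEq h1 h3 h2 hw he

end

end P179H292
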