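import Vale.Agent.P179.R2.H450.Mx

/-!
# Coprime action on an abelian `p`-group
-/

namespace P179H292

open Subgroup P179H450

section

variable {p : ℕ} [hp : Fact p.Prime] {G : Type*} [Group G] [Finite G] {D T : Subgroup G}

theorem comm_le (hTN : T ≤ normalizer (D : Set G)) : ⁅T, D⁆ ≤ D := by
  rw [commutator_le]
  intro t ht d hd
  have h1 : t * d * t⁻¹ ∈ D := (mem_normalizer_iff.mp (hTN ht) d).mp hd
  exact mul_mem h1 (inv_mem hd)

/-- the averaging map -/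
theorem exists_avg (hab : ∀ a ∈ D, ∀ b ∈ D, a * b = b * a)
    (hTN : T ≤ normalizer (D : Set G)) :
    ∃ π : D →* D, (∀ t ∈ T, ∀ d : D, t * (π d : G) * t⁻¹ = π d) ∧
      (∀ t ∈ T, ∀ d e : D, (e : G) = t * d * t⁻¹ → π e = π d) ∧
      (∀ d : D, (∀ t ∈ T, t * (d : G) * t⁻¹ = d) →
        π d = d ^ (centralizer (D : Set G)).relIndex T) ∧
      ∀ d : D, ((π d : D) : G)⁻¹ * (d : G) ^ (centralizer (D : Set G)).relIndex T ∈ ⁅T, D⁆ := by
  have hst : ∀ t ∈ T, ∀ x ∈ D, t * x * t⁻¹ ∈ D :=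
    fun t ht x hx => (mem_normalizer_iff.mp (hTN ht) x).mp hx
  letI : CommGroup D := { (inferInstance : Group D) with
    mul_comm := fun a b => Subtype.ext (hab a a.2 b b.2) }
  let Φ : T →* MulAut D := cjAut T D hst
  have hΦ : ∀ (t : T) (x : D), ((Φ t x : D) : G) = (t : G) * (x : G) * (t : G)⁻¹ := fun t x =>
    cjAut_apply T D hst t x
  have hker : Φ.ker = (centralizer (D : Set G)).subgroupOf T := by
    ext t
    rw [MonoidHom.mem_ker, mem_subgroupOf, mem_centralizer_iff]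
    constructor
    · intro h x hx
      have h1 := hΦ t ⟨x, hx⟩
      rw [h, MulAut.one_apply] at h1
      change x = _ at h1
      calc x * t = t * x * (t : G)⁻¹ * t := by rw [← h1]
        _ = t * x := by group
    · intro h
      ext x
      rw [hΦ, MulAut.one_apply, ← h x x.2]
      group
  have hcard : Nat.card Φ.range = (centralizer (D : Set G)).relIndex T := by
    rw [← index_ker, hker]
    rfl
  have := Fintype.ofFinite Φ.range
  let π : D →* D := ∏ a : Φ.range, ((a : MulAut D) : D →* D)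
  have hπ : ∀ d : D, π d = ∏ a : Φ.range, (a : MulAut D) d := fun d => by
    change (∏ a : Φ.range, ((a : MulAut D) : D →* D)) d = _
    rw [MonoidHom.finsetProd_apply]
    rfl
  have h1 : ∀ (a₀ : Φ.range) (d : D), (a₀ : MulAut D) (π d) = π d := by
    intro a₀ d
    rw [hπ, map_prod]
    exact Fintype.prod_equiv (Equiv.mulLeft a₀) _ _ fun a => rfl
  have h2 : ∀ (a₀ : Φ.range) (d : D), π ((a₀ : MulAut D) d) = π d := by
    intro a₀ d
    rw [hπ, hπ]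
    exact Fintype.prod_equiv (Equiv.mulRight a₀) _ _ fun a => rfl
  refine ⟨π, ?_, ?_, ?_, ?_⟩
  · intro t ht d
    have h3 := h1 ⟨Φ ⟨t, ht⟩, ⟨t, ht⟩, rfl⟩ d
    have h4 := hΦ ⟨t, ht⟩ (π d)
    rw [← h4]
    exact congrArg Subtype.val h3
  · intro t ht d e he
    have h3 := h2 ⟨Φ ⟨t, ht⟩, ⟨t, ht⟩, rfl⟩ d
    rw [← h3]
    congr 1
    apply Subtype.ext
    rw [he]
    exact (hΦ ⟨t, ht⟩ d).symm
  · intro d hd
    rw [hπ, Finset.prod_congr rfl (g := fun _ => d), Finset.prod_const, Finset.card_univ,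
      ← Nat.card_eq_fintype_card, hcard]
    rintro ⟨_, t, rfl⟩ -
    apply Subtype.ext
    change ((Φ t d : D) : G) = d
    rw [hΦ]
    exact hd t t.2
  · intro d
    have h3 : (π d)⁻¹ * d ^ (centralizer (D : Set G)).relIndex T =
        ∏ a : Φ.range, (((a : MulAut D) d)⁻¹ * d) := by
      rw [Finset.prod_mul_distrib, Finset.prod_const, Finset.card_univ,
        ← Nat.card_eq_fintype_card, hcard, hπ, Finset.prod_inv_distrib]
    have h4 : (π d)⁻¹ * d ^ (centralizer (D : Set G)).relIndex T ∈ ⁅T, D⁆.subgroupOf D := by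
      rw [h3]
      refine Subgroup.prod_mem _ ?_
      rintro ⟨_, t, rfl⟩ -
      rw [mem_subgroupOf]
      change ((Φ t d : D) : G)⁻¹ * (d : G) ∈ ⁅T, D⁆
      rw [hΦ]
      have h6 : (t : G) * (d : G) * (t : G)⁻¹ * (d : G)⁻¹ ∈ ⁅T, D⁆ :=
        commutator_mem_commutator t.2 d.2
      generalize (t : G) = t' at h6 ⊢
      have hd := d.2
      generalize (d : G) = d' at h6 hd ⊢
      have h7 : t' * d' * t'⁻¹ * d'⁻¹ ∈ D := comm_le hTN h6
      have h5 : (t' * d' * t'⁻¹)⁻¹ * d' = d'⁻¹ * (t' * d' * t'⁻¹ * d'⁻¹)⁻¹ * d' := by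
        group
      rw [h5, hab _ (inv_mem hd) _ (inv_mem h7), inv_mul_cancel_right]
      exact inv_mem h6
    exact mem_subgroupOf.1 h4

theorem comm_inf_fix (hD : IsPGroup p D) (hab : ∀ a ∈ D, ∀ b ∈ D, a * b = b * a)
    (hTN : T ≤ normalizer (D : Set G)) (hnd : ¬ p ∣ (centralizer (D : Set G)).relIndex T)
    {x : G} (hx : x ∈ ⁅T, D⁆) (hfix : ∀ t ∈ T, t * x * t⁻¹ = x) : x = 1 := by
  obtain ⟨π, -, h2, h3, -⟩ := exists_avg hab hTN
  have hxD : x ∈ D := comm_le hTN hx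
  -- `π` is trivial on the commutators
  have hle : ⁅T, D⁆ ≤ (π.ker).map D.subtype := by
    rw [commutator_le]
    intro t ht d hd
    have h4 : t * d * t⁻¹ ∈ D := (mem_normalizer_iff.mp (hTN ht) d).mp hd
    refine ⟨⟨t * d * t⁻¹, h4⟩ * ⟨d, hd⟩⁻¹, ?_, rfl⟩
    rw [SetLike.mem_coe, MonoidHom.mem_ker, map_mul, map_inv, h2 t ht ⟨d, hd⟩ ⟨_, h4⟩ rfl,
      mul_inv_cancel]
  obtain ⟨y, hy, hyx⟩ := hle hx
  have hy1 : π y = 1 := hy
  have h4 := h3 y fun t ht => by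
    have : (y : G) = x := hyx
    rw [this]
    exact hfix t ht
  rw [hy1] at h4
  obtain ⟨n, hn⟩ := hD y
  have h5 : orderOf y ∣ (centralizer (D : Set G)).relIndex T := orderOf_dvd_of_pow_eq_one h4.symm
  have h6 : orderOf y ∣ p ^ n := orderOf_dvd_of_pow_eq_one hn
  obtain ⟨m, -, hm⟩ := (Nat.dvd_prime_pow hp.out).1 h6
  have h7 : m = 0 := by
    by_contra h
    exact hnd ((hm ▸ dvd_pow_self p h : p ∣ orderOf y).trans h5)
  rw [h7, pow_zero, orderOf_eq_one_iff] at hm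
  have : (y : G) = x := hyx
  rw [← this, hm]
  rfl

theorem mem_fix_mul (hD : IsPGroup p D) (hab : ∀ a ∈ D, ∀ b ∈ D, a * b = b * a)
    (hTN : T ≤ normalizer (D : Set G)) (hnd : ¬ p ∣ (centralizer (D : Set G)).relIndex T)
    {x : G} (hx : x ∈ D) :
    ∃ y ∈ D, (∀ t ∈ T, t * y * t⁻¹ = y) ∧ ∃ z ∈ ⁅T, D⁆, x = y * z := by
  obtain ⟨π, h1, -, -, h4⟩ := exists_avg hab hTN
  set m := (centralizer (D : Set G)).relIndex T with hm
  obtain ⟨n, hn⟩ := hD ⟨x, hx⟩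
  have hcop : Nat.Coprime m (p ^ n) :=
    Nat.Coprime.pow_right _ ((Nat.Prime.coprime_iff_not_dvd hp.out).2 hnd).symm
  obtain ⟨c, hc⟩ : ∃ c : ℕ, x ^ (m * c) = x := by
    have hn' : x ^ p ^ n = 1 := congrArg Subtype.val hn
    rcases Nat.eq_zero_or_pos n with h0 | h0
    · subst h0
      refine ⟨1, ?_⟩
      rw [pow_zero, pow_one] at hn'
      rw [hn', one_pow]
    · obtain ⟨c, hc⟩ := Nat.exists_mul_mod_eq_one_of_coprime hcop
        (Nat.one_lt_pow h0.ne' hp.out.one_lt)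
      refine ⟨c, ?_⟩
      rw [← pow_mod_orderOf]
      have h5 : m * c ≡ 1 [MOD orderOf x] :=
        Nat.ModEq.of_dvd (orderOf_dvd_of_pow_eq_one hn') (by
          rw [Nat.ModEq, hc.2, Nat.mod_eq_of_lt (Nat.one_lt_pow h0.ne' hp.out.one_lt)])
      rw [h5, pow_mod_orderOf, pow_one]
  refine ⟨((π ⟨x, hx⟩ : D) : G) ^ c, pow_mem (π ⟨x, hx⟩).2 _, fun t ht => ?_,
    (((π ⟨x, hx⟩ : D) : G)⁻¹ * x ^ m) ^ c, pow_mem (h4 ⟨x, hx⟩) c, ?_⟩
  · have h5 : t * ((π ⟨x, hx⟩ : D) : G) ^ c * t⁻¹ = (t * ((π ⟨x, hx⟩ : D) : G) * t⁻¹) ^ c := by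
      rw [conj_pow]
    rw [h5, h1 t ht]
  · have h5 : Commute (((π ⟨x, hx⟩ : D) : G)⁻¹) (x ^ m) :=
      hab _ (inv_mem (π ⟨x, hx⟩).2) _ (pow_mem hx m)
    rw [h5.mul_pow, ← pow_mul, hc, inv_pow]
    group

end

end P179H292
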