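import Vale.Agent.P179.R2.H292.Gen
import Vale.Agent.P179.R2.H450.W1
import Vale.Agent.P179.R2.H450.DefQ

/-!
# The equality from the congruence and the second bound
-/

namespace P179H292

open Subgroup P179H524 P179R P179Y MonoidAlgebra

open P179B (krSum IsBlock IsDefectGroup InducesTo numSimpleIn numWeightsIn inertialIndex
  regularElements inertialGroup NChain chainStab)

open scoped Classical

universe u

section

variable {p : ℕ} [hp : Fact p.Prime] {k : Type u} [Field k] [IsAlgClosed k] [CharP k p]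
  (red : integralClosure ℤ ℂ →+* k)

/-- a block with abelian defect group has at least one weight -/
theorem numWeights_pos {G : Type} [Group G] [Finite G]
    {B : MonoidAlgebra k G} (hB : IsBlock B) {D : Subgroup G} (hD : IsDefectGroup B D)
    (hab : ∀ a ∈ D, ∀ b ∈ D, a * b = b * a) : 0 < numWeightsIn p red B := by
  have := Fintype.ofFinite G
  obtain ⟨b, hb, -, -, h1, -⟩ := P179H450.W1_corr p red hB hD hab
  rw [P179B.numWeightsIn_eq, ← h1]
  exact P179C.numSimpleIn_pos b hb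

omit hp in
theorem eq_of_modEq_le {l w m : ℕ} (h : l ≡ w [MOD m]) (hl0 : 0 < l) (hl : l ≤ m) (hw0 : 0 < w)
    (hw : w ≤ m) : l = w := by
  have h1 : l - 1 ≡ w - 1 [MOD m] := by
    have h2 : l - 1 + 1 ≡ w - 1 + 1 [MOD m] := by
      rw [Nat.sub_add_cancel hl0, Nat.sub_add_cancel hw0]
      exact h
    exact Nat.ModEq.add_right_cancel' 1 h2
  have h3 := h1.eq_of_lt_of_lt (by omega) (by omega)
  omega

/-- the second bound for the number of simple modules -/
def M7Stmt (p : ℕ) (k : Type u) [Field k] : Prop :=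
  ∀ (G : Type) [Group G] [Finite G] (B : MonoidAlgebra k G) (D : Subgroup G)
    (β : MonoidAlgebra k (centralizer (D : Set G))) (j o : ℕ) (w : G),
    IsBlock B → IsDefectGroup B D → (∀ x ∈ D, ∀ y ∈ D, x * y = y * x) → IsBlock β →
    InducesTo β B → 1 ≤ j → w ∈ D → (∀ i : ℕ, (∃ d ∈ D, w ^ i = d ^ p ^ j) → o ∣ i) →
    (∀ n ∈ inertialGroup D β, (∃ d ∈ D, n * w * n⁻¹ * w⁻¹ = d ^ p ^ j) →
      n ∈ centralizer (D : Set G)) →
    inertialIndex D β * Nat.card D < p ^ (2 * j) * Nat.card (regularElements D β) →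
    numSimpleIn B * Nat.card {y : G // ∃ d ∈ D, d ^ p ^ j = y} * o ≤ Nat.card D * p

/-- **the equality**, from the second bound -/
theorem eq_of_w (hEq : P179H725.EqRel p red) (h7 : M7Stmt p k)
    {G : Type} [Group G] [Finite G]
    {B : MonoidAlgebra k G} (hB : IsBlock B) {D : Subgroup G} (hD : IsDefectGroup B D)
    (hab : ∀ a ∈ D, ∀ b ∈ D, a * b = b * a) {β : MonoidAlgebra k (centralizer (D : Set G))}
    (hβ : IsBlock β) (hβB : InducesTo β B) {a j o : ℕ} {w : G}
    (hstar : ∀ n ∈ inertialGroup D β, (∀ d ∈ D, n * d ^ p ^ a * n⁻¹ = d ^ p ^ a) →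
      n ∈ centralizer (D : Set G))
    (hj : 1 ≤ j) (hw : w ∈ D) (ho0 : 0 < o)
    (ho : ∀ i : ℕ, (∃ d ∈ D, w ^ i = d ^ p ^ j) → o ∣ i)
    (hreg : ∀ n ∈ inertialGroup D β, (∃ d ∈ D, n * w * n⁻¹ * w⁻¹ = d ^ p ^ j) →
      n ∈ centralizer (D : Set G))
    (hii : inertialIndex D β * Nat.card D < p ^ (2 * j) * Nat.card (regularElements D β))
    (hcard : Nat.card D * p ≤ p ^ (a + 1) * (Nat.card {y : G // ∃ d ∈ D, d ^ p ^ j = y} * o))
    (he : inertialIndex D β ≤ p ^ (a + 1)) :
    numSimpleIn B = numWeightsIn p red B := by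
  have := Fintype.ofFinite G
  obtain ⟨hw1, -⟩ := numWeights_le red hB hD hab hβ hβB
  have hl0 : 0 < numSimpleIn B := by
    rw [P179B.numSimpleIn_eq]
    exact P179C.numSimpleIn_pos B hB
  have h1 := h7 G B D β j o w hB hD hab hβ hβB hj hw ho hreg hii
  have hY : 0 < Nat.card {y : G // ∃ d ∈ D, d ^ p ^ j = y} := by
    rw [Nat.card_pos_iff]
    exact ⟨⟨⟨1, 1, one_mem D, one_pow _⟩⟩, inferInstance⟩
  have hl : numSimpleIn B ≤ p ^ (a + 1) := by
    have h2 : numSimpleIn B * (Nat.card {y : G // ∃ d ∈ D, d ^ p ^ j = y} * o) ≤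
        p ^ (a + 1) * (Nat.card {y : G // ∃ d ∈ D, d ^ p ^ j = y} * o) := by
      rw [← mul_assoc]
      exact h1.trans hcard
    exact Nat.le_of_mul_le_mul_right h2 (Nat.mul_pos hY ho0)
  exact eq_of_modEq_le (modEq_of_star red hEq (P179H450.defQuo p k) hB hD hab hβ hβB hstar) hl0 hl
    (numWeights_pos red hB hD hab) (hw1.trans he)

end

end P179H292
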