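import Vale.Agent.P179.R2.H292.Cop
import Vale.Agent.P179.R2.H854.LocR2
import Vale.Agent.P179.R2.H443.Rel

/-!
# The reduction to the hyperfocal subgroup, relative to Watanabe's theorem
-/

namespace P179H292

open Subgroup P179H524 P179C P179A P179P P179Y P179H12 P179H872 P179H443 P179H854

open P179B (inertialGroup inertialIndex)

open scoped Classical

universe u

/-- Watanabe's theorem: `l(B) = l(b_x)` for `x ∈ C_D(T)` -/
def WatX (p : ℕ) (k : Type u) [Field k] : Prop :=
  ∀ (G : Type) [Group G] [Fintype G] (B : MonoidAlgebra k G) (D : Subgroup G)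
    (l : (G → k) → k), IsBlock B → BP p D l → IsPGroup p D → D ≤ centralizer (D : Set G) →
    ¬ p ∣ (centralizer (D : Set G)).relIndex (stabT D l) →
    (∀ z : G → k, IsCF z → l z = centralChar B (mkF z)) →
    ∀ x ∈ D, (∀ t ∈ stabT D l, t * x * t⁻¹ = x) →
    ∀ b' : MonoidAlgebra k (centralizer ({x} : Set G)), IsBlock b' →
      Low (centralizer ({x} : Set G)) l b' → numSimpleIn B = numSimpleIn b'

/-- the equality for all blocks of all groups whose defect groups are isomorphic to `K` -/
def EqFor (p : ℕ) {k : Type u} [Field k] (red : integralClosure ℤ ℂ →+* k) (K : Type*)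
    [Group K] : Prop :=
  ∀ (X : Type) [Group X] [Finite X] (B : MonoidAlgebra k X) (D : Subgroup X), IsBlock B →
    IsDefectGroup B D → Nonempty (K ≃* D) → numSimpleIn B = numWeightsIn p red B

theorem EqFor.congr {p : ℕ} {k : Type u} [Field k] {red : integralClosure ℤ ℂ →+* k} {K : Type*}
    [Group K] {K' : Type*} [Group K'] (h : EqFor p red K) (e : K' ≃* K) : EqFor p red K' :=
  fun X _ _ B D hB hD ⟨f⟩ => h X B D hB hD ⟨e.symm.trans f⟩

theorem numSimple_congr {k : Type u} [Field k] {G : Type} [Group G] [Fintype G]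
    {H H' : Subgroup G}
    (h : H = H') (f : G → k) :
    numSimpleIn (mkF fun t : H => f t) = numSimpleIn (mkF fun t : H' => f t) := by
  subst h
  rfl

section

variable {p : ℕ} [hp : Fact p.Prime] {k : Type u} [Field k] [IsAlgClosed k] [hk : CharP k p]
  (red : integralClosure ℤ ℂ →+* k)

/-- **the equality holds for a block with abelian defect group `D` if it holds for the blocks
whose defect groups are isomorphic to `[D, T]`** -/
theorem eq_of_hyp (hW : WatX p k) (hQ : P179H725.DefQuo p k) :
    ∀ (N : ℕ) (G : Type) [Group G] [Finite G], Nat.card G = N →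
      ∀ (B : MonoidAlgebra k G) (D : Subgroup G) (β : MonoidAlgebra k (centralizer (D : Set G))),
      IsBlock B → IsDefectGroup B D → (∀ a ∈ D, ∀ b ∈ D, a * b = b * a) → IsBlock β →
      InducesTo β B → EqFor p red (⁅inertialGroup D β, D⁆ : Subgroup G) →
      numSimpleIn B = numWeightsIn p red B := by
  intro N
  induction N using Nat.strong_induction_on with
  | _ N ih =>
  intro G _ _ hN B D β hB hDB hab hβ hβB hEq
  have := Fintype.ofFinite G
  obtain ⟨l, hl, hlz, hlβ⟩ := exists_BP_of_subblock (p := p) hB hDB hab hβ hβB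
  have hST : stabT D l = inertialGroup D β := stabT_eq_inertialGroup hβ hlβ
  have hD : IsPGroup p D := (exists_BP_of_block (p := p) B hB D hDB).1
  have hab' : D ≤ centralizer (D : Set G) := by
    intro x hx
    rw [mem_centralizer_iff]
    intro y hy
    exact hab y hy x hx
  have hT := hT_of_block hB hDB hD hab hl hlz
  by_cases hc : ∃ x ∈ D, (∀ t ∈ stabT D l, t * x * t⁻¹ = x) ∧ x ∉ center G
  · obtain ⟨x, hx, hfix, hxc⟩ := hc
    set H : Subgroup G := centralizer ({x} : Set G) with hH
    have hmemH : ∀ y : G, y ∈ H ↔ x * y = y * x := by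
      intro y
      rw [hH, mem_centralizer_iff]
      constructor
      · intro h
        exact h x rfl
      · rintro h z rfl
        exact h
    have hDH : D ≤ H := by
      intro y hy
      rw [hmemH]
      exact hab x hx y hy
    have hCH : centralizer (D : Set G) ≤ H := by
      intro y hy
      rw [hmemH]
      exact (mem_centralizer_iff.1 hy) x hx
    have hTH : stabT D l ≤ H := by
      intro t ht
      rw [hmemH]
      have h1 := hfix t ht
      calc x * t = t * x * t⁻¹ * t := by rw [h1]
        _ = t * x := by group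
    have hmC : MulH H l := BP.mulH hl hD hab' hCH
    obtain ⟨b1, hb1, hlb1⟩ := exists_blk hmC
    have hdf := isDefectGroup_low (p := p) hl hD hab hT hDH hCH hb1 hlb1
    obtain ⟨β', hβ', hlβ', hbF⟩ := exists_root_below hl hD hab' hDH hCH hβ hlβ
    have hST' : stabT (D.subgroupOf H) (lres H l) = inertialGroup (D.subgroupOf H) β' :=
      stabT_eq_inertialGroup hβ' hlβ'
    have hmem : ∀ t : H, t ∈ inertialGroup (D.subgroupOf H) β' ↔ (t : G) ∈ stabT D l := by
      intro t
      rw [← hST']
      exact mem_stabT_lres hDH hCH t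
    have hmapT : (inertialGroup (D.subgroupOf H) β').map H.subtype = stabT D l := by
      ext t
      constructor
      · rintro ⟨y, hy, rfl⟩
        exact (hmem y).1 hy
      · intro ht
        exact ⟨⟨t, hTH ht⟩, (hmem _).2 ht, rfl⟩
    have hmapD : (D.subgroupOf H).map H.subtype = D := by
      rw [subgroupOf_map_subtype, inf_eq_left.mpr hDH]
    have hmapK : (⁅inertialGroup (D.subgroupOf H) β', D.subgroupOf H⁆ : Subgroup H).map H.subtype =
        ⁅inertialGroup D β, D⁆ := by
      rw [map_commutator, hmapT, hmapD, hST]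
    have h1 := ih (Nat.card H) ?_ H rfl b1 (D.subgroupOf H) β' hb1 hdf
      (fun a ha c hc => ((mem_centralizer_iff.1 (comm_subgroupOf hab' hDH ha)) c hc).symm)
      hβ' (inducesTo_of_low (hl.restrict hDH hCH) (Low.char hlb1) hlβ') ?_
    · rw [hW G B D l hB hl hD hab' hT hlz x hx hfix b1 hb1 hlb1, h1,
        numWeightsIn_below red hl hD hab' hT hDH hCH hb1 hlb1 hdf hβ hlβ,
        numWeightsIn_eq_stabT red hB hDB hab hl hD hT hlz hβ hlβ]
      exact numSimple_congr (inf_eq_left.mpr hTH) _
    · rw [← hN]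
      refine lt_of_le_of_ne (card_le_card_group H) fun h => hxc ?_
      have h2 : H = ⊤ := card_eq_iff_eq_top _ |>.1 h
      rw [Subgroup.mem_center_iff]
      intro y
      have h3 : y ∈ H := by
        rw [h2]
        exact mem_top y
      exact ((hmemH y).1 h3).symm
    · exact hEq.congr ((equivMapOfInjective _ H.subtype H.subtype_injective).trans
        (MulEquiv.subgroupCongr hmapK))
  · push Not at hc
    -- the fixed points are central
    let R : Subgroup G :=
      { carrier := {x | x ∈ D ∧ ∀ t ∈ stabT D l, t * x * t⁻¹ = x}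
        mul_mem' := by
          rintro a b ⟨ha, ha'⟩ ⟨hb, hb'⟩
          refine ⟨mul_mem ha hb, fun t ht => ?_⟩
          calc t * (a * b) * t⁻¹ = t * a * t⁻¹ * (t * b * t⁻¹) := by group
            _ = a * b := by rw [ha' t ht, hb' t ht]
        one_mem' := ⟨one_mem D, fun t _ => by group⟩
        inv_mem' := by
          rintro a ⟨ha, ha'⟩
          refine ⟨inv_mem ha, fun t ht => ?_⟩
          calc t * a⁻¹ * t⁻¹ = (t * a * t⁻¹)⁻¹ := by group
            _ = a⁻¹ := by rw [ha' t ht] }
    have hRmem : ∀ x, x ∈ R ↔ x ∈ D ∧ ∀ t ∈ stabT D l, t * x * t⁻¹ = x := fun x => Iff.rfl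
    have hRc : R ≤ center G := fun x hx => hc x hx.1 hx.2
    have hRn : R.Normal := ⟨fun x hx g => by
      have h1 := (Subgroup.mem_center_iff.1 (hRc hx)) g
      rw [h1, mul_inv_cancel_right]
      exact hx⟩
    have hRp : IsPGroup p R := hD.to_le fun x hx => hx.1
    have hTN : stabT D l ≤ normalizer (D : Set G) := by
      rw [hST]
      exact fun n hn => hn.1
    refine eq_of_quoEq red hQ R hRp hB hDB hab fun X _ _ B' D' hB' hD' hf => ?_
    obtain ⟨f, hfs, hfk⟩ := hf
    refine hEq X B' D' hB' hD' ⟨?_⟩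
    have hKD : (⁅inertialGroup D β, D⁆ : Subgroup G) ≤ D := by
      rw [← hST]
      exact comm_le hTN
    let g : (⁅inertialGroup D β, D⁆ : Subgroup G) →* D' := f.comp (inclusion hKD)
    refine MulEquiv.ofBijective g ⟨?_, ?_⟩
    · rw [injective_iff_map_eq_one]
      rintro ⟨x, hx⟩ hgx
      have h1 : f ⟨x, hKD hx⟩ = 1 := hgx
      have h2 := (hfk _).1 h1
      apply Subtype.ext
      refine comm_inf_fix hD hab hTN hT (x := x) ?_ h2.2
      rw [hST]
      exact hx
    · intro d'
      obtain ⟨d, rfl⟩ := hfs d'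
      obtain ⟨y, hy, hyfix, z, hz, hyz⟩ := mem_fix_mul hD hab hTN hT d.2
      rw [hST] at hz
      refine ⟨⟨z, hz⟩, ?_⟩
      have h1 : f ⟨y, hy⟩ = 1 := (hfk _).2 ⟨hy, hyfix⟩
      have h2 : d = ⟨y, hy⟩ * ⟨z, hKD hz⟩ := Subtype.ext hyz
      change f ⟨z, hKD hz⟩ = f d
      rw [h2, map_mul, h1, one_mul]

end

end P179H292
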