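import Vale.Agent.P179.H526.InertDefs

/-!
# Rank, orders of the subgroups `Ω_J(D)`, and a bound for the inertial index
-/

namespace P179H292

open Subgroup

open P179B (inertialGroup inertialIndex)

section Omega

variable {G : Type*} [Group G] {D : Subgroup G} (hab : ∀ a ∈ D, ∀ b ∈ D, a * b = b * a)

/-- the elements `x` of the abelian group `D` with `x ^ m = 1` -/
def omS (m : ℕ) : Subgroup G where
  carrier := {x | x ∈ D ∧ x ^ m = 1}
  one_mem' := ⟨one_mem _, one_pow _⟩
  mul_mem' := by
    rintro x y ⟨hx, hx'⟩ ⟨hy, hy'⟩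
    refine ⟨mul_mem hx hy, ?_⟩
    have h : Commute x y := hab x hx y hy
    rw [h.mul_pow, hx', hy', one_mul]
  inv_mem' := by
    rintro x ⟨hx, hx'⟩
    exact ⟨inv_mem hx, by rw [inv_pow, hx', inv_one]⟩

theorem mem_omS {m : ℕ} {x : G} : x ∈ omS hab m ↔ x ∈ D ∧ x ^ m = 1 := Iff.rfl

/-- `|Ω_(J+1)| ≤ |Ω_J| |Ω_1|` -/
theorem card_omS_succ [Finite G] (p J : ℕ) :
    Nat.card (omS hab (p ^ (J + 1))) ≤ Nat.card (omS hab (p ^ J)) * Nat.card (omS hab p) := by
  let f : omS hab (p ^ (J + 1)) →* G :=
    { toFun := fun x => x.1 ^ p ^ J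
      map_one' := one_pow _
      map_mul' := fun x y => by
        have h : Commute x.1 y.1 := hab _ x.2.1 _ y.2.1
        exact h.mul_pow _ }
  have h1 : Nat.card (omS hab (p ^ (J + 1))) = Nat.card f.ker * Nat.card f.range := by
    rw [mul_comm, ← Nat.card_congr (QuotientGroup.quotientKerEquivRange f).toEquiv,
      ← Subgroup.card_eq_card_quotient_mul_card_subgroup]
  have h2 : Nat.card f.range ≤ Nat.card (omS hab p) := by
    refine Subgroup.card_le_of_le ?_
    rintro _ ⟨x, rfl⟩
    refine ⟨pow_mem x.2.1 _, ?_⟩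
    change (x.1 ^ p ^ J) ^ p = 1
    rw [← pow_mul, ← pow_succ]
    exact x.2.2
  have h3 : Nat.card f.ker ≤ Nat.card (omS hab (p ^ J)) := by
    refine Nat.card_le_card_of_injective
      (fun x : f.ker => (⟨x.1.1, x.1.2.1, x.2⟩ : omS hab (p ^ J))) ?_
    intro x y h
    have h4 : x.1.1 = y.1.1 := by
      have h5 := congrArg (fun z : omS hab (p ^ J) => z.1) h
      exact h5
    exact Subtype.ext (Subtype.ext h4)
  rw [h1]
  exact Nat.mul_le_mul h3 h2

theorem card_omS_le [Finite G] (p J : ℕ) :
    Nat.card (omS hab (p ^ J)) ≤ Nat.card (omS hab p) ^ J := by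
  induction J with
  | zero =>
    rw [pow_zero, pow_zero]
    have h : omS hab 1 = ⊥ := by
      rw [eq_bot_iff]
      rintro x ⟨-, hx⟩
      rw [pow_one] at hx
      exact hx
    rw [h]
    simp
  | succ J ih =>
    refine (card_omS_succ hab p J).trans ?_
    rw [pow_succ]
    exact Nat.mul_le_mul_right _ ih

end Omega

section Coprime

variable {G : Type*} [Group G] [Finite G] {D : Subgroup G}
  (hab : ∀ a ∈ D, ∀ b ∈ D, a * b = b * a)

omit [Finite G] in
/-- an element normalising `D` some power of which, prime to `p`, centralises `D`, centralises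
the abelian `p`-group `D` if it centralises the elements of order `p` -/
theorem centralises_of_omega {p : ℕ} [hp : Fact p.Prime] (hD : IsPGroup p D) {n : G}
    (hn : n ∈ normalizer (D : Set G)) {e : ℕ} (he : ¬ p ∣ e)
    (hne : n ^ e ∈ centralizer (D : Set G))
    (h1 : ∀ x ∈ omS hab p, n * x * n⁻¹ = x) : n ∈ centralizer (D : Set G) := by
  have key : ∀ j : ℕ, ∀ d ∈ D, d ^ p ^ j = 1 → n * d * n⁻¹ = d := by
    intro j
    induction j with
    | zero =>
      intro d _ hdj
      rw [pow_zero, pow_one] at hdj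
      rw [hdj]; group
    | succ j ih =>
      intro d hd hdj
      have hdp : n * d ^ p * n⁻¹ = d ^ p := ih (d ^ p) (pow_mem hd p) (by
        rw [← pow_mul, ← pow_succ']; exact hdj)
      set c := n * d * n⁻¹ * d⁻¹ with hc
      have hnd : n * d * n⁻¹ ∈ D := (mem_normalizer_iff.1 hn d).1 hd
      have hcD : c ∈ D := mul_mem hnd (inv_mem hd)
      have hcp : c ^ p = 1 := by
        have h2 : Commute (n * d * n⁻¹) d⁻¹ := hab _ hnd _ (inv_mem hd)
        rw [hc, h2.mul_pow, ← MulAut.conj_apply, ← map_pow, MulAut.conj_apply, hdp, inv_pow,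
          mul_inv_cancel]
      have hnc : n * c * n⁻¹ = c := h1 c ⟨hcD, hcp⟩
      have hcd : n * d * n⁻¹ = c * d := by rw [hc]; group
      have hpow : ∀ i : ℕ, n ^ i * d * (n ^ i)⁻¹ = c ^ i * d := by
        intro i
        induction i with
        | zero => simp
        | succ i ih2 =>
          have h3 : n ^ (i + 1) * d * (n ^ (i + 1))⁻¹ = n * (n ^ i * d * (n ^ i)⁻¹) * n⁻¹ := by
            rw [pow_succ']; group
          have h4 : n * (c ^ i * d) * n⁻¹ = (n * c ^ i * n⁻¹) * (n * d * n⁻¹) := by group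
          have h5 : n * c ^ i * n⁻¹ = c ^ i := by
            rw [← MulAut.conj_apply, map_pow, MulAut.conj_apply, hnc]
          rw [h3, ih2, h4, h5, hcd, ← mul_assoc, ← pow_succ]
      have h6 : n ^ e * d * (n ^ e)⁻¹ = d := by
        have := mem_centralizer_iff.1 hne d hd
        rw [← this]; group
      rw [hpow e] at h6
      have h7 : c ^ e = 1 := mul_eq_right.1 h6
      have h8 : c = 1 := by
        have hco : Nat.Coprime p e := (Nat.Prime.coprime_iff_not_dvd hp.out).2 he
        have h9 : orderOf c ∣ Nat.gcd p e :=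
          Nat.dvd_gcd (orderOf_dvd_of_pow_eq_one hcp) (orderOf_dvd_of_pow_eq_one h7)
        rw [hco.gcd_eq_one, Nat.dvd_one, orderOf_eq_one_iff] at h9
        exact h9
      rw [hcd, h8, one_mul]
  rw [mem_centralizer_iff]
  intro d hd
  obtain ⟨j, hj⟩ := hD ⟨d, hd⟩
  have h2 := key j d hd (congrArg Subtype.val hj)
  rw [mul_inv_eq_iff_eq_mul] at h2
  exact h2.symm

end Coprime

section LinAlg

theorem natCard_linearEnd {F V : Type*} [Field F] [Finite F] [AddCommGroup V] [Module F V]
    [Module.Finite F V] :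
    Nat.card (V →ₗ[F] V) = Nat.card F ^ (Module.finrank F V * Module.finrank F V) := by
  have h := Module.natCard_eq_pow_finrank (K := F) (V := V →ₗ[F] V)
  rw [h, Module.finrank_linearMap F F V V]

/-- an elementary abelian `p`-group `V` of order `p ^ r` has at most `p ^ (r * r)` additive
endomorphisms -/
theorem card_addHom_le {p : ℕ} [hp : Fact p.Prime] {V : Type*} [AddCommGroup V] [Finite V]
    [Module (ZMod p) V] :
    ∃ r : ℕ, Nat.card V = p ^ r ∧ Finite (V →+ V) ∧ Nat.card (V →+ V) ≤ p ^ (r * r) := by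
  have hmf : Module.Finite (ZMod p) V := Module.Finite.of_finite
  have h1 : Nat.card V = p ^ Module.finrank (ZMod p) V := by
    have h := Module.natCard_eq_pow_finrank (K := ZMod p) (V := V)
    rwa [Nat.card_zmod] at h
  have h2 : Nat.card (V →ₗ[ZMod p] V) =
      p ^ (Module.finrank (ZMod p) V * Module.finrank (ZMod p) V) := by
    rw [natCard_linearEnd, Nat.card_zmod]
  have hfinE : Finite (V →ₗ[ZMod p] V) := by
    refine Nat.finite_of_card_ne_zero ?_
    rw [h2]
    exact pow_ne_zero _ hp.out.ne_zero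
  have hinj : Function.Injective (fun f : V →+ V => AddMonoidHom.toZModLinearMap p f) := by
    intro f g h
    ext x
    exact congrArg (fun F => F x) h
  refine ⟨_, h1, Finite.of_injective _ hinj, ?_⟩
  rw [← h2]
  exact Nat.card_le_card_of_injective _ hinj

end LinAlg

section Inertial

variable {k : Type*} [Field k] {G : Type*} [Group G] [Finite G] {D : Subgroup G}
  (hab : ∀ a ∈ D, ∀ b ∈ D, a * b = b * a) (b : MonoidAlgebra k (centralizer (D : Set G)))

/-- **the inertial index is at most `p ^ (r ^ 2)`**, `|Ω_1(D)| = p ^ r` -/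
theorem inertialIndex_le {p : ℕ} [hp : Fact p.Prime] (hD : IsPGroup p D)
    (hdiv : ¬ p ∣ inertialIndex D b) :
    ∃ r : ℕ, Nat.card (omS hab p) = p ^ r ∧ inertialIndex D b ≤ p ^ (r * r) := by
  have hcomm : ∀ x y : omS hab p, x * y = y * x := fun x y => Subtype.ext (hab _ x.2.1 _ y.2.1)
  let iC : CommGroup (omS hab p) :=
    { (inferInstance : Group (omS hab p)) with mul_comm := hcomm }
  have hsmul : ∀ x : Additive (omS hab p), p • x = 0 := by
    intro x
    have h1 : (Additive.toMul x : omS hab p) ^ p = 1 := Subtype.ext (Additive.toMul x).2.2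
    exact congrArg Additive.ofMul h1
  let iM : Module (ZMod p) (Additive (omS hab p)) := AddCommGroup.zmodModule hsmul
  have hfin : Finite (Additive (omS hab p)) := inferInstanceAs (Finite (omS hab p))
  obtain ⟨r, hr1, hr2, hr3⟩ := card_addHom_le (p := p) (V := Additive (omS hab p))
  refine ⟨r, hr1, le_trans ?_ hr3⟩
  let T := inertialGroup D b
  let C := centralizer (D : Set G)
  have hTN : ∀ n ∈ T, n ∈ normalizer (D : Set G) := fun n hn => hn.1
  -- conjugation on `Ω_1(D)`
  let act : T → (Additive (omS hab p) →+ Additive (omS hab p)) := fun n =>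
    { toFun := fun x => Additive.ofMul (⟨n.1 * (Additive.toMul x).1 * n.1⁻¹,
          (mem_normalizer_iff.1 (hTN _ n.2) _).1 (Additive.toMul x).2.1, by
            rw [← MulAut.conj_apply, ← map_pow, (Additive.toMul x).2.2, map_one]⟩ : omS hab p)
      map_zero' := by
        apply congrArg Additive.ofMul
        apply Subtype.ext
        change n.1 * 1 * n.1⁻¹ = 1
        group
      map_add' := fun x y => by
        apply congrArg Additive.ofMul
        apply Subtype.ext
        change n.1 * ((Additive.toMul x).1 * (Additive.toMul y).1) * n.1⁻¹ =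
          n.1 * (Additive.toMul x).1 * n.1⁻¹ * (n.1 * (Additive.toMul y).1 * n.1⁻¹)
        group }
  have hact : ∀ (n : T) (x : omS hab p),
      ((Additive.toMul (act n (Additive.ofMul x)) : omS hab p) : G) = n.1 * x.1 * n.1⁻¹ :=
    fun n x => rfl
  have hinj : ∀ n n' : T, act n = act n' → (n.1)⁻¹ * n'.1 ∈ C := by
    intro n n' h
    have hmT : n.1⁻¹ * n'.1 ∈ T := mul_mem (inv_mem n.2) n'.2
    have hCn : (C.subgroupOf T).Normal := by
      refine ⟨fun c hc n => ?_⟩
      rw [mem_subgroupOf] at hc ⊢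
      exact P179B.conj_mem_centralizer_of_mem_normalizer (hTN _ n.2) hc
    refine centralises_of_omega hab hD (hTN _ hmT) hdiv ?_ ?_
    · have h1 := (C.subgroupOf T).pow_index_mem (⟨_, hmT⟩ : T)
      rw [mem_subgroupOf] at h1
      exact h1
    · intro x hx
      have h1 := hact n ⟨x, hx⟩
      have h2 := hact n' ⟨x, hx⟩
      rw [h, h2] at h1
      have h3 : n'.1 * x * n'.1⁻¹ = n.1 * x * n.1⁻¹ := h1
      calc n.1⁻¹ * n'.1 * x * (n.1⁻¹ * n'.1)⁻¹ = n.1⁻¹ * (n'.1 * x * n'.1⁻¹) * n.1 := by group
        _ = x := by rw [h3]; group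
  change C.relIndex T ≤ _
  unfold Subgroup.relIndex Subgroup.index
  refine Nat.card_le_card_of_injective (fun c : T ⧸ C.subgroupOf T => act c.out) ?_
  intro c c' h
  have h1 := hinj _ _ h
  rw [← QuotientGroup.out_eq' c, ← QuotientGroup.out_eq' c', QuotientGroup.eq]
  rw [mem_subgroupOf]
  exact h1

end Inertial

end P179H292
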