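import Vale.Agent.P179.R2.H292.LDefsB

/-!
# Blocks with abelian defect group `D` and conditions on `[D, T]` only
-/

namespace P179B

open Subgroup

/-- The subgroup `[D, T]` of `D` generated by the commutators `n d n⁻¹ d⁻¹` of the elements `d` of `D`
and the elements `n` of the inertial group `T` of `b`. If `D` is an abelian defect group, then `D`
is the direct product of `[D, T]` and `C_D(T)`. -/
def hyperfocal {k : Type*} [Field k] {G : Type*} [Group G] (D : Subgroup G)
    (b : MonoidAlgebra k (centralizer (D : Set G))) : Subgroup G :=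
  closure {x | ∃ n ∈ inertialGroup D b, ∃ d ∈ D, x = n * d * n⁻¹ * d⁻¹}

/-- The abelian `p`-group `K` is a direct product of two cyclic groups `≠ 1`, and if `p ≠ 3`, then
they are not both of order `p`. -/
def RankTwoNotElem (p : ℕ) {G : Type*} [Group G] (K : Subgroup G) : Prop :=
  Nat.card {x : G // x ∈ K ∧ x ^ p = 1} = p ^ 2 ∧ (p = 3 ∨ ∃ z ∈ K, z ^ p ≠ 1)

/-- The abelian `p`-group `K` is a direct product of `r ≥ 0` cyclic groups, all of order at least
`p ^ n`, where `n > j (r - 1)` for some `j` with `j ≥ r` and `4 j ≥ r (r + 1)`: the group of the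
elements `x ∈ K` with `x ^ p = 1` has order `p ^ r` and all these `x` are `p ^ (n - 1)`-th powers.
So `n ≥ 1` for `r ≤ 1`, `n ≥ 3` for `r = 2`, `n ≥ 7` for `r = 3`, `n ≥ 16` for `r = 4`. -/
def LargeRank (p : ℕ) {G : Type*} [Group G] (K : Subgroup G) : Prop :=
  ∃ r j n : ℕ, r ≤ j ∧ r * (r + 1) ≤ 4 * j ∧ j * (r - 1) < n ∧
    Nat.card {x : G // x ∈ K ∧ x ^ p = 1} = p ^ r ∧
    ∀ x ∈ K, x ^ p = 1 → ∃ y ∈ K, y ^ p ^ (n - 1) = x

/-- All cyclic factors of `[D, T]` have order at least `p ^ (a + 1)`, or the inertial quotient acts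
faithfully on the group of the `p ^ a`-th powers of the elements of `D`. -/
def PowerLargeHyp (p a : ℕ) {k : Type*} [Field k] {G : Type*} [Group G] (D : Subgroup G)
    (b : MonoidAlgebra k (centralizer (D : Set G))) : Prop :=
  (∀ x ∈ hyperfocal D b, x ^ p = 1 → ∃ y ∈ hyperfocal D b, y ^ p ^ a = x) ∨ PowerFaithful p a D b

/-- The prime `p` is odd, the block `B` of `G` has an abelian defect group `D`, and for some block
`b` of `C_G(D)` with `b^G = B` the group `[D, T]` is a product of two cyclic groups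
(`RankTwoNotElem`), or a product of at most one or of large cyclic groups (`LargeRank`), or the
inertial quotient acts faithfully on the `p ^ a`-th powers of `D` (`PowerFaithful`), the inertial
index is at most `p ^ (a + 1)` and there is a coset `w Y` of order `o` as in `RegularCoset` with
`p |D : Y| ≤ o p ^ (a + 1)`. -/
def HypBlock (p : ℕ) {k : Type*} [Field k] {G : Type*} [Group G] (B : MonoidAlgebra k G) :
    Prop :=
  2 < p ∧ ∃ (D : Subgroup G) (b : MonoidAlgebra k (centralizer (D : Set G))),
    IsDefectGroup B D ∧ (∀ x ∈ D, ∀ y ∈ D, x * y = y * x) ∧ IsBlock b ∧ InducesTo b B ∧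
    (RankTwoNotElem p (hyperfocal D b) ∨ LargeRank p (hyperfocal D b) ∨
      ∃ (a j o : ℕ) (w : G), PowerFaithful p a D b ∧ RegularCoset p j o D b w ∧
        inertialIndex D b ≤ p ^ (a + 1) ∧
        Nat.card D * p ≤ p ^ (a + 1) * (Nat.card {y : G // ∃ d ∈ D, d ^ p ^ j = y} * o))

end P179B
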