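import Vale.Agent.P179.R2.H292.FinalE
import Vale.Agent.P179.R2.H292.LDefsD
import Vale.Agent.P179.R2.H292.Hyp
import Vale.Agent.P179.R2.H443.Fin9
import Vale.Agent.P179.R2.H351.Foc

/-!
# Final assembly for `[D, T]`, relative to Watanabe's theorem and to the bound for
`C_(p^2) × C_(p^2)`
-/

namespace P179H292

open Subgroup P179H524 P179R P179Y MonoidAlgebra

open P179B (inertialIndex inertialGroup LargeFactors RegularCoset PowerFaithful RankTwo
  hyperfocal RankTwoNotElem LargeRank PowerLargeHyp HypBlock)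

open scoped Classical

universe u

section

variable {p : ℕ} [hp : Fact p.Prime] {k : Type u} [Field k] [IsAlgClosed k] [CharP k p]
  (red : integralClosure ℤ ℂ →+* k)

theorem hyperfocal_eq {G : Type*} [Group G] (D : Subgroup G)
    (b : MonoidAlgebra k (centralizer (D : Set G))) :
    hyperfocal D b = ⁅inertialGroup D b, D⁆ := by
  rw [hyperfocal, Subgroup.commutator_def]
  congr 1
  ext x
  constructor
  · rintro ⟨n, hn, d, hd, rfl⟩
    exact ⟨n, hn, d, hd, rfl⟩
  · rintro ⟨n, hn, d, hd, rfl⟩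
    exact ⟨n, hn, d, hd, rfl⟩

/-- rank two, `D` itself -/
theorem eq_of_rankTwoNotElem (hbd : P179H443.BdSq p k) (hp2 : p ≠ 2) {G : Type} [Group G]
    [Finite G] {B : MonoidAlgebra k G} (hB : P179B.IsBlock B) {D : Subgroup G}
    (hD : P179B.IsDefectGroup B D) (hab : ∀ a ∈ D, ∀ b ∈ D, a * b = b * a)
    (h : RankTwoNotElem p D) : P179B.numSimpleIn B = P179B.numWeightsIn p red B := by
  obtain ⟨h1, h2⟩ := h
  by_cases h3 : ∃ z ∈ D, z ^ p ≠ 1
  · by_cases h4 : ∃ z ∈ D, z ^ p ^ 2 ≠ 1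
    · exact eq_of_rankTwo red hp2 hB hD hab ⟨h1, Or.inl h4⟩
    · by_cases h5 : ∃ x ∈ D, x ^ p = 1 ∧ ∀ y ∈ D, y ^ p ≠ x
      · exact eq_of_rankTwo red hp2 hB hD hab ⟨h1, Or.inr ⟨h3, h5⟩⟩
      · push Not at h4 h5
        exact P179H443.eq_of_bdSq red hbd hB hD hab ⟨h1, h5, h4⟩
  · rcases h2 with h2 | h2
    · subst h2
      push Not at h3
      refine P179H443.eq_of_card_le_nine red hB hD ?_
      have h4 : Nat.card D = 3 ^ 2 := by
        rw [← h1]
        refine Nat.card_congr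
          { toFun := fun x => ⟨x, x.2, h3 x x.2⟩
            invFun := fun x => ⟨x, x.2.1⟩
            left_inv := fun x => rfl
            right_inv := fun x => rfl }
      rw [h4]
      norm_num
    · exact absurd h2 h3

/-- large cyclic factors, `D` itself -/
theorem eq_of_largeRank (hp2 : p ≠ 2) {G : Type} [Group G]
    [Finite G] {B : MonoidAlgebra k G} (hB : P179B.IsBlock B) {D : Subgroup G}
    (hD : P179B.IsDefectGroup B D) (hab : ∀ a ∈ D, ∀ b ∈ D, a * b = b * a)
    (h : LargeRank p D) : P179B.numSimpleIn B = P179B.numWeightsIn p red B := by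
  obtain ⟨r, j, n, h1, h2, h3, h4, h5⟩ := h
  rcases Nat.eq_zero_or_pos r with h0 | h0
  · subst h0
    -- `D = 1`
    have hDp := isPGroup_of_defect (p := p) hB hD
    have hD1 : D = ⊥ := by
      rw [eq_bot_iff]
      intro x hx
      by_contra hx1
      rw [mem_bot] at hx1
      obtain ⟨m, hm⟩ := (IsPGroup.iff_orderOf.1 hDp) ⟨x, hx⟩
      have hm' : orderOf x = p ^ m := by
        rw [← hm]
        exact (orderOf_mk x hx).symm
      have hm0 : m ≠ 0 := by
        rintro rfl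
        rw [pow_zero, orderOf_eq_one_iff] at hm'
        exact hx1 hm'
      obtain ⟨c, rfl⟩ := Nat.exists_eq_succ_of_ne_zero hm0
      have h6 : (x ^ p ^ c) ^ p = 1 := by
        rw [← pow_mul, ← pow_succ, ← Nat.succ_eq_add_one, ← hm', pow_orderOf_eq_one]
      rw [pow_zero, Nat.card_eq_one_iff_unique] at h4
      have := h4.1
      have h7 : x ^ p ^ c = 1 := by
        have h8 : (⟨x ^ p ^ c, pow_mem hx _, h6⟩ : {x : G // x ∈ D ∧ x ^ p = 1}) =
            ⟨1, one_mem D, one_pow _⟩ := Subsingleton.elim _ _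
        exact congrArg Subtype.val h8
      have h8 := orderOf_dvd_of_pow_eq_one h7
      rw [hm', Nat.succ_eq_add_one] at h8
      have h9 := Nat.le_of_dvd (pow_pos hp.out.pos _) h8
      exact absurd h9 (not_le.2 (Nat.pow_lt_pow_right hp.out.one_lt (Nat.lt_succ_self c)))
    obtain ⟨β, hβ, hβB⟩ := P179B.exists_root p hB hD
    have h6 : inertialIndex D β = 1 := by
      subst hD1
      refine relIndex_eq_one.2 fun x _ => ?_
      rw [mem_centralizer_iff]
      intro y hy
      rw [SetLike.mem_coe, mem_bot] at hy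
      rw [hy, one_mul, mul_one]
    have := Fintype.ofFinite G
    rw [P179B.numSimpleIn_eq, P179B.numWeightsIn_eq]
    exact P179I.equality_half red hB hD hab hβ ((P179B.inducesTo_iff β B).1 hβB)
      (by rw [h6]; exact hp.out.two_le)
  · exact eq_of_largeFactors red (P179H452.m7Stmt red hp2) hB hD hab
      ⟨r, j, n, h0, h1, h2, h3, h4, h5⟩

theorem comm_of_equiv {G X : Type*} [Group G] [Group X] {K : Subgroup G} {D : Subgroup X}
    (e : K ≃* D) (h : ∀ a ∈ K, ∀ b ∈ K, a * b = b * a) : ∀ a ∈ D, ∀ b ∈ D, a * b = b * a := by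
  intro a ha b hb
  have h1 : e.symm ⟨a, ha⟩ * e.symm ⟨b, hb⟩ = e.symm ⟨b, hb⟩ * e.symm ⟨a, ha⟩ :=
    Subtype.ext (h _ (e.symm ⟨a, ha⟩).2 _ (e.symm ⟨b, hb⟩).2)
  rw [← map_mul, ← map_mul] at h1
  exact congrArg Subtype.val (e.symm.injective h1)

theorem eqFor_rankTwo (hbd : P179H443.BdSq p k) (hp2 : p ≠ 2) {G : Type*} [Group G]
    {K : Subgroup G} (hab : ∀ a ∈ K, ∀ b ∈ K, a * b = b * a) (h : RankTwoNotElem p K) :
    EqFor p red K := by
  intro X _ _ B D hB hD ⟨e⟩
  have h1 := eq_of_rankTwoNotElem red hbd hp2 hB hD (comm_of_equiv e hab)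
    ⟨(P179H351.card_equiv e p).symm.trans h.1, h.2.imp id fun ⟨z, hz, hz1⟩ =>
      ⟨e ⟨z, hz⟩, (e ⟨z, hz⟩).2, fun h2 => hz1 ((P179H351.pow_eq_one_equiv e ⟨z, hz⟩ p).1 h2)⟩⟩
  rwa [P179B.numSimpleIn_eq, P179B.numWeightsIn_eq] at h1

theorem eqFor_largeRank (hp2 : p ≠ 2) {G : Type*} [Group G]
    {K : Subgroup G} (hab : ∀ a ∈ K, ∀ b ∈ K, a * b = b * a) (h : LargeRank p K) :
    EqFor p red K := by
  intro X _ _ B D hB hD ⟨e⟩
  obtain ⟨r, j, n, h1, h2, h3, h4, h5⟩ := h
  have h1 := eq_of_largeRank red hp2 hB hD (comm_of_equiv e hab)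
    ⟨r, j, n, h1, h2, h3, (P179H351.card_equiv e p).symm.trans h4,
      P179H351.forall_pow_equiv e h5⟩
  rwa [P179B.numSimpleIn_eq, P179B.numWeightsIn_eq] at h1

theorem eq_of_eqFor (hW : WatX p k) {G : Type} [Group G] [Finite G] {B : MonoidAlgebra k G}
    (hB : P179B.IsBlock B) {D : Subgroup G} (hD : P179B.IsDefectGroup B D)
    (hab : ∀ a ∈ D, ∀ b ∈ D, a * b = b * a) {β : MonoidAlgebra k (centralizer (D : Set G))}
    (hβ : P179B.IsBlock β) (hβB : P179B.InducesTo β B) (h : EqFor p red (hyperfocal D β)) :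
    P179B.numSimpleIn B = P179B.numWeightsIn p red B := by
  rw [P179B.numSimpleIn_eq, P179B.numWeightsIn_eq]
  rw [hyperfocal_eq] at h
  exact eq_of_hyp red hW (P179H450.defQuo p k) _ G rfl B D β hB hD hab hβ
    ((P179B.inducesTo_iff β B).1 hβB) h

theorem hyperfocal_comm {G : Type*} [Group G] {D : Subgroup G}
    (hab : ∀ a ∈ D, ∀ b ∈ D, a * b = b * a) (β : MonoidAlgebra k (centralizer (D : Set G))) :
    hyperfocal D β ≤ D ∧ ∀ a ∈ hyperfocal D β, ∀ b ∈ hyperfocal D β, a * b = b * a := by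
  have h1 : hyperfocal D β ≤ D := by
    rw [hyperfocal, closure_le]
    rintro x ⟨n, hn, d, hd, rfl⟩
    exact mul_mem ((mem_normalizer_iff.mp hn.1 d).mp hd) (inv_mem hd)
  exact ⟨h1, fun a ha b hb => hab a (h1 ha) b (h1 hb)⟩

theorem eq_of_hypBlock (hW : WatX p k) (hbd : 2 < p → P179H443.BdSq p k) {G : Type} [Group G]
    [Finite G] {B : MonoidAlgebra k G} (hB : P179B.IsBlock B) (h : HypBlock p B) :
    P179B.numSimpleIn B = P179B.numWeightsIn p red B := by
  obtain ⟨hp2, D, b, hD, hab, hb, hbB, h | h | ⟨a, j, o, w, hf, hr, he, hc⟩⟩ := h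
  · exact eq_of_eqFor red hW hB hD hab hb hbB
      (eqFor_rankTwo red (hbd hp2) (by omega) (hyperfocal_comm hab b).2 h)
  · exact eq_of_eqFor red hW hB hD hab hb hbB
      (eqFor_largeRank red (by omega) (hyperfocal_comm hab b).2 h)
  · obtain ⟨hj, ho0, hw, ho, hreg, hii⟩ := hr
    exact eq_of_w red (P179H843.eqRel p k red) (P179H452.m7Stmt red (by omega)) hB hD hab hb hbB
      hf hj hw ho0 (fun i hi => (ho i).1 hi) hreg hii hc he

include red in
/-- the cyclic factors of `[D, T]` -/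
theorem faithful_of_hyp {G : Type} [Group G] [Finite G] {B : MonoidAlgebra k G}
    (hB : P179B.IsBlock B) {D : Subgroup G} (hD : P179B.IsDefectGroup B D)
    (hab : ∀ a ∈ D, ∀ b ∈ D, a * b = b * a) {β : MonoidAlgebra k (centralizer (D : Set G))}
    (hβ : P179B.IsBlock β) (hβB : P179B.InducesTo β B) {a : ℕ} (h : PowerLargeHyp p a D β) :
    PowerFaithful p a D β := by
  rcases h with h | h
  · have hDp := isPGroup_of_defect (p := p) hB hD
    obtain ⟨-, hnd⟩ := numWeights_le red hB hD hab hβ hβB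
    have hTN : inertialGroup D β ≤ normalizer (D : Set G) := fun n hn => hn.1
    rw [hyperfocal_eq] at h
    intro n hn hfix
    refine P179H450.mem_cent_of_fix hDp hab (X := inertialGroup D β)
      (fun t ht x hx => (mem_normalizer_iff.mp (hTN ht) x).mp hx) hnd hn ?_
    intro x hx hxp
    obtain ⟨y, hy, hyfix, z, hz, hxyz⟩ := mem_fix_mul hDp hab hTN hnd hx
    have hzD : z ∈ D := comm_le hTN hz
    have h1 : y ^ p * z ^ p = 1 := by
      have h2 : Commute y z := hab y hy z hzD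
      rw [← h2.mul_pow, ← hxyz, hxp]
    have h2 : z ^ p = 1 := by
      refine comm_inf_fix hDp hab hTN hnd (pow_mem hz p) fun t ht => ?_
      have h3 : z ^ p = (y ^ p)⁻¹ := (eq_inv_of_mul_eq_one_right h1)
      rw [h3]
      have h4 : t * (y ^ p)⁻¹ * t⁻¹ = ((t * y * t⁻¹) ^ p)⁻¹ := by
        rw [conj_pow]
        group
      rw [h4, hyfix t ht]
    obtain ⟨v, hv, hvz⟩ := h z hz h2
    have h5 := hfix v (comm_le hTN hv)
    rw [hvz] at h5
    calc n * x * n⁻¹ = n * y * n⁻¹ * (n * z * n⁻¹) := by rw [hxyz]; group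
      _ = x := by rw [hyfix n hn, h5, hxyz]
  · exact h

end

end P179H292
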