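import Vale.Agent.P179.R2.H292.Tens
import Vale.Agent.P179.H166.WB1
import Vale.Agent.P179.H166.Z2

/-!
# The block `e ⊗ ... ⊗ e` of the wreath product and its defect group
-/

namespace P179H292

open Subgroup P179H524 P179A P179R P179Y P179C MonoidAlgebra RegularWreathProduct

open scoped Classical

universe u

section Base

variable {k : Type u} [Field k] {G : Type} [Group G] [Fintype G] {Q : Type} [Group Q] [Fintype Q]

/-- restriction to the base group -/
noncomputable def toBase (f : MonoidAlgebra k (G ≀ᵣ Q)) : MonoidAlgebra k (Q → G) :=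
  mkF (fun y => f.coeff (incl G Q y))

theorem coeff_toBase (f : MonoidAlgebra k (G ≀ᵣ Q)) (y : Q → G) :
    (toBase f).coeff y = f.coeff (incl G Q y) := coeff_mkF _ y

/-- elements supported on the base group -/
def OnBase (f : MonoidAlgebra k (G ≀ᵣ Q)) : Prop := ∀ x, x.right ≠ 1 → f.coeff x = 0

theorem eq_of_toBase {f f' : MonoidAlgebra k (G ≀ᵣ Q)} (hf : OnBase f) (hf' : OnBase f')
    (h : toBase f = toBase f') : f = f' := by
  ext x
  by_cases hx : x.right = 1
  · rw [eq_incl hx, ← coeff_toBase, ← coeff_toBase, h]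
  · rw [hf x hx, hf' x hx]

theorem toBase_mul {f f' : MonoidAlgebra k (G ≀ᵣ Q)} (hf : OnBase f) :
    toBase (f * f') = toBase f * toBase f' := by
  have := Fintype.ofFinite (G ≀ᵣ Q)
  ext y
  rw [coeff_toBase, coeff_mul_eq_conv, coeff_mul_eq_conv]
  unfold conv
  simp only [coeff_toBase]
  rw [← (equivProd G Q).symm.sum_comp, Fintype.sum_prod_type]
  refine Finset.sum_congr rfl fun h _ => ?_
  rw [Finset.sum_eq_single (1 : Q)]
  · have h1 : incl G Q (h⁻¹ * y) = (incl G Q h)⁻¹ * incl G Q y := by rw [map_mul, map_inv]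
    rw [h1]
    rfl
  · intro τ _ hτ
    rw [hf _ hτ, zero_mul]
  · intro h; exact absurd (Finset.mem_univ _) h

theorem toBase_mem {f : MonoidAlgebra k (G ≀ᵣ Q)}
    (hf : f ∈ Subalgebra.center k (MonoidAlgebra k (G ≀ᵣ Q))) :
    toBase f ∈ Subalgebra.center k (MonoidAlgebra k (Q → G)) := by
  refine mkF_mem fun g y => ?_
  have h1 := (P179C.mem_center_iff f).1 hf (incl G Q g) (incl G Q y)
  rw [← map_mul, ← map_inv, ← map_mul] at h1
  exact h1

theorem onBase_ehat (e : MonoidAlgebra k G) : OnBase (ehat Q e) := by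
  intro x hx
  rw [coeff_ehat, wcoef, if_neg hx]

theorem toBase_ehat {e : MonoidAlgebra k G} (he : e ∈ Subalgebra.center k (MonoidAlgebra k G)) :
    toBase (ehat Q e) =
      (tens (fun _ : Q => (⟨e, he⟩ : Subalgebra.center k (MonoidAlgebra k G)))).1 := by
  ext y
  rw [coeff_toBase, coeff_ehat, wcoef_incl, coeff_tens]

variable {p : ℕ} [hp : Fact p.Prime]

/-- **the block of the wreath product** -/
theorem isBlock_ehat [IsAlgClosed k] [CharP k p] (hQ : Nat.card Q = p) {e : MonoidAlgebra k G}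
    (he : IsBlock e) : IsBlock (ehat Q e) := by
  have hprim := prim_tens (Q := Q) he
  set E := tens (fun _ : Q => (⟨e, he.1⟩ : Subalgebra.center k (MonoidAlgebra k G))) with hE
  have hEE : toBase (ehat Q e) = E.1 := toBase_ehat he.1
  refine ⟨ehat_mem e he.1, ehat_idem e he.2.1, ?_, ?_⟩
  · intro h
    rw [h] at hEE
    apply hprim.2.1
    apply Subtype.ext
    rw [← hEE]
    ext y
    rw [coeff_toBase]
    rfl
  · intro f hf hff hfe
    have hfB : OnBase f := by
      intro x hx
      refine osima_g p f hf hff x ?_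
      by_contra h
      exact hx (right_eq_one hQ h)
    have h1 : (⟨toBase f, toBase_mem hf⟩ : Subalgebra.center k (MonoidAlgebra k (Q → G))) *
        ⟨toBase f, toBase_mem hf⟩ = ⟨toBase f, toBase_mem hf⟩ := by
      apply Subtype.ext
      change toBase f * toBase f = toBase f
      rw [← toBase_mul hfB, hff]
    have h2 : (⟨toBase f, toBase_mem hf⟩ : Subalgebra.center k (MonoidAlgebra k (Q → G))) * E =
        ⟨toBase f, toBase_mem hf⟩ := by
      apply Subtype.ext
      change toBase f * E.1 = toBase f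
      rw [← hEE, ← toBase_mul hfB, hfe]
    rcases hprim.2.2 _ h1 h2 with h3 | h3
    · left
      refine eq_of_toBase hfB (fun x _ => rfl) ?_
      have h4 : toBase f = 0 := congrArg Subtype.val h3
      rw [h4]
      ext y
      rw [coeff_toBase]
      rfl
    · right
      refine eq_of_toBase hfB (onBase_ehat e) ?_
      rw [hEE]
      exact congrArg Subtype.val h3

end Base

section Trace

variable {k : Type u} [Field k] {G : Type} [Group G] [Fintype G] {Q : Type} [Group Q] [Fintype Q]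

theorem coeff_relTrace {W : Type} [Group W] (D : Subgroup W) [Fintype (W ⧸ D)]
    (a : MonoidAlgebra k W) (x : W) :
    (∑ᶠ c : W ⧸ D, P179C.conjBy c.out a).coeff x =
      ∑ c : W ⧸ D, a.coeff (c.out⁻¹ * x * c.out) := by
  rw [finsum_eq_sum_of_fintype, MonoidAlgebra.coeff_sum, Finsupp.finsetSum_apply]
  exact Finset.sum_congr rfl fun c _ => P179C.H905.coeff_conjBy _ _ _

theorem coeff_out {W : Type} [Group W] {D : Subgroup W} {a : MonoidAlgebra k W}
    (ha : ∀ d ∈ D, P179C.conjBy d a = a) (g x : W) :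
    a.coeff ((g : W ⧸ D).out⁻¹ * x * (g : W ⧸ D).out) = a.coeff (g⁻¹ * x * g) := by
  obtain ⟨d, hd⟩ := QuotientGroup.mk_out_eq_mul D g
  rw [hd]
  have h1 : (g * (d : W))⁻¹ * x * (g * d) = (d : W)⁻¹ * (g⁻¹ * x * g) * d := by group
  rw [h1, ← P179C.H905.coeff_conjBy, ha d d.2]

omit [Fintype G] [Fintype Q] in
theorem wcoef_conj [Fintype Q] (a : MonoidAlgebra k G) (x : G ≀ᵣ Q) (y : Q → G) :
    wcoef a (x⁻¹ * incl G Q y * x) = ∏ q, a.coeff ((x.left q)⁻¹ * y q * x.left q) := by
  have h1 : x⁻¹ * incl G Q y * x = x⁻¹ * incl G Q y * (x⁻¹)⁻¹ := by rw [inv_inv]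
  rw [h1, wr_conj, wcoef_incl, ← Equiv.prod_comp (Equiv.mulLeft x.right)
    (fun q => a.coeff ((x.left q)⁻¹ * y q * x.left q))]
  refine Finset.prod_congr rfl fun q _ => ?_
  have h2 : (x⁻¹).left q = (x.left (x.right * q))⁻¹ := inv_left' x q
  have h3 : ((x⁻¹).right)⁻¹ * q = x.right * q := by rw [inv_right, inv_inv]
  rw [h2, h3, inv_inv]
  rfl

omit [Fintype G] [Fintype Q] in
theorem wcoef_conj_of_ne [Fintype Q] (a : MonoidAlgebra k G) (x : G ≀ᵣ Q) {y : G ≀ᵣ Q}
    (hy : y.right ≠ 1) : wcoef a (x⁻¹ * y * x) = 0 := by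
  rw [wcoef, if_neg]
  intro h
  apply hy
  have h1 : (x⁻¹ * y * x).right = x.right⁻¹ * y.right * x.right := rfl
  rw [h1] at h
  have h2 : y.right = x.right * (x.right⁻¹ * y.right * x.right) * x.right⁻¹ := by group
  rw [h2, h]
  group

/-- the cosets of `D ≀ Q` -/
noncomputable def cosetEquiv (Q : Type) [Group Q] (D : Subgroup G) :
    (G ≀ᵣ Q) ⧸ bR Q D ≃ (Q → G ⧸ D) := by
  refine Equiv.ofBijective (Quotient.lift (fun x : G ≀ᵣ Q => fun q => (x.left q : G ⧸ D)) ?_) ⟨?_, ?_⟩
  · intro x y hxy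
    have h1 : x⁻¹ * y ∈ bR Q D := QuotientGroup.leftRel_apply.1 hxy
    funext q
    rw [QuotientGroup.eq]
    have h2 := h1 (x.right⁻¹ * q)
    rw [mul_left', inv_left', inv_right, inv_inv, mul_inv_cancel_left] at h2
    exact h2
  · intro x y
    induction x using QuotientGroup.induction_on with
    | H x =>
      induction y using QuotientGroup.induction_on with
      | H y =>
        intro h
        rw [QuotientGroup.eq]
        intro q
        rw [mul_left', inv_left', inv_right, inv_inv]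
        exact QuotientGroup.eq.1 (congrFun h (x.right * q))
  · intro C
    refine ⟨((incl G Q fun q => (C q).out : G ≀ᵣ Q) : (G ≀ᵣ Q) ⧸ bR Q D), ?_⟩
    funext q
    exact QuotientGroup.out_eq' (C q)

omit [Fintype G] [Fintype Q] in
theorem cosetEquiv_mk (D : Subgroup G) (x : G ≀ᵣ Q) (q : Q) :
    cosetEquiv Q D (x : (G ≀ᵣ Q) ⧸ bR Q D) q = (x.left q : G ⧸ D) := rfl

theorem isRelTrace_ehat {e : MonoidAlgebra k G} {D : Subgroup G} (h : P179C.IsRelTrace e D) :
    P179C.IsRelTrace (ehat Q e) (bR Q D) := by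
  obtain ⟨a, ha, hea⟩ := h
  have hinv : ∀ d ∈ bR Q D, P179C.conjBy d (ehat Q a) = ehat Q a := by
    intro d hd
    ext x
    rw [P179C.H905.coeff_conjBy, coeff_ehat, coeff_ehat]
    by_cases hx : x.right = 1
    · rw [eq_incl hx, wcoef_conj, wcoef_incl]
      refine Finset.prod_congr rfl fun q _ => ?_
      rw [← P179C.H905.coeff_conjBy, ha _ (hd q)]
    · rw [wcoef_conj_of_ne a d hx, wcoef, if_neg hx]
  refine ⟨ehat Q a, hinv, ?_⟩
  have := Fintype.ofFinite ((G ≀ᵣ Q) ⧸ bR Q D)
  have := Fintype.ofFinite (G ⧸ D)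
  ext x
  rw [coeff_relTrace, coeff_ehat]
  simp only [coeff_ehat]
  by_cases hx : x.right = 1
  · obtain ⟨y, rfl⟩ : ∃ y, x = incl G Q y := ⟨_, eq_incl hx⟩
    rw [wcoef_incl]
    have h1 : ∀ q, e.coeff (y q) = ∑ c : G ⧸ D, a.coeff (c.out⁻¹ * y q * c.out) := by
      intro q
      rw [hea, coeff_relTrace]
    rw [Finset.prod_congr rfl fun q _ => h1 q, Finset.prod_univ_sum, Fintype.piFinset_univ,
      ← (cosetEquiv Q D).sum_comp]
    refine Finset.sum_congr rfl fun c _ => ?_
    rw [wcoef_conj]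
    refine Finset.prod_congr rfl fun q _ => ?_
    have h2 : cosetEquiv Q D c q = ((c.out.left q : G) : G ⧸ D) := by
      conv_lhs => rw [← QuotientGroup.out_eq' c]
      rfl
    rw [h2, coeff_out ha]
  · rw [wcoef, if_neg hx]
    exact (Finset.sum_eq_zero fun c _ => wcoef_conj_of_ne a c.out hx).symm

variable {p : ℕ} [hp : Fact p.Prime]

/-- **the defect group of the block of the wreath product** -/
theorem isDefectGroup_ehat [IsAlgClosed k] [CharP k p] (hQ : Nat.card Q = p)
    {e : MonoidAlgebra k G} (he : IsBlock e) {D : Subgroup G} (hD : IsDefectGroup e D) :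
    IsDefectGroup (ehat Q e) (bR Q D) := by
  refine ⟨isRelTrace_ehat hD.1, ?_⟩
  intro H hH hle
  obtain ⟨x, l, hl, hlz, hex, hlx, hSyl, hxreg⟩ := exists_elt_of_block (p := p) he hD
  have hDp : IsPGroup p D := hSyl.pgp
  have hP : IsPGroup p (bR Q D) := bR_pgroup hQ hDp
  have hDx : ∀ d ∈ D, d * x = x * d := by
    intro d hd
    exact (mem_centralizer_singleton_iff.1 (hSyl.le hd))
  have hcoef : (ehat Q e).coeff (incl G Q fun _ => x) ≠ 0 := by
    rw [coeff_ehat, wcoef_incl]
    exact Finset.prod_ne_zero_iff.2 fun _ _ => hex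
  obtain ⟨c, hc⟩ := zab_of_relTrace p (ehat Q e) H hH _ hcoef (bR Q D) hP (by
    intro u hu
    rw [mem_centralizer_singleton_iff]
    ext q
    · rw [mul_left', mul_left']
      change u.left q * x = x * u.left ((1 : Q)⁻¹ * q)
      rw [inv_one, one_mul]
      exact hDx _ (hu q)
    · change u.right * 1 = 1 * u.right
      rw [mul_one, one_mul])
  have h1 : (bR Q D).map (MulAut.conj c⁻¹).toMonoidHom ≤ H := by
    rintro _ ⟨u, hu, rfl⟩
    have h2 := hc u hu
    simpa [MulAut.conj_apply] using h2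
  have h3 : Nat.card (bR Q D) ≤ Nat.card H := by
    have h4 : Nat.card ((bR Q D).map (MulAut.conj c⁻¹).toMonoidHom) = Nat.card (bR Q D) :=
      Nat.card_congr ((bR Q D).equivMapOfInjective _ (MulAut.conj c⁻¹).injective).toEquiv.symm
    rw [← h4]
    exact Subgroup.card_le_of_le h1
  have h5 : H = bR Q D := Subgroup.eq_of_le_of_card_ge hle h3
  exact h5.ge

end Trace

end P179H292
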