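import Vale.Agent.P179.H526.FDP
import Vale.Agent.P179.H526.Inert
import Vale.Agent.P179.H166.KN4

/-!
# Extension of Brauer pairs of a subgroup
-/

namespace P179H292

open Subgroup Finset P179H524 P179C P179A P179P P179Y

open scoped Classical

section

variable {p : ℕ} {k : Type*} [Field k] {G : Type*} [Group G] [Fintype G]

/-- the functional on functions on `G` defined by a functional on functions on `H` -/
def exL (H : Subgroup G) (l : (H → k) → k) : (G → k) → k := fun z => l (fun h : H => z h)

omit [Fintype G] in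
theorem mem_cent_map (H : Subgroup G) (D : Subgroup H) (x : H) :
    x ∈ centralizer (D : Set H) ↔
      (x : G) ∈ centralizer ((D.map H.subtype : Subgroup G) : Set G) := by
  rw [mem_centralizer_iff, mem_centralizer_iff]
  constructor
  · rintro h _ ⟨d, hd, rfl⟩
    exact congrArg Subtype.val (h d hd)
  · intro h d hd
    exact Subtype.ext (h d ⟨d, hd, rfl⟩)

omit [Fintype G] in
/-- functions supported on `C_G(D)` and invariant, restricted to `H` -/
theorem invOn_res {H : Subgroup G} {D : Subgroup H} {a : G → k}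
    (ha : InvOn (centralizer ((D.map H.subtype : Subgroup G) : Set G)) a) :
    InvOn (centralizer (D : Set H)) (fun h : H => a h) := by
  refine ⟨fun c hc x => ?_, fun x hx => ?_⟩
  · exact ha.1 c ((mem_cent_map H D c).1 hc) x
  · exact ha.2 x fun h => hx ((mem_cent_map H D x).2 h)

theorem sum_ext (H : Subgroup G) [Fintype H] (F : G → k) (h0 : ∀ x, x ∉ H → F x = 0) :
    ∑ x : G, F x = ∑ x : H, F x := by
  rw [← Finset.sum_subset (Finset.subset_univ ((Finset.univ : Finset H).map
    ⟨Subtype.val, Subtype.val_injective⟩)), Finset.sum_map]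
  · rfl
  · intro x _ hx
    apply h0
    intro h
    exact hx (Finset.mem_map.2 ⟨⟨x, h⟩, Finset.mem_univ _, rfl⟩)

theorem conv_res (H : Subgroup G) [Fintype H] {a : G → k} (ha : ∀ x, x ∉ H → a x = 0) (b : G → k) :
    (fun h : H => conv a b h) = conv (fun h : H => a h) (fun h : H => b h) := by
  funext x
  unfold conv
  rw [sum_ext H _ fun y hy => by rw [ha y hy, zero_mul]]
  rfl

/-- **extension of Brauer pairs** -/
theorem BP.extend {H : Subgroup G} [Fintype H] {D : Subgroup H} {l : (H → k) → k}
    (hl : BP p D l)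
    (hC : centralizer ((D.map H.subtype : Subgroup G) : Set G) ≤ H) :
    BP p (D.map H.subtype) (exL H l) where
  add a b := hl.add _ _
  smul c a := hl.smul c _
  supp a ha := hl.supp _ fun x hx => ha x ((mem_cent_map H D x).1 hx)
  one := by
    have h1 := hl.one
    unfold exL
    convert h1 using 2
    funext g
    by_cases hg : g = 1
    · subst hg; simp
    · have hg' : (g : G) ≠ 1 := fun h => hg (Subtype.ext h)
      rw [if_neg hg]
      exact if_neg hg'
  mul a b ha hb := by
    unfold exL
    rw [conv_res H (fun x hx => ha.2 x fun h => hx (hC h)), hl.mul _ _ (invOn_res ha) (invOn_res hb)]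
  dfct := by
    obtain ⟨a, ha, hla, hx⟩ := hl.dfct
    have hmem : ∀ x ∈ centralizer ((D.map H.subtype : Subgroup G) : Set G),
        ∃ h : x ∈ H, (⟨x, h⟩ : H) ∈ centralizer (D : Set H) := fun x hx' =>
      ⟨hC hx', (mem_cent_map H D ⟨x, hC hx'⟩).2 hx'⟩
    refine ⟨ext H a, ⟨?_, ?_⟩, ?_, ?_⟩
    · intro c hc x
      obtain ⟨hcH, hc'⟩ := hmem c hc
      by_cases hxH : x ∈ H
      · rw [ext_of_mem H a hxH, ext_of_mem H a (mul_mem (mul_mem hcH hxH) (inv_mem hcH))]
        exact ha.1 ⟨c, hcH⟩ hc' ⟨x, hxH⟩
      · rw [ext_of_not_mem H a hxH, ext_of_not_mem H a]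
        intro h
        apply hxH
        have := mul_mem (mul_mem (inv_mem hcH) h) hcH
        have e1 : c⁻¹ * (c * x * c⁻¹) * c = x := by group
        rwa [e1] at this
    · intro x hx'
      by_cases hxH : x ∈ H
      · rw [ext_of_mem H a hxH]
        exact ha.2 _ fun h => hx' ((mem_cent_map H D ⟨x, hxH⟩).1 h)
      · exact ext_of_not_mem H a hxH
    · have : exL H l (ext H a) = l a := by
        unfold exL
        congr 1
        funext h
        exact ext_coe H a h
      rw [this]; exact hla
    · intro x hax P hP hPx hPC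
      have hxH : x ∈ H := by
        by_contra h
        exact hax (ext_of_not_mem H a h)
      rw [ext_of_mem H a hxH] at hax
      have hPH : P ≤ H := hPC.trans hC
      have h1 := hx ⟨x, hxH⟩ hax (P.subgroupOf H) hP.comap_subtype ?_ ?_
      · intro y hy
        exact ⟨⟨y, hPH hy⟩, h1 (by rw [mem_subgroupOf]; exact hy), rfl⟩
      · intro y hy
        rw [mem_subgroupOf] at hy
        have := hPx hy
        rw [mem_centralizer_singleton_iff] at this ⊢
        exact Subtype.ext this
      · intro y hy
        rw [mem_subgroupOf] at hy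
        exact (mem_cent_map H D y).2 (hPC hy)

omit [Fintype G] in
theorem mem_norm_map (H : Subgroup G) (D : Subgroup H) (x : H) :
    x ∈ normalizer (D : Set H) ↔
      (x : G) ∈ normalizer ((D.map H.subtype : Subgroup G) : Set G) :=
  (P179K.mem_normalizer_map_subtype D x).symm

omit [Fintype G] in
/-- the stabilisers of the pair -/
theorem stabT_le {H : Subgroup G} {D : Subgroup H} {l : (H → k) → k} {n : H}
    (hn : n ∈ stabT D l)  :
    (n : G) ∈ stabT (D.map H.subtype) (exL H l) := by
  refine ⟨(mem_norm_map H D n).1 hn.1, fun z hz => ?_⟩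
  exact hn.2 _ (invOn_res hz)

omit [Fintype G] in
theorem stabT_ext {H : Subgroup G} [Fintype H] {D : Subgroup H} {l : (H → k) → k}
    (hC : centralizer ((D.map H.subtype : Subgroup G) : Set G) ≤ H) {n : H}
    (hn : (n : G) ∈ stabT (D.map H.subtype) (exL H l)) :
    n ∈ stabT D l := by
  refine ⟨(mem_norm_map H D n).2 hn.1, fun z hz => ?_⟩
  have h1 : InvOn (centralizer ((D.map H.subtype : Subgroup G) : Set G)) (ext H z) := by
    constructor
    · intro c hc x
      have hcH := hC hc
      by_cases hxH : x ∈ H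
      · rw [ext_of_mem H z hxH, ext_of_mem H z (mul_mem (mul_mem hcH hxH) (inv_mem hcH))]
        exact hz.1 ⟨c, hcH⟩ ((mem_cent_map H D ⟨c, hcH⟩).2 hc) ⟨x, hxH⟩
      · rw [ext_of_not_mem H z hxH, ext_of_not_mem H z]
        intro h
        apply hxH
        have := mul_mem (mul_mem (inv_mem hcH) h) hcH
        have e1 : c⁻¹ * (c * x * c⁻¹) * c = x := by group
        rwa [e1] at this
    · intro x hx'
      by_cases hxH : x ∈ H
      · rw [ext_of_mem H z hxH]
        exact hz.2 _ fun h => hx' ((mem_cent_map H D ⟨x, hxH⟩).1 h)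
      · exact ext_of_not_mem H z hxH
  have h2 := hn.2 _ h1
  have h3 : (fun h : H => ext H z h) = z := funext fun h => ext_coe H z h
  have h4 : (fun h : H => cj (n : G) (ext H z) h) = cj n z := by
    funext h
    unfold cj
    exact ext_coe H z (n⁻¹ * h * n)
  unfold exL at h2
  rw [h3, h4] at h2
  exact h2

/-- regular elements stay regular in the subgroup -/
theorem regT_of_ext {H : Subgroup G} {D : Subgroup H} {l : (H → k) → k} {u : H}
    (hu : RegT (D.map H.subtype) (exL H l) (u : G)) : RegT D l u := by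
  obtain ⟨h1, h2⟩ := hu
  refine ⟨?_, fun n hn hnu => ?_⟩
  · obtain ⟨d, hd, hdu⟩ := h1
    rwa [← Subtype.ext hdu]
  · exact (mem_cent_map H D n).2 (h2 n (stabT_le hn) (congrArg Subtype.val hnu))

end

section Conj

variable {p : ℕ} {k : Type*} [Field k] {G : Type*} [Group G] {D D' : Subgroup G}
  {l l' : (G → k) → k}

/-- regular elements of conjugate pairs -/
theorem regT_conj {c : G} (hD : D' = D.map (MulAut.conj c).toMonoidHom)
    (hl : ∀ z : G → k, InvOn (centralizer (D' : Set G)) z → l' z = l (cj c⁻¹ z)) {u : G}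
    (hu : RegT D l u) : RegT D' l' (c * u * c⁻¹) := by
  subst hD
  set D' := D.map (MulAut.conj c).toMonoidHom with hD'
  have hmem : ∀ x, x ∈ D' ↔ c⁻¹ * x * c ∈ D := by
    intro x
    constructor
    · rintro ⟨d, hd, rfl⟩
      have : c⁻¹ * (MulAut.conj c).toMonoidHom d * c = d := by
        change c⁻¹ * (c * d * c⁻¹) * c = d
        group
      rwa [this]
    · intro h
      refine ⟨_, h, ?_⟩
      change c * (c⁻¹ * x * c) * c⁻¹ = x
      group
  have hcent : ∀ x, x ∈ centralizer (D' : Set G) ↔ c⁻¹ * x * c ∈ centralizer (D : Set G) := by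
    intro x
    rw [mem_centralizer_iff, mem_centralizer_iff]
    constructor
    · intro h d hd
      have h1 := h (c * d * c⁻¹) ((hmem _).2 (by
        have : c⁻¹ * (c * d * c⁻¹) * c = d := by group
        rwa [this]))
      calc d * (c⁻¹ * x * c) = c⁻¹ * (c * d * c⁻¹ * x) * c := by group
        _ = c⁻¹ * x * c * d := by rw [h1]; group
    · intro h d hd
      have h1 := h _ ((hmem d).1 hd)
      calc d * x = c * (c⁻¹ * d * c * (c⁻¹ * x * c)) * c⁻¹ := by group
        _ = x * d := by rw [h1]; group
  have hnorm : ∀ x, x ∈ normalizer (D' : Set G) ↔ c⁻¹ * x * c ∈ normalizer (D : Set G) := by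
    intro x
    rw [mem_normalizer_iff, mem_normalizer_iff]
    constructor
    · intro h d
      have h1 := h (c * d * c⁻¹)
      rw [hmem, hmem] at h1
      have e1 : c⁻¹ * (c * d * c⁻¹) * c = d := by group
      have e2 : c⁻¹ * (x * (c * d * c⁻¹) * x⁻¹) * c = c⁻¹ * x * c * d * (c⁻¹ * x * c)⁻¹ := by group
      rwa [e1, e2] at h1
    · intro h d
      have h1 := h (c⁻¹ * d * c)
      rw [hmem, hmem]
      have e2 : c⁻¹ * x * c * (c⁻¹ * d * c) * (c⁻¹ * x * c)⁻¹ = c⁻¹ * (x * d * x⁻¹) * c := by group
      rwa [e2] at h1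
  have hinv : ∀ z : G → k, InvOn (centralizer (D : Set G)) z →
      InvOn (centralizer (D' : Set G)) (cj c z) := by
    intro z hz
    constructor
    · intro h hh x
      unfold cj
      have h1 := hz.1 _ ((hcent h).1 hh) (c⁻¹ * x * c)
      rw [← h1]
      congr 1
      group
    · intro x hx
      exact hz.2 _ fun h => hx ((hcent x).2 h)
  refine ⟨(hmem _).2 (by
    have : c⁻¹ * (c * u * c⁻¹) * c = u := by group
    rw [this]; exact hu.1), fun n hn hnu => ?_⟩
  rw [hcent]
  refine hu.2 _ ⟨(hnorm n).1 hn.1, fun z hz => ?_⟩ ?_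
  · have h1 := hn.2 _ (hinv z hz)
    rw [hl _ ((hinv z hz).cj hn.1), hl _ (hinv z hz), ← cj_mul, ← cj_mul, ← cj_mul] at h1
    have e1 : c⁻¹ * n * c = c⁻¹ * (n * c) := by group
    have e2 : cj (c⁻¹ * c) z = z := by rw [inv_mul_cancel, cj_one]
    rw [e2] at h1
    rw [e1]
    simpa [mul_assoc] using h1
  · have h1 : c⁻¹ * n * c * u * (c⁻¹ * n * c)⁻¹ = c⁻¹ * (n * (c * u * c⁻¹) * n⁻¹) * c := by group
    rw [h1, hnu]
    group

end Conj

section Ind

variable {p : ℕ} [hp : Fact p.Prime] {k : Type*} [Field k] [IsAlgClosed k] [CharP k p] {G : Type}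
  [Group G] [Fintype G]

omit [IsAlgClosed k] in
theorem trunc_mkF (H : Subgroup G) [Fintype H] (z : G → k) :
    trunc H (mkF z) = mkF (fun h : H => z h) := by
  ext h
  rw [coeff_trunc, coeff_mkF, coeff_mkF]

/-- the extended functional of a block of a subgroup which induces `B` -/
theorem exL_eq {H : Subgroup G} [Fintype H] {b : MonoidAlgebra k H} {B : MonoidAlgebra k G}
    (hbB : InducesTo b B) {l : (H → k) → k}
    (hl : ∀ z : H → k, IsCF z → l z = centralChar b (mkF z)) (z : G → k) (hz : IsCF z) :
    exL H l z = centralChar B (mkF z) := by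
  unfold exL
  rw [hl _ (fun g x => hz g x), ← trunc_mkF, hbB _ (mkF_mem hz)]

end Ind

end P179H292
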