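import Vale.Agent.P179.H143.CDefs
import Vale.Agent.P179.H526.InertDefs

/-!
# Blocks with abelian defect group without small cyclic factors
-/

namespace P179B

open Subgroup

/-- The inertial quotient `T / C_G(D)` of the block `b` of `C_G(D)` acts faithfully on the group
of the `p ^ a`-th powers of the elements of the abelian group `D`: the elements of the inertial
group `T` which centralise `d ^ (p ^ a)` for all `d ∈ D` centralise `D`. -/
def PowerFaithful (p a : ℕ) {k : Type*} [Field k] {G : Type*} [Group G] (D : Subgroup G)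
    (b : MonoidAlgebra k (centralizer (D : Set G))) : Prop :=
  ∀ n ∈ inertialGroup D b, (∀ d ∈ D, n * d ^ p ^ a * n⁻¹ = d ^ p ^ a) →
    n ∈ centralizer (D : Set G)

/-- The abelian `p`-group `D` is a direct product of `r ≥ 1` cyclic groups, all of order at least
`p ^ n`, where `n > j (r - 1)` for some `j` with `j ≥ r` and `4 j ≥ r (r + 1)`: the group of the
elements `x ∈ D` with `x ^ p = 1` has order `p ^ r` and all these `x` are `p ^ (n - 1)`-th powers.
So `n ≥ 3` for `r = 2`, `n ≥ 7` for `r = 3`, `n ≥ 16` for `r = 4`. -/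
def LargeFactors (p : ℕ) {G : Type*} [Group G] (D : Subgroup G) : Prop :=
  ∃ r j n : ℕ, 1 ≤ r ∧ r ≤ j ∧ r * (r + 1) ≤ 4 * j ∧ j * (r - 1) < n ∧
    Nat.card {x : G // x ∈ D ∧ x ^ p = 1} = p ^ r ∧
    ∀ x ∈ D, x ^ p = 1 → ∃ y ∈ D, y ^ p ^ (n - 1) = x

/-- The abelian `p`-group `D` is a direct product of two cyclic groups of order at least `p ^ 2`,
not both of order `p ^ 2`. -/
def LargeRankTwo (p : ℕ) {G : Type*} [Group G] (D : Subgroup G) : Prop :=
  Nat.card {x : G // x ∈ D ∧ x ^ p = 1} = p ^ 2 ∧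
    (∀ x ∈ D, x ^ p = 1 → ∃ y ∈ D, y ^ p = x) ∧ ∃ z ∈ D, z ^ p ^ 2 ≠ 1

/-- For the abelian group `D`, the inertial group `T` of `b`, `Y` the group of the `p ^ j`-th powers
of the elements of `D`, `j ≥ 1`, and `w ∈ D`: the coset `w Y` has order `o` in `D / Y`, it is fixed
only by the elements of `T` which centralise `D`, and `e |D| < p ^ (2 j) |R|`, where `e` is the
inertial index and `R` the set of the regular elements of `D`. -/
def RegularCoset (p j o : ℕ) {k : Type*} [Field k] {G : Type*} [Group G] (D : Subgroup G)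
    (b : MonoidAlgebra k (centralizer (D : Set G))) (w : G) : Prop :=
  1 ≤ j ∧ 1 ≤ o ∧ w ∈ D ∧ (∀ i : ℕ, (∃ d ∈ D, w ^ i = d ^ p ^ j) ↔ o ∣ i) ∧
    (∀ n ∈ inertialGroup D b, (∃ d ∈ D, n * w * n⁻¹ * w⁻¹ = d ^ p ^ j) →
      n ∈ centralizer (D : Set G)) ∧
    inertialIndex D b * Nat.card D < p ^ (2 * j) * Nat.card (regularElements D b)

/-- The prime `p` is odd, the block `B` of `G` has an abelian defect group `D`, and `D` is a product
of cyclic groups of large order (`LargeFactors`, `LargeRankTwo`), or, for some block `b` of `C_G(D)`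
with `b^G = B`, the inertial quotient acts faithfully on the `p ^ a`-th powers of `D`
(`PowerFaithful`), the inertial index is at most `p ^ (a + 1)` and there is a coset `w Y` of order
`o` as in `RegularCoset` with `p |D : Y| ≤ o p ^ (a + 1)`. -/
def LargeBlock (p : ℕ) {k : Type*} [Field k] {G : Type*} [Group G] (B : MonoidAlgebra k G) :
    Prop :=
  2 < p ∧ ∃ D : Subgroup G, IsDefectGroup B D ∧ (∀ x ∈ D, ∀ y ∈ D, x * y = y * x) ∧
    (LargeFactors p D ∨ LargeRankTwo p D ∨
      ∃ b : MonoidAlgebra k (centralizer (D : Set G)), IsBlock b ∧ InducesTo b B ∧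
        ∃ (a j o : ℕ) (w : G), PowerFaithful p a D b ∧ RegularCoset p j o D b w ∧
          inertialIndex D b ≤ p ^ (a + 1) ∧
          Nat.card D * p ≤ p ^ (a + 1) * (Nat.card {y : G // ∃ d ∈ D, d ^ p ^ j = y} * o))

end P179B
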