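import Vale.Agent.P179.R2.H292.Fin2
import Vale.Agent.P179.R2.H292.LDefsB
import Vale.Agent.P179.R2.H843.EqClose
import Vale.Agent.P179.R2.H843.Eee
import Vale.Agent.P179.R2.H92.RegGen
import Vale.Agent.P179.R2.H450.R2q

/-!
# Final assembly, second bound
-/

namespace P179H292

open Subgroup P179H524 P179R P179Y MonoidAlgebra

open P179B (krSum IsBlock IsDefectGroup InducesTo numSimpleIn numWeightsIn inertialIndex
  regularElements inertialGroup NChain chainStab LargeBlock LargeFactors LargeRankTwo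
  RegularCoset PowerFaithful)

open scoped Classical

universe u

section

theorem prod_le {p : ℕ} (hp : 0 < p) {r n : ℕ} (hn : r * (r + 1) ≤ 2 * n) :
    ∏ i ∈ Finset.range r, (p ^ (i + 1) - 1) ≤ p ^ n := by
  have h1 : ∀ s : ℕ, ∏ i ∈ Finset.range s, (p ^ (i + 1) - 1) ≤
      p ^ (∑ i ∈ Finset.range s, (i + 1)) := by
    intro s
    induction s with
    | zero => simp
    | succ s ih =>
      rw [Finset.prod_range_succ, Finset.sum_range_succ,
        pow_add p (∑ i ∈ Finset.range s, (i + 1)) (s + 1)]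
      exact Nat.mul_le_mul ih (Nat.sub_le _ _)
  have h2 : ∀ s : ℕ, 2 * ∑ i ∈ Finset.range s, (i + 1) = s * (s + 1) := by
    intro s
    induction s with
    | zero => simp
    | succ s ih =>
      rw [Finset.sum_range_succ, Nat.mul_add, ih]
      ring
  refine (h1 r).trans (Nat.pow_le_pow_right hp ?_)
  have := h2 r
  omega

end

section

variable {p : ℕ} [hp : Fact p.Prime] {k : Type u} [Field k] [IsAlgClosed k] [CharP k p]
  (red : integralClosure ℤ ℂ →+* k)

theorem eq_of_largeFactors (h7 : M7Stmt p k)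
    {G : Type} [Group G] [Finite G] {B : MonoidAlgebra k G} (hB : IsBlock B) {D : Subgroup G}
    (hD : IsDefectGroup B D) (hab : ∀ a ∈ D, ∀ b ∈ D, a * b = b * a)
    (h : LargeFactors p D) : numSimpleIn B = numWeightsIn p red B := by
  obtain ⟨r, j, n, hr1, hrj, h4, hjn, hr, hdiv⟩ := h
  have hDp := isPGroup_of_defect (p := p) hB hD
  obtain ⟨β, hβ, hβB⟩ := P179B.exists_root p hB hD
  obtain ⟨-, hnd⟩ := numWeights_le red hB hD hab hβ hβB
  have hTN : inertialGroup D β ≤ normalizer (D : Set G) := fun n hn => hn.1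
  have hE := P179H843.relIndex_le_prod hDp hab hTN hnd hr
  -- for `r = 1` we may take `j = 1`
  obtain ⟨j', hrj', h4', hjn', hjn2, hc⟩ : ∃ j' : ℕ, r ≤ j' ∧ r * (r + 1) ≤ 4 * j' ∧
      j' * (r - 1) < n ∧ j' ≤ n ∧ (r = 1 ∨ (r = 2 ∧ 3 ≤ n) ∨ 2 * j' + 1 ≤ n) := by
    rcases Nat.lt_or_ge 1 r with h1 | h1
    · refine ⟨j, hrj, h4, hjn, ?_, ?_⟩
      · have : j * 1 ≤ j * (r - 1) := Nat.mul_le_mul_left _ (by omega)
        omega
      · rcases Nat.lt_or_ge 2 r with h2 | h2
        · right; right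
          have : j * 2 ≤ j * (r - 1) := Nat.mul_le_mul_left _ (by omega)
          omega
        · right; left
          have h3 : r = 2 := by omega
          subst h3
          omega
    · have h3 : r = 1 := by omega
      subst h3
      refine ⟨1, le_refl _, by norm_num, ?_, ?_, Or.inl rfl⟩
      · simpa using (by omega : 0 < n)
      · omega
  obtain ⟨w, hw, hreg, ho, hii, hcard⟩ := P179H92.exists_reg_gen hDp hab hTN hnd hr1 hr hdiv hE
    hrj' h4' hjn2 hc
  have hn1 : n - 1 + 1 = n := by omega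
  have hstar := P179H725.star_homocyclic (a := n - 1) hDp hab hdiv hTN hnd
  refine eq_of_w red (P179H843.eqRel p k red) h7 hB hD hab hβ hβB (a := n - 1) (j := j')
    (o := p ^ j') (w := w) hstar (by omega) hw (pow_pos hp.out.pos _) ho hreg hii ?_ ?_
  · rw [hn1, hcard]
    have h5 : p ^ (r * j') * p ≤ p ^ n * p ^ j' := by
      rw [← pow_succ, ← pow_add]
      refine Nat.pow_le_pow_right hp.out.pos ?_
      obtain ⟨s, rfl⟩ : ∃ s, r = s + 1 := ⟨r - 1, by omega⟩
      rw [Nat.add_sub_cancel] at hjn'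
      have : (s + 1) * j' = j' * s + j' := by ring
      omega
    calc Nat.card {y : G // ∃ d ∈ D, d ^ p ^ j' = y} * p ^ (r * j') * p
        = Nat.card {y : G // ∃ d ∈ D, d ^ p ^ j' = y} * (p ^ (r * j') * p) := by ring
      _ ≤ Nat.card {y : G // ∃ d ∈ D, d ^ p ^ j' = y} * (p ^ n * p ^ j') :=
        Nat.mul_le_mul_left _ h5
      _ = p ^ n * (Nat.card {y : G // ∃ d ∈ D, d ^ p ^ j' = y} * p ^ j') := by ring
  · rw [hn1]
    refine hE.trans (prod_le hp.out.pos ?_)
    rcases hc with h5 | ⟨h5, h6⟩ | h5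
    · subst h5
      omega
    · subst h5
      omega
    · omega

theorem eq_of_largeRankTwo (h7 : M7Stmt p k)
    {G : Type} [Group G] [Finite G] {B : MonoidAlgebra k G} (hB : IsBlock B) {D : Subgroup G}
    (hD : IsDefectGroup B D) (hab : ∀ a ∈ D, ∀ b ∈ D, a * b = b * a)
    (h : LargeRankTwo p D) : numSimpleIn B = numWeightsIn p red B := by
  obtain ⟨h1, h2, h3⟩ := h
  by_cases h4 : ∀ x ∈ D, x ^ p = 1 → ∃ y ∈ D, y ^ p ^ 2 = x
  · -- all cyclic factors have order at least `p ^ 3`
    exact eq_of_largeFactors red h7 hB hD hab ⟨2, 2, 3, by norm_num, le_refl _, by norm_num,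
      by norm_num, h1, h4⟩
  · push Not at h4
    obtain ⟨x, hx, hxp, hx2⟩ := h4
    have hDp := isPGroup_of_defect (p := p) hB hD
    obtain ⟨β, hβ, hβB⟩ := P179B.exists_root p hB hD
    obtain ⟨-, hnd⟩ := numWeights_le red hB hD hab hβ hβB
    have hTN : inertialGroup D β ≤ normalizer (D : Set G) := fun n hn => hn.1
    have hCT : centralizer (D : Set G) ≤ inertialGroup D β := by
      have := Fintype.ofFinite G
      obtain ⟨l, hl, hlz, hlb⟩ := exists_BP_of_subblock (p := p) hB hD hab hβ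
        ((P179B.inducesTo_iff β B).1 hβB)
      rw [← stabT_eq_inertialGroup hβ hlb]
      exact cent_le_stabT D l
    obtain ⟨⟨w, hw, ho, hreg⟩, hii, hcard, he⟩ := P179H450.rank2 hDp hab hTN hCT hnd h1
      (N := 1) (le_refl _) (by simpa using h2) ⟨x, hx, hxp, hx2⟩ h3
    have hstar := P179H725.star_homocyclic (a := 1) hDp hab (by simpa using h2) hTN hnd
    refine eq_of_w red (P179H843.eqRel p k red) h7 hB hD hab hβ hβB (a := 1) (j := 1)
      (o := p) (w := w) hstar (le_refl _) hw hp.out.pos ?_ ?_ ?_ ?_ ?_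
    · rintro i ⟨d, hd, hdw⟩
      exact ho i ⟨d, hd, by rw [hdw, pow_one]⟩
    · rintro n hn ⟨d, hd, hdw⟩
      exact hreg n hn ⟨d, hd, by rw [hdw, pow_one]⟩
    · rw [mul_one]
      exact hii
    · rw [hcard]
      simp only [pow_one]
      exact le_of_eq (by ring)
    · refine he.trans ?_
      exact Nat.pow_le_pow_left (Nat.sub_le _ _) 2

end

section

variable {p : ℕ} [hp : Fact p.Prime] {k : Type u} [Field k] [IsAlgClosed k] [CharP k p]
  (red : integralClosure ℤ ℂ →+* k)

theorem eq_of_largeBlock2 (h7 : M7Stmt p k)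
    {G : Type} [Group G] [Finite G] {B : MonoidAlgebra k G} (hB : IsBlock B)
    (h : LargeBlock p B) : numSimpleIn B = numWeightsIn p red B := by
  obtain ⟨-, D, hD, hab, h | h | ⟨b, hb, hbB, a, j, o, w, hf, hr, he, hc⟩⟩ := h
  · exact eq_of_largeFactors red h7 hB hD hab h
  · exact eq_of_largeRankTwo red h7 hB hD hab h
  · obtain ⟨hj, ho0, hw, ho, hreg, hii⟩ := hr
    exact eq_of_w red (P179H843.eqRel p k red) h7 hB hD hab hb hbB hf hj hw ho0
      (fun i hi => (ho i).1 hi) hreg hii hc he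

/-- the congruence -/
theorem modEq_of_faithful {G : Type} [Group G] [Finite G]
    {B : MonoidAlgebra k G} (hB : IsBlock B) {D : Subgroup G} (hD : IsDefectGroup B D)
    (hab : ∀ a ∈ D, ∀ b ∈ D, a * b = b * a) {β : MonoidAlgebra k (centralizer (D : Set G))}
    (hβ : IsBlock β) (hβB : InducesTo β B) {a : ℕ} (h : PowerFaithful p a D β) :
    numSimpleIn B ≡ numWeightsIn p red B [MOD p ^ (a + 1)] :=
  modEq_of_star red (P179H843.eqRel p k red) (P179H450.defQuo p k) hB hD hab hβ hβB h

/-- the bound -/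
theorem bound_of_regularCoset (h7 : M7Stmt p k) {G : Type} [Group G] [Finite G]
    {B : MonoidAlgebra k G} (hB : IsBlock B) {D : Subgroup G} (hD : IsDefectGroup B D)
    (hab : ∀ a ∈ D, ∀ b ∈ D, a * b = b * a) {β : MonoidAlgebra k (centralizer (D : Set G))}
    (hβ : IsBlock β) (hβB : InducesTo β B) {j o : ℕ} {w : G} (h : RegularCoset p j o D β w) :
    numSimpleIn B * Nat.card {y : G // ∃ d ∈ D, d ^ p ^ j = y} * o ≤ Nat.card D * p := by
  obtain ⟨hj, -, hw, ho, hreg, hii⟩ := h
  exact h7 G B D β j o w hB hD hab hβ hβB hj hw (fun i hi => (ho i).1 hi) hreg hii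

end

end P179H292
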