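import Vale.Agent.P179.R2.H292.LDefsB

/-!
# Blocks with abelian defect group of rank two or without small cyclic factors
-/

namespace P179B

open Subgroup

/-- All cyclic factors of the abelian `p`-group `D` have order at least `p ^ (a + 1)`, or the
inertial quotient acts faithfully on the group of the `p ^ a`-th powers of the elements of `D`. -/
def PowerLarge (p a : ℕ) {k : Type*} [Field k] {G : Type*} [Group G] (D : Subgroup G)
    (b : MonoidAlgebra k (centralizer (D : Set G))) : Prop :=
  (∀ x ∈ D, x ^ p = 1 → ∃ y ∈ D, y ^ p ^ a = x) ∨ PowerFaithful p a D b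

/-- The abelian `p`-group `D` is a direct product of two cyclic groups `≠ 1`, not both of order `p`
and not both of order `p ^ 2`. -/
def RankTwo (p : ℕ) {G : Type*} [Group G] (D : Subgroup G) : Prop :=
  Nat.card {x : G // x ∈ D ∧ x ^ p = 1} = p ^ 2 ∧
    ((∃ z ∈ D, z ^ p ^ 2 ≠ 1) ∨
      ((∃ z ∈ D, z ^ p ≠ 1) ∧ ∃ x ∈ D, x ^ p = 1 ∧ ∀ y ∈ D, y ^ p ≠ x))

/-- The prime `p` is odd, the block `B` of `G` has an abelian defect group `D`, and `D` is a product
of two cyclic groups (`RankTwo`) or of cyclic groups of large order (`LargeFactors`), or, for some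
block `b` of `C_G(D)` with `b^G = B`, the inertial quotient acts faithfully on the `p ^ a`-th powers
of `D` (`PowerFaithful`), the inertial index is at most `p ^ (a + 1)` and there is a coset `w Y` of
order `o` as in `RegularCoset` with `p |D : Y| ≤ o p ^ (a + 1)`. -/
def GoodBlock (p : ℕ) {k : Type*} [Field k] {G : Type*} [Group G] (B : MonoidAlgebra k G) :
    Prop :=
  2 < p ∧ ∃ D : Subgroup G, IsDefectGroup B D ∧ (∀ x ∈ D, ∀ y ∈ D, x * y = y * x) ∧
    (RankTwo p D ∨ LargeFactors p D ∨
      ∃ b : MonoidAlgebra k (centralizer (D : Set G)), IsBlock b ∧ InducesTo b B ∧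
        ∃ (a j o : ℕ) (w : G), PowerFaithful p a D b ∧ RegularCoset p j o D b w ∧
          inertialIndex D b ≤ p ^ (a + 1) ∧
          Nat.card D * p ≤ p ^ (a + 1) * (Nat.card {y : G // ∃ d ∈ D, d ^ p ^ j = y} * o))

end P179B
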