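import Vale.Agent.P179.R2.H292.FinalD
import Vale.Agent.P179.R2.H292.LDefsC
import Vale.Agent.P179.R2.H443.Rank2T
import Vale.Agent.P179.R2.H854.LocR2
import Vale.Agent.P179.R2.H967.WatF
import Vale.Agent.P179.R2.H843.Clf5

/-!
# Final assembly, rank two
-/

namespace P179H292

open Subgroup P179H524 P179R P179Y MonoidAlgebra

open P179B (IsBlock IsDefectGroup InducesTo numSimpleIn numWeightsIn inertialIndex
  inertialGroup LargeFactors RegularCoset PowerFaithful PowerLarge RankTwo GoodBlock)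

open scoped Classical

universe u

section

variable {p : ℕ} [hp : Fact p.Prime] {k : Type u} [Field k] [IsAlgClosed k] [CharP k p]
  (red : integralClosure ℤ ℂ →+* k)

theorem locR2 (h3 : 3 < p) : P179H443.LocR2 p k red :=
  P179H854.locR2_of red (P179H843.clfStmt p k) (P179H967.watStmt red) h3

/-- rank two, not homocyclic -/
theorem eq_of_not_homocyclic (hp2 : p ≠ 2) {G : Type} [Group G]
    [Finite G] {B : MonoidAlgebra k G} (hB : IsBlock B) {D : Subgroup G}
    (hD : IsDefectGroup B D) (hab : ∀ a ∈ D, ∀ b ∈ D, a * b = b * a)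
    (h1 : Nat.card {x : G // x ∈ D ∧ x ^ p = 1} = p ^ 2)
    (h2 : ∃ a : ℕ, (∃ z ∈ D, z ^ p ^ a ≠ 1) ∧ ∃ x ∈ D, x ^ p = 1 ∧ ∀ y ∈ D, y ^ p ^ a ≠ x) :
    numSimpleIn B = numWeightsIn p red B :=
  P179H443.eq_rank2_loc red (fun h3 => locR2 red h3) hp2 hB hD hab h1 h2

theorem eq_of_rankTwo (hp2 : p ≠ 2) {G : Type} [Group G] [Finite G] {B : MonoidAlgebra k G}
    (hB : IsBlock B) {D : Subgroup G} (hD : IsDefectGroup B D)
    (hab : ∀ a ∈ D, ∀ b ∈ D, a * b = b * a) (h : RankTwo p D) :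
    numSimpleIn B = numWeightsIn p red B := by
  obtain ⟨h1, ⟨z, hz, hz2⟩ | ⟨⟨z, hz, hz1⟩, x, hx, hxp, hxy⟩⟩ := h
  · by_cases h4 : ∀ x ∈ D, x ^ p = 1 → ∃ y ∈ D, y ^ p ^ 2 = x
    · exact eq_of_largeFactors red (P179H452.m7Stmt red hp2) hB hD hab
        ⟨2, 2, 3, by norm_num, le_refl _, by norm_num, by norm_num, h1, h4⟩
    · push Not at h4
      obtain ⟨x, hx, hxp, hx2⟩ := h4
      exact eq_of_not_homocyclic red hp2 hB hD hab h1 ⟨2, ⟨z, hz, hz2⟩, x, hx, hxp, hx2⟩
  · exact eq_of_not_homocyclic red hp2 hB hD hab h1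
      ⟨1, ⟨z, hz, by rwa [pow_one]⟩, x, hx, hxp, fun y hy => by rw [pow_one]; exact hxy y hy⟩

theorem eq_of_goodBlock {G : Type} [Group G] [Finite G] {B : MonoidAlgebra k G} (hB : IsBlock B)
    (h : GoodBlock p B) : numSimpleIn B = numWeightsIn p red B := by
  obtain ⟨hp2, D, hD, hab, h | h | ⟨b, hb, hbB, a, j, o, w, hf, hr, he, hc⟩⟩ := h
  · exact eq_of_rankTwo red (by omega) hB hD hab h
  · exact eq_of_largeFactors red (P179H452.m7Stmt red (by omega)) hB hD hab h
  · obtain ⟨hj, ho0, hw, ho, hreg, hii⟩ := hr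
    exact eq_of_w red (P179H843.eqRel p k red) (P179H452.m7Stmt red (by omega)) hB hD hab hb hbB
      hf hj hw ho0 (fun i hi => (ho i).1 hi) hreg hii hc he

/-- the congruence -/
theorem modEq_of_powerLarge {G : Type} [Group G] [Finite G]
    {B : MonoidAlgebra k G} (hB : IsBlock B) {D : Subgroup G} (hD : IsDefectGroup B D)
    (hab : ∀ a ∈ D, ∀ b ∈ D, a * b = b * a) {β : MonoidAlgebra k (centralizer (D : Set G))}
    (hβ : IsBlock β) (hβB : InducesTo β B) {a : ℕ} (h : PowerLarge p a D β) :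
    numSimpleIn B ≡ numWeightsIn p red B [MOD p ^ (a + 1)] := by
  rcases h with h | h
  · have hDp := isPGroup_of_defect (p := p) hB hD
    obtain ⟨-, hnd⟩ := numWeights_le red hB hD hab hβ hβB
    exact modEq_of_star red (P179H843.eqRel p k red) (P179H450.defQuo p k) hB hD hab hβ hβB
      (P179H725.star_homocyclic (a := a) hDp hab h (fun n hn => hn.1) hnd)
  · exact modEq_of_faithful red hB hD hab hβ hβB h

end

end P179H292
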