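import Vale.Agent.P179.R2.H292.LDefsD
import Vale.Agent.P179.R2.H666.ClsUpto

/-!
# Blocks with abelian defect group `D` and conditions on `K = D` or `K = [D, T]`
-/

namespace P179B

open Subgroup

/-- `K = D` or `K = [D, T]` for the inertial group `T` of `b`. -/
def IsCore {k : Type*} [Field k] {G : Type*} [Group G] (D : Subgroup G)
    (b : MonoidAlgebra k (centralizer (D : Set G))) (K : Subgroup G) : Prop :=
  K = D ∨ K = hyperfocal D b

/-- The subgroup `[D, C_T(M)]` of `D` generated by the commutators `n d n⁻¹ d⁻¹` of the elements `d`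
of `D` and the elements `n` of the inertial group `T` of `b` which centralise the subgroup `M`. It is
`[D, T]` for `M = 1`. -/
def hyperfocalOver {k : Type*} [Field k] {G : Type*} [Group G] (D : Subgroup G)
    (b : MonoidAlgebra k (centralizer (D : Set G))) (M : Subgroup G) : Subgroup G :=
  closure {x | ∃ n ∈ inertialGroup D b, n ∈ centralizer (M : Set G) ∧ ∃ d ∈ D,
    x = n * d * n⁻¹ * d⁻¹}

/-- For the abelian group `D`, the inertial group `T` of `b`, a subgroup `K` of `D`, `Y` the group
of the `p ^ j`-th powers of the elements of `K`, `j ≥ 1`, and `w ∈ K`: the coset `w Y` has order `o`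
in `K / Y`, it is fixed only by the elements of `T` which centralise `D`, and
`e |K| < p ^ (2 j) |R|`, where `e` is the inertial index and `R` the set of the regular elements of
`D` in `K`. -/
def RegularCosetIn (p j o : ℕ) {k : Type*} [Field k] {G : Type*} [Group G] (D : Subgroup G)
    (b : MonoidAlgebra k (centralizer (D : Set G))) (K : Subgroup G) (w : G) : Prop :=
  1 ≤ j ∧ 1 ≤ o ∧ w ∈ K ∧ (∀ i : ℕ, (∃ d ∈ K, w ^ i = d ^ p ^ j) ↔ o ∣ i) ∧
    (∀ n ∈ inertialGroup D b, (∃ d ∈ K, n * w * n⁻¹ * w⁻¹ = d ^ p ^ j) →
      n ∈ centralizer (D : Set G)) ∧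
    inertialIndex D b * Nat.card K < p ^ (2 * j) * Nat.card {u : G // u ∈ K ∧
      u ∈ regularElements D b}

/-- The condition for the congruence modulo `p ^ (a + 1)`: `p` is odd and `GrowingUpTo` holds, or
the inertial quotient acts faithfully on the `p ^ a`-th powers of `D` (`PowerFaithful`), for
example, all cyclic factors of `K` have order at least `p ^ (a + 1)`. -/
def LevelCondition (p a : ℕ) {k : Type*} [Field k] {G : Type*} [Group G] (D : Subgroup G)
    (b : MonoidAlgebra k (centralizer (D : Set G))) (K : Subgroup G) : Prop :=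
  (2 < p ∧ GrowingUpTo p a K) ∨ PowerFaithful p a D b

/-- The abelian `p`-group `K` is a product of two cyclic groups `≠ 1`, not both of order `p > 3`
(`RankTwoNotElem`), or its `i`-th smallest cyclic factor has order at least `p ^ (n i)` for all
`i ≥ 1` (`GrowingFactors`). -/
def GoodFactors (p : ℕ) {G : Type*} [Group G] (K : Subgroup G) : Prop :=
  RankTwoNotElem p K ∨ GrowingFactors p K

/-- The prime `p` is odd, the block `B` of `G` has an abelian defect group `D`, and, for some block
`b` of `C_G(D)` with `b^G = B` and its inertial group `T`, `GoodFactors` holds for `D` or for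
`[D, C_T(M)]` for some normal `p`-subgroup `M` of `G` (so, for `M = 1`, for `[D, T]`), or, for
`K = D` or `K = [D, T]` (`IsCore`) and some `a`, `LevelCondition` holds, the inertial index is at
most `p ^ (a + 1)` and there is a coset `w Y` of order `o` as in `RegularCosetIn` with
`p |K : Y| ≤ o p ^ (a + 1)`. -/
def GrowingBlock (p : ℕ) {k : Type*} [Field k] {G : Type*} [Group G] (B : MonoidAlgebra k G) :
    Prop :=
  2 < p ∧ ∃ (D : Subgroup G) (b : MonoidAlgebra k (centralizer (D : Set G))),
    IsDefectGroup B D ∧ (∀ x ∈ D, ∀ y ∈ D, x * y = y * x) ∧ IsBlock b ∧ InducesTo b B ∧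
    (GoodFactors p D ∨
      (∃ M : Subgroup G, M.Normal ∧ IsPGroup p M ∧ GoodFactors p (hyperfocalOver D b M)) ∨
      ∃ (K : Subgroup G) (a j o : ℕ) (w : G), IsCore D b K ∧ LevelCondition p a D b K ∧
        RegularCosetIn p j o D b K w ∧ inertialIndex D b ≤ p ^ (a + 1) ∧
        Nat.card K * p ≤ p ^ (a + 1) * (Nat.card {y : G // ∃ d ∈ K, d ^ p ^ j = y} * o))

end P179B
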