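import Vale.Agent.P179.R2.H292.FinalF
import Vale.Agent.P179.R2.H292.LDefsE

/-!
# The equality from a congruence and a bound
-/

namespace P179H292

open Subgroup P179H524 P179R P179Y MonoidAlgebra

open P179B (inertialIndex inertialGroup RegularCoset PowerFaithful RegularCosetIn)

open scoped Classical

universe u

section

variable {p : ℕ} [hp : Fact p.Prime] {k : Type u} [Field k] [IsAlgClosed k] [CharP k p]
  (red : integralClosure ℤ ℂ →+* k)

/-- the equality from a congruence and a bound -/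
theorem eq_of_modEq_bound {G : Type} [Group G] [Finite G]
    {B : MonoidAlgebra k G} (hB : P179B.IsBlock B) {D : Subgroup G}
    (hD : P179B.IsDefectGroup B D)
    (hab : ∀ a ∈ D, ∀ b ∈ D, a * b = b * a) {β : MonoidAlgebra k (centralizer (D : Set G))}
    (hβ : P179B.IsBlock β) (hβB : P179B.InducesTo β B) {K : Subgroup G} {a j o : ℕ}
    (hmod : P179B.numSimpleIn B ≡ P179B.numWeightsIn p red B [MOD p ^ (a + 1)])
    (hbd : P179B.numSimpleIn B * Nat.card {y : G // ∃ d ∈ K, d ^ p ^ j = y} * o ≤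
      Nat.card K * p) (ho0 : 0 < o)
    (hcard : Nat.card K * p ≤ p ^ (a + 1) * (Nat.card {y : G // ∃ d ∈ K, d ^ p ^ j = y} * o))
    (he : inertialIndex D β ≤ p ^ (a + 1)) :
    P179B.numSimpleIn B = P179B.numWeightsIn p red B := by
  have := Fintype.ofFinite G
  obtain ⟨hw1, -⟩ := numWeights_le red hB hD hab hβ hβB
  have hl0 : 0 < P179B.numSimpleIn B := by
    rw [P179B.numSimpleIn_eq]
    exact P179C.numSimpleIn_pos B hB
  have hY : 0 < Nat.card {y : G // ∃ d ∈ K, d ^ p ^ j = y} := by
    rw [Nat.card_pos_iff]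
    exact ⟨⟨⟨1, 1, one_mem K, one_pow _⟩⟩, inferInstance⟩
  have hl : P179B.numSimpleIn B ≤ p ^ (a + 1) := by
    have h2 : P179B.numSimpleIn B * (Nat.card {y : G // ∃ d ∈ K, d ^ p ^ j = y} * o) ≤
        p ^ (a + 1) * (Nat.card {y : G // ∃ d ∈ K, d ^ p ^ j = y} * o) := by
      rw [← mul_assoc]
      exact hbd.trans hcard
    exact Nat.le_of_mul_le_mul_right h2 (Nat.mul_pos hY ho0)
  exact eq_of_modEq_le hmod hl0 hl (numWeights_pos red hB hD hab) (hw1.trans he)

/-- `RegularCosetIn` for `K = D` -/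
theorem regularCoset_of_in {G : Type} [Group G] {D : Subgroup G}
    {β : MonoidAlgebra k (centralizer (D : Set G))} {j o : ℕ} {w : G}
    (h : RegularCosetIn p j o D β D w) : RegularCoset p j o D β w := by
  obtain ⟨hj, ho0, hw, ho, hreg, hii⟩ := h
  refine ⟨hj, ho0, hw, ho, hreg, ?_⟩
  have h1 : Nat.card {u : G // u ∈ D ∧ u ∈ P179B.regularElements D β} =
      Nat.card (P179B.regularElements D β) := by
    refine Nat.card_congr
      { toFun := fun u => ⟨u.1, u.2.2⟩
        invFun := fun u => ⟨u.1, u.2.1, u.2⟩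
        left_inv := fun u => rfl
        right_inv := fun u => rfl }
  rwa [h1] at hii

end

end P179H292
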