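import Vale.Agent.P179.R2.H292.FinalG
import Vale.Agent.P179.R2.H351.Ind8
import Vale.Agent.P179.R2.H364.KForm2

/-!
# The final assembly for growing factors
-/

namespace P179H292

open Subgroup P179H524 P179R P179Y MonoidAlgebra P179H351

open P179B (inertialIndex inertialGroup RegularCoset PowerFaithful RegularCosetIn hyperfocal
  hyperfocalOver GoodFactors GrowingFactors GrowingUpTo LevelCondition IsCore GrowingBlock)

open scoped Classical

universe u

section

variable {p : ℕ} [hp : Fact p.Prime] {k : Type u} [Field k] [IsAlgClosed k] [CharP k p]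
  (red : integralClosure ℤ ℂ →+* k)

theorem hyperfocalOver_eq {G : Type*} [Group G] (D : Subgroup G)
    (b : MonoidAlgebra k (centralizer (D : Set G))) (M : Subgroup G) :
    hyperfocalOver D b M = ⁅inertialGroup D b ⊓ centralizer (M : Set G), D⁆ := by
  rw [hyperfocalOver, Subgroup.commutator_def]
  congr 1
  ext x
  constructor
  · rintro ⟨n, hn, hnM, d, hd, rfl⟩
    exact ⟨n, ⟨hn, hnM⟩, d, hd, rfl⟩
  · rintro ⟨n, hn, d, hd, rfl⟩
    exact ⟨n, hn.1, hn.2, d, hd, rfl⟩

/-- **the congruence** -/
theorem modEq_of_level (hE : P179H443.EqwStmt p k) {a : ℕ} {G : Type} [Group G]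
    [Finite G] {B : MonoidAlgebra k G} (hB : P179B.IsBlock B) {D : Subgroup G}
    (hD : P179B.IsDefectGroup B D) (hab : ∀ a ∈ D, ∀ b ∈ D, a * b = b * a)
    {β : MonoidAlgebra k (centralizer (D : Set G))} (hβ : P179B.IsBlock β)
    (hβB : P179B.InducesTo β B) {K : Subgroup G} (hK : IsCore D β K)
    (h : LevelCondition p a D β K) :
    P179B.numSimpleIn B ≡ P179B.numWeightsIn p red B [MOD p ^ (a + 1)] := by
  rcases h with ⟨hp2, h⟩ | h
  · exact modEq_of_upto red hp2 hE hB hD hab hβ hβB hK h
  · exact modEq_of_faithful red hB hD hab hβ hβB h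

/-- **the equality** -/
theorem eq_of_growingBlock (hE : P179H443.EqwStmt p k)
    {G : Type} [Group G] [Finite G] {B : MonoidAlgebra k G} (hB : P179B.IsBlock B)
    (h : GrowingBlock p B) : P179B.numSimpleIn B = P179B.numWeightsIn p red B := by
  obtain ⟨hp2, D, b, hD, hab, hb, hbB, h | ⟨M, hMn, hMp, h⟩ |
    ⟨K, a, j, o, w, hK, hl, hr, he, hc⟩⟩ := h
  · rcases h with h | h
    · exact eq_of_rankTwoNotElem red (P179H443.bdSq red (by omega)) (by omega) hB hD hab h
    · exact eq_of_core red hp2 hE hB hD hab hb hbB (Or.inl rfl) h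
  · rw [hyperfocalOver_eq] at h
    exact eq_of_normal red hp2 hE M hMp hB hD hab hb hbB h.symm
  · exact eq_of_modEq_bound red hB hD hab hb hbB
      (modEq_of_level red hE hB hD hab hb hbB hK hl)
      (P179H364.bound_core red (by omega) hB hD hab hb hbB hK hr) hr.2.1 hc he

end

end P179H292
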