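import Vale.Agent.P179.R2.H292.FinalH
import Vale.Agent.P179.R2.H872.E6
import Vale.Agent.P179.R2.H967.W1F
import Vale.Agent.P179.R2.H854.EqS2

/-!
# The theorem on the blocks of groups with a normal `p`-subgroup, relative to `SumS`
-/

namespace P179H292

universe u

theorem eqwStmt_of {p : ℕ} [Fact p.Prime] {k : Type u} [Field k] [IsAlgClosed k] [CharP k p]
    (hS : P179H854.SumS p k) : P179H443.EqwStmt p k :=
  P179H872.eqwStmt (P179H967.w1S p k) hS (P179H854.sl2S p k)

end P179H292
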