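import Vale.Agent.P179.R2.H292.Free
import Vale.Agent.P179.R2.H292.Rank
import Vale.Agent.P179.R2.H725.Ind
import Vale.Agent.P179.H166.K6p3

/-!
# Assembly, general inertial action
-/

namespace P179H292

open Subgroup P179H524 P179R P179Y MonoidAlgebra

open P179B (krSum IsBlock IsDefectGroup InducesTo numSimpleIn numWeightsIn inertialIndex
  regularElements inertialGroup NChain chainStab)

open scoped Classical

universe u

section

variable {p : ℕ} [hp : Fact p.Prime] {k : Type u} [Field k] [IsAlgClosed k] [CharP k p]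
  (red : integralClosure ℤ ℂ →+* k)

/-- the free case is a special case of the general equality above a normal `p`-subgroup -/
theorem m4free_of_eqRel (hEq : P179H725.EqRel p red) : M4FreeStmt p k red := by
  intro H _ _ R _ hR hR1 b hb D hD hab β hβ hβb hfree
  rw [P179B.numSimpleIn_eq, P179B.numWeightsIn_eq]
  refine hEq H b D β R hR hR1 hb hD hab hβ ((P179B.inducesTo_iff β b).1 hβb) fun n hn hnR => ?_
  have hRD : R ≤ D := P179H725.le_defect hb hD R hR
  obtain ⟨u, huR, hu1⟩ := R.bot_or_exists_ne_one.resolve_left hR1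
  refine (hfree u (hRD huR) hu1).2 n hn ?_
  have h1 := mem_centralizer_iff.1 hnR u huR
  rw [← h1]
  group

/-- **the congruence modulo `p ^ (a + 1)`**, general inertial action -/
theorem dvd_sub_of_star (hEq : P179H725.EqRel p red) (hQ : P179H725.DefQuo p k)
    {G : Type} [Group G] [Finite G]
    {B : MonoidAlgebra k G} (hB : IsBlock B) {D : Subgroup G} (hD : IsDefectGroup B D)
    (hab : ∀ a ∈ D, ∀ b ∈ D, a * b = b * a) {β : MonoidAlgebra k (centralizer (D : Set G))}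
    (hβ : IsBlock β) (hβB : InducesTo β B) {a : ℕ}
    (hstar : ∀ n ∈ inertialGroup D β, (∀ d ∈ D, n * d ^ p ^ a * n⁻¹ = d ^ p ^ a) →
      n ∈ centralizer (D : Set G)) :
    (p : ℤ) ^ (a + 1) ∣ (numSimpleIn B : ℤ) - numWeightsIn p red B := by
  rw [P179B.numSimpleIn_eq, P179B.numWeightsIn_eq]
  exact P179H725.dvd_delta_of red (P179H443.krWr p k) hEq hQ a _ G rfl B D β hB hD hab hβ
    ((P179B.inducesTo_iff β B).1 hβB) hstar

theorem modEq_of_star (hEq : P179H725.EqRel p red) (hQ : P179H725.DefQuo p k)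
    {G : Type} [Group G] [Finite G]
    {B : MonoidAlgebra k G} (hB : IsBlock B) {D : Subgroup G} (hD : IsDefectGroup B D)
    (hab : ∀ a ∈ D, ∀ b ∈ D, a * b = b * a) {β : MonoidAlgebra k (centralizer (D : Set G))}
    (hβ : IsBlock β) (hβB : InducesTo β B) {a : ℕ}
    (hstar : ∀ n ∈ inertialGroup D β, (∀ d ∈ D, n * d ^ p ^ a * n⁻¹ = d ^ p ^ a) →
      n ∈ centralizer (D : Set G)) :
    numSimpleIn B ≡ numWeightsIn p red B [MOD p ^ (a + 1)] := by
  have h := dvd_sub_of_star red hEq hQ hB hD hab hβ hβB hstar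
  rw [← Int.natCast_modEq_iff]
  refine Int.ModEq.symm ((Int.modEq_iff_dvd).2 ?_)
  exact_mod_cast h

/-- the number of weights is at most the inertial index -/
theorem numWeights_le {G : Type} [Group G] [Finite G]
    {B : MonoidAlgebra k G} (hB : IsBlock B) {D : Subgroup G} (hD : IsDefectGroup B D)
    (hab : ∀ a ∈ D, ∀ b ∈ D, a * b = b * a) {β : MonoidAlgebra k (centralizer (D : Set G))}
    (hβ : IsBlock β) (hβB : InducesTo β B) :
    numWeightsIn p red B ≤ inertialIndex D β ∧ ¬ p ∣ inertialIndex D β := by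
  have := Fintype.ofFinite G
  obtain ⟨hDp, -⟩ := exists_BP_of_block (p := p) B hB D hD
  obtain ⟨l, hl, hlz, hlb⟩ := exists_BP_of_subblock (p := p) hB hD hab hβ
    ((P179B.inducesTo_iff β B).1 hβB)
  have hT := stabT_eq_inertialGroup hβ hlb
  have hab' : D ≤ centralizer (D : Set G) := by
    intro x hx
    rw [mem_centralizer_iff]
    intro y hy
    exact hab y hy x hx
  have he : inertialIndex D β = (centralizer (D : Set G)).relIndex (stabT D l) := by
    rw [hT]
    rfl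
  have hdiv := hT_of_block hB hD hDp hab hl hlz
  rw [he]
  refine ⟨?_, hdiv⟩
  rw [P179B.numWeightsIn_eq]
  exact K6plus red hl hDp hab' hdiv hlz

theorem isPGroup_of_defect {G : Type} [Group G] [Finite G]
    {B : MonoidAlgebra k G} (hB : IsBlock B) {D : Subgroup G} (hD : IsDefectGroup B D) :
    IsPGroup p D := by
  have := Fintype.ofFinite G
  obtain ⟨hDp, -⟩ := exists_BP_of_block (p := p) B hB D hD
  exact hDp

end

section Num

theorem num_J {p : ℕ} (hp3 : 3 ≤ p) {r e : ℕ} (he : e ≤ p ^ (r * r)) :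
    128 * e ^ 2 < p ^ (2 * r ^ 2 + 5) := by
  have h1 : 243 ≤ p ^ 5 := by
    calc 243 = 3 ^ 5 := by norm_num
      _ ≤ p ^ 5 := Nat.pow_le_pow_left hp3 5
  have h2 : e ^ 2 ≤ p ^ (2 * r ^ 2) := by
    calc e ^ 2 ≤ (p ^ (r * r)) ^ 2 := Nat.pow_le_pow_left he 2
      _ = p ^ (2 * r ^ 2) := by rw [← pow_mul]; congr 1; ring
  have h3 : 0 < p ^ (2 * r ^ 2) := pow_pos (by omega) _
  calc 128 * e ^ 2 ≤ 128 * p ^ (2 * r ^ 2) := Nat.mul_le_mul_left _ h2
    _ < 243 * p ^ (2 * r ^ 2) := Nat.mul_lt_mul_of_pos_right (by norm_num) h3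
    _ ≤ p ^ 5 * p ^ (2 * r ^ 2) := Nat.mul_le_mul_right _ h1
    _ = p ^ (2 * r ^ 2 + 5) := by rw [← pow_add]; congr 1; ring

theorem num_n {p : ℕ} (hp3 : 3 ≤ p) {r e N n : ℕ} (he : e ≤ p ^ (r * r))
    (hN : N ≤ (p ^ r) ^ (2 * r ^ 2 + 5)) (hn : 2 * r ^ 3 + r ^ 2 + 5 * r + 2 ≤ n) :
    4 * e * N < p ^ n := by
  have h1 : 9 ≤ p ^ 2 := by
    calc 9 = 3 ^ 2 := by norm_num
      _ ≤ p ^ 2 := Nat.pow_le_pow_left hp3 2
  have h3 : 0 < p ^ (r * r) * (p ^ r) ^ (2 * r ^ 2 + 5) :=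
    Nat.mul_pos (pow_pos (by omega) _) (pow_pos (pow_pos (by omega) _) _)
  calc 4 * e * N = 4 * (e * N) := by ring
    _ ≤ 4 * (p ^ (r * r) * (p ^ r) ^ (2 * r ^ 2 + 5)) :=
      Nat.mul_le_mul_left _ (Nat.mul_le_mul he hN)
    _ < 9 * (p ^ (r * r) * (p ^ r) ^ (2 * r ^ 2 + 5)) :=
      Nat.mul_lt_mul_of_pos_right (by norm_num) h3
    _ ≤ p ^ 2 * (p ^ (r * r) * (p ^ r) ^ (2 * r ^ 2 + 5)) := Nat.mul_le_mul_right _ h1
    _ = p ^ (2 * r ^ 3 + r ^ 2 + 5 * r + 2) := by
      rw [← pow_mul, ← pow_add, ← pow_add]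
      congr 1
      ring
    _ ≤ p ^ n := Nat.pow_le_pow_right (by omega) hn

end Num

section

variable {p : ℕ} [hp : Fact p.Prime] {k : Type u} [Field k] [IsAlgClosed k] [CharP k p]
  (red : integralClosure ℤ ℂ →+* k)

/-- the bound for the number of simple modules -/
def M6Stmt (p : ℕ) (k : Type u) [Field k] : Prop :=
  ∀ (G : Type) [Group G] [Finite G] (B : MonoidAlgebra k G) (D : Subgroup G)
    (β : MonoidAlgebra k (centralizer (D : Set G))) (a J : ℕ),
    IsBlock B → IsDefectGroup B D → (∀ x ∈ D, ∀ y ∈ D, x * y = y * x) → IsBlock β →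
    InducesTo β B →
    (∀ n ∈ inertialGroup D β, (∀ d ∈ D, n * d ^ p ^ a * n⁻¹ = d ^ p ^ a) →
      n ∈ centralizer (D : Set G)) →
    8 * inertialIndex D β ≤ p ^ (a + 1) → p ^ (a + 1) ≤ Nat.card D →
    128 * inertialIndex D β ^ 2 < p ^ J →
    numSimpleIn B ≤ 4 * inertialIndex D β * Nat.card {d : G // d ∈ D ∧ d ^ p ^ J = 1}

/-- **the equality**, general inertial action -/
theorem eq_of_star (hEq : P179H725.EqRel p red) (hQ : P179H725.DefQuo p k) (h6 : M6Stmt p k)
    (hp2 : p ≠ 2) {G : Type} [Group G] [Finite G]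
    {B : MonoidAlgebra k G} (hB : IsBlock B) {D : Subgroup G} (hD : IsDefectGroup B D)
    (hab : ∀ a ∈ D, ∀ b ∈ D, a * b = b * a) {β : MonoidAlgebra k (centralizer (D : Set G))}
    (hβ : IsBlock β) (hβB : InducesTo β B) {a J : ℕ}
    (hstar : ∀ n ∈ inertialGroup D β, (∀ d ∈ D, n * d ^ p ^ a * n⁻¹ = d ^ p ^ a) →
      n ∈ centralizer (D : Set G))
    (hJ : 128 * inertialIndex D β ^ 2 < p ^ J)
    (ha : 4 * inertialIndex D β * Nat.card {d : G // d ∈ D ∧ d ^ p ^ J = 1} < p ^ (a + 1)) :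
    numSimpleIn B = numWeightsIn p red B := by
  have := Fintype.ofFinite G
  have hp3 : 3 ≤ p := by
    have := hp.out.two_le
    omega
  by_cases he1 : inertialIndex D β = 1
  · rw [P179B.numSimpleIn_eq, P179B.numWeightsIn_eq]
    exact P179I.equality_half red hB hD hab hβ ((P179B.inducesTo_iff β B).1 hβB)
      (by rw [he1]; omega)
  obtain ⟨hw, hdiv⟩ := numWeights_le red hB hD hab hβ hβB
  have hDp := isPGroup_of_defect (p := p) hB hD
  have he0 : 0 < inertialIndex D β := Nat.pos_of_ne_zero fun h => hdiv (h ▸ dvd_zero p)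
  -- `D ^ (p ^ a) ≠ 1`
  have hex : ∃ d ∈ D, d ^ p ^ a ≠ 1 := by
    by_contra hcon
    push Not at hcon
    apply he1
    refine Subgroup.relIndex_eq_one.2 fun n hn => hstar n hn fun d hd => ?_
    rw [hcon d hd]
    group
  obtain ⟨d, hd, hda⟩ := hex
  -- the order of `d` is at least `p ^ (a + 1)`
  have hord : p ^ (a + 1) ∣ orderOf d := by
    obtain ⟨m, hm⟩ := hDp ⟨d, hd⟩
    have hm' : orderOf d ∣ p ^ m := orderOf_dvd_of_pow_eq_one (congrArg Subtype.val hm)
    obtain ⟨j, -, hj⟩ := (Nat.dvd_prime_pow hp.out).1 hm'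
    rw [hj]
    refine pow_dvd_pow p ?_
    by_contra hlt
    apply hda
    rw [← orderOf_dvd_iff_pow_eq_one, hj]
    exact pow_dvd_pow p (by omega)
  have hDa : p ^ (a + 1) ≤ Nat.card D := by
    refine Nat.le_of_dvd Nat.card_pos (hord.trans ?_)
    rw [← Subgroup.orderOf_mk d hd]
    exact orderOf_dvd_natCard _
  -- `|Ω_J| ≥ 3`
  have hJ1 : 1 ≤ J := by
    by_contra h0
    have h1 : J = 0 := by omega
    rw [h1, pow_zero] at hJ
    nlinarith
  have hcard : 3 ≤ Nat.card {d : G // d ∈ D ∧ d ^ p ^ J = 1} := by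
    have h1 : d ^ p ^ a ∈ D := pow_mem hd _
    obtain ⟨z, hz, hz1, hzp⟩ : ∃ z ∈ D, z ≠ 1 ∧ z ^ p = 1 := by
      have hne : Nontrivial D := ⟨⟨⟨d, hd⟩, 1, fun h => hda (by
        have h2 : d = 1 := congrArg Subtype.val h
        rw [h2, one_pow])⟩⟩
      obtain ⟨n, hn⟩ := IsPGroup.iff_card.1 hDp
      have hn0 : n ≠ 0 := by
        rintro rfl
        rw [pow_zero] at hn
        have := Finite.one_lt_card (α := D)
        omega
      have hdvd : p ∣ Nat.card D := by
        rw [hn]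
        exact dvd_pow_self p hn0
      obtain ⟨z, hz⟩ := exists_prime_orderOf_dvd_card' p hdvd
      refine ⟨z, z.2, fun h => ?_, ?_⟩
      · have h2 : z = 1 := Subtype.ext h
        rw [h2, orderOf_one] at hz
        omega
      · rw [← SubmonoidClass.coe_pow, ← hz, pow_orderOf_eq_one]
        rfl
    have hzJ : ∀ i : ℕ, (z ^ i) ^ p ^ J = 1 := by
      intro i
      obtain ⟨J', rfl⟩ := Nat.exists_eq_add_of_le hJ1
      rw [← pow_mul, mul_comm, pow_mul, pow_add, pow_one, pow_mul, hzp, one_pow, one_pow]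
    have hinj : Function.Injective (fun i : Fin p =>
        (⟨z ^ (i : ℕ), pow_mem hz _, hzJ i⟩ : {d : G // d ∈ D ∧ d ^ p ^ J = 1})) := by
      intro i j hij
      have h2 : z ^ (i : ℕ) = z ^ (j : ℕ) := congrArg Subtype.val hij
      have ho : orderOf z = p := orderOf_eq_prime hzp hz1
      refine Fin.ext ?_
      rw [pow_inj_mod, ho] at h2
      rwa [Nat.mod_eq_of_lt i.2, Nat.mod_eq_of_lt j.2] at h2
    have h3 := Nat.card_le_card_of_injective _ hinj
    rw [Nat.card_eq_fintype_card, Fintype.card_fin] at h3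
    exact hp3.trans h3
  have h8 : 8 * inertialIndex D β ≤ p ^ (a + 1) := by
    have h1 : 4 * inertialIndex D β * 3 ≤
        4 * inertialIndex D β * Nat.card {d : G // d ∈ D ∧ d ^ p ^ J = 1} :=
      Nat.mul_le_mul_left _ hcard
    omega
  have hl := h6 G B D β a J hB hD hab hβ hβB hstar h8 hDa hJ
  have hw' : numWeightsIn p red B < p ^ (a + 1) := by omega
  exact (modEq_of_star red hEq hQ hB hD hab hβ hβB hstar).eq_of_lt_of_lt (hl.trans_lt ha) hw'

/-- **homocyclic defect groups of large exponent** -/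
theorem eq_of_homocyclic (hEq : P179H725.EqRel p red) (hQ : P179H725.DefQuo p k)
    (h6 : M6Stmt p k) (hp2 : p ≠ 2) {G : Type} [Group G] [Finite G]
    {B : MonoidAlgebra k G} (hB : IsBlock B) {D : Subgroup G} (hD : IsDefectGroup B D)
    (hab : ∀ a ∈ D, ∀ b ∈ D, a * b = b * a) {r n : ℕ}
    (hr : Nat.card {d : G // d ∈ D ∧ d ^ p = 1} = p ^ r)
    (hh : ∀ x ∈ D, x ^ p = 1 → ∃ y ∈ D, y ^ p ^ n = x)
    (hn : 2 * r ^ 3 + r ^ 2 + 5 * r + 1 ≤ n) :
    numSimpleIn B = numWeightsIn p red B := by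
  have := Fintype.ofFinite G
  have hp3 : 3 ≤ p := by
    have := hp.out.two_le
    omega
  have hDp := isPGroup_of_defect (p := p) hB hD
  obtain ⟨β, hβ, hβB⟩ : ∃ β : MonoidAlgebra k (centralizer (D : Set G)),
      IsBlock β ∧ InducesTo β B := by
    obtain ⟨b, hb, hbB⟩ := P179Y.exists_subblock (p := p) hB hD
    exact ⟨b, hb, (P179B.inducesTo_iff b B).2 hbB⟩
  obtain ⟨-, hdiv⟩ := numWeights_le red hB hD hab hβ hβB
  have hT : inertialGroup D β ≤ normalizer (D : Set G) := fun n hn => hn.1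
  have hstar := P179H725.star_homocyclic (a := n) hDp hab hh hT hdiv
  obtain ⟨r', hr', he⟩ := inertialIndex_le hab β hDp hdiv
  have hrr : r' = r := by
    have h1 : Nat.card (omS hab p) = p ^ r := hr
    rw [h1] at hr'
    exact (Nat.pow_right_injective hp.out.two_le hr').symm
  rw [hrr] at he
  have hom : Nat.card {d : G // d ∈ D ∧ d ^ p ^ (2 * r ^ 2 + 5) = 1} ≤
      (p ^ r) ^ (2 * r ^ 2 + 5) := by
    have h1 := card_omS_le hab p (2 * r ^ 2 + 5)
    have h2 : Nat.card (omS hab p) = p ^ r := hr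
    rw [h2] at h1
    exact h1
  exact eq_of_star red hEq hQ h6 hp2 hB hD hab hβ hβB hstar (num_J hp3 he)
    (num_n hp3 he hom (by omega))

end

end P179H292
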