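import Vale.Agent.P179.R2.H292.Hyp

/-!
# The reduction to the hyperfocal subgroup with the action of the inertial group
-/

namespace P179H292

open Subgroup P179H524 P179C P179A P179P P179Y P179H12 P179H872 P179H443 P179H854

open P179B (inertialGroup inertialIndex)

open scoped Classical

universe u

/-- an isomorphism `K → D'` under which every element of `T'` acts as an element of `T` -/
def ActSub {G X : Type*} [Group G] [Group X] (K T : Subgroup G) (D' T' : Subgroup X) : Prop :=
  ∃ e : K ≃* D', ∀ t' ∈ T', ∃ t ∈ T, ∀ x y : K, (y : G) = t * x * t⁻¹ →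
    (e y : X) = t' * (e x : X) * t'⁻¹

theorem ActSub.trans {G X Y : Type*} [Group G] [Group X] [Group Y] {K T : Subgroup G}
    {K' T' : Subgroup X} {K'' T'' : Subgroup Y} (h : ActSub K T K' T') (h' : ActSub K' T' K'' T'') :
    ActSub K T K'' T'' := by
  obtain ⟨e, he⟩ := h
  obtain ⟨f, hf⟩ := h'
  refine ⟨e.trans f, fun t'' ht'' => ?_⟩
  obtain ⟨t', ht', h1⟩ := hf t'' ht''
  obtain ⟨t, ht, h2⟩ := he t' ht'
  exact ⟨t, ht, fun x y hxy => h1 (e x) (e y) (h2 x y hxy)⟩

/-- the equality for all blocks of all groups whose defect groups are isomorphic to `K` and whose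
inertial groups act as elements of `T` -/
def EqForAct (p : ℕ) {k : Type u} [Field k] (red : integralClosure ℤ ℂ →+* k) {G : Type*}
    [Group G] (K T : Subgroup G) : Prop :=
  ∀ (X : Type) [Group X] [Finite X] (B : MonoidAlgebra k X) (D : Subgroup X)
    (β : MonoidAlgebra k (centralizer (D : Set X))), IsBlock B →
    IsDefectGroup B D → (∀ a ∈ D, ∀ b ∈ D, a * b = b * a) → IsBlock β → InducesTo β B →
    ActSub K T D (inertialGroup D β) → numSimpleIn B = numWeightsIn p red B

theorem EqForAct.congr {p : ℕ} {k : Type u} [Field k] {red : integralClosure ℤ ℂ →+* k}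
    {G X : Type*} [Group G] [Group X] {K T : Subgroup G} {K' T' : Subgroup X}
    (h : EqForAct p red K T) (h' : ActSub K T K' T') : EqForAct p red K' T' :=
  fun Y _ _ B D β hB hD hab hβ hβB hA => h Y B D β hB hD hab hβ hβB (h'.trans hA)

/-- roots of the blocks of `G / R` for a central `p`-subgroup `R` -/
def QuoRoot (p : ℕ) (k : Type u) [Field k] : Prop :=
  ∀ (G : Type) [Group G] [Finite G] (R : Subgroup G) [R.Normal], IsPGroup p R → R ≤ center G →
    ∀ (B : MonoidAlgebra k G) (D : Subgroup G) (β : MonoidAlgebra k (centralizer (D : Set G))),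
    IsBlock B → IsDefectGroup B D → (∀ a ∈ D, ∀ b ∈ D, a * b = b * a) → R ≤ D → IsBlock β →
    InducesTo β B → ∀ B' : MonoidAlgebra k (G ⧸ R), IsBlock B' →
    B' * MonoidAlgebra.mapDomainAlgHom k k (QuotientGroup.mk' R) B = B' →
    ∃ β' : MonoidAlgebra k
      (centralizer ((D.map (QuotientGroup.mk' R) : Subgroup (G ⧸ R)) : Set (G ⧸ R))),
      IsDefectGroup B' (D.map (QuotientGroup.mk' R)) ∧ IsBlock β' ∧ InducesTo β' B' ∧
      ∀ t' ∈ inertialGroup (D.map (QuotientGroup.mk' R)) β', ∃ t ∈ inertialGroup D β, ∀ d ∈ D,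
        t' * QuotientGroup.mk' R d * t'⁻¹ = QuotientGroup.mk' R (t * d * t⁻¹)

section

variable {p : ℕ} [hp : Fact p.Prime] {k : Type u} [Field k] [IsAlgClosed k] [hk : CharP k p]
  (red : integralClosure ℤ ℂ →+* k)

/-- **the equality holds for a block with abelian defect group `D` if it holds for the blocks
whose defect groups are isomorphic to `[D, T]`, with the same action of the inertial group** -/
theorem eq_of_hyp' (hW : WatX p k) (hQ : QuoRoot p k) :
    ∀ (N : ℕ) (G : Type) [Group G] [Finite G], Nat.card G = N →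
      ∀ (B : MonoidAlgebra k G) (D : Subgroup G) (β : MonoidAlgebra k (centralizer (D : Set G))),
      IsBlock B → IsDefectGroup B D → (∀ a ∈ D, ∀ b ∈ D, a * b = b * a) → IsBlock β →
      InducesTo β B →
      EqForAct p red (⁅inertialGroup D β, D⁆ : Subgroup G) (inertialGroup D β) →
      numSimpleIn B = numWeightsIn p red B := by
  intro N
  induction N using Nat.strong_induction_on with
  | _ N ih =>
  intro G _ _ hN B D β hB hDB hab hβ hβB hEq
  have := Fintype.ofFinite G
  obtain ⟨l, hl, hlz, hlβ⟩ := exists_BP_of_subblock (p := p) hB hDB hab hβ hβB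
  have hST : stabT D l = inertialGroup D β := stabT_eq_inertialGroup hβ hlβ
  have hD : IsPGroup p D := (exists_BP_of_block (p := p) B hB D hDB).1
  have hab' : D ≤ centralizer (D : Set G) := by
    intro x hx
    rw [mem_centralizer_iff]
    intro y hy
    exact hab y hy x hx
  have hT := hT_of_block hB hDB hD hab hl hlz
  by_cases hc : ∃ x ∈ D, (∀ t ∈ stabT D l, t * x * t⁻¹ = x) ∧ x ∉ center G
  · obtain ⟨x, hx, hfix, hxc⟩ := hc
    set H : Subgroup G := centralizer ({x} : Set G) with hH
    have hmemH : ∀ y : G, y ∈ H ↔ x * y = y * x := by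
      intro y
      rw [hH, mem_centralizer_iff]
      constructor
      · intro h
        exact h x rfl
      · rintro h z rfl
        exact h
    have hDH : D ≤ H := by
      intro y hy
      rw [hmemH]
      exact hab x hx y hy
    have hCH : centralizer (D : Set G) ≤ H := by
      intro y hy
      rw [hmemH]
      exact (mem_centralizer_iff.1 hy) x hx
    have hTH : stabT D l ≤ H := by
      intro t ht
      rw [hmemH]
      have h1 := hfix t ht
      calc x * t = t * x * t⁻¹ * t := by rw [h1]
        _ = t * x := by group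
    have hmC : MulH H l := BP.mulH hl hD hab' hCH
    obtain ⟨b1, hb1, hlb1⟩ := exists_blk hmC
    have hdf := isDefectGroup_low (p := p) hl hD hab hT hDH hCH hb1 hlb1
    obtain ⟨β', hβ', hlβ', hbF⟩ := exists_root_below hl hD hab' hDH hCH hβ hlβ
    have hST' : stabT (D.subgroupOf H) (lres H l) = inertialGroup (D.subgroupOf H) β' :=
      stabT_eq_inertialGroup hβ' hlβ'
    have hmem : ∀ t : H, t ∈ inertialGroup (D.subgroupOf H) β' ↔ (t : G) ∈ stabT D l := by
      intro t
      rw [← hST']
      exact mem_stabT_lres hDH hCH t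
    have hmapT : (inertialGroup (D.subgroupOf H) β').map H.subtype = stabT D l := by
      ext t
      constructor
      · rintro ⟨y, hy, rfl⟩
        exact (hmem y).1 hy
      · intro ht
        exact ⟨⟨t, hTH ht⟩, (hmem _).2 ht, rfl⟩
    have hmapD : (D.subgroupOf H).map H.subtype = D := by
      rw [subgroupOf_map_subtype, inf_eq_left.mpr hDH]
    have hmapK : (⁅inertialGroup (D.subgroupOf H) β', D.subgroupOf H⁆ : Subgroup H).map H.subtype =
        ⁅inertialGroup D β, D⁆ := by
      rw [map_commutator, hmapT, hmapD, hST]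
    have h1 := ih (Nat.card H) ?_ H rfl b1 (D.subgroupOf H) β' hb1 hdf
      (fun a ha c hc => ((mem_centralizer_iff.1 (comm_subgroupOf hab' hDH ha)) c hc).symm)
      hβ' (inducesTo_of_low (hl.restrict hDH hCH) (Low.char hlb1) hlβ') ?_
    · rw [hW G B D l hB hl hD hab' hT hlz x hx hfix b1 hb1 hlb1, h1,
        numWeightsIn_below red hl hD hab' hT hDH hCH hb1 hlb1 hdf hβ hlβ,
        numWeightsIn_eq_stabT red hB hDB hab hl hD hT hlz hβ hlβ]
      exact numSimple_congr (inf_eq_left.mpr hTH) _
    · rw [← hN]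
      refine lt_of_le_of_ne (card_le_card_group H) fun h => hxc ?_
      have h2 : H = ⊤ := card_eq_iff_eq_top _ |>.1 h
      rw [Subgroup.mem_center_iff]
      intro y
      have h3 : y ∈ H := by
        rw [h2]
        exact mem_top y
      exact ((hmemH y).1 h3).symm
    · -- the isomorphism
      let f : (⁅inertialGroup (D.subgroupOf H) β', D.subgroupOf H⁆ : Subgroup H) ≃*
          (⁅inertialGroup D β, D⁆ : Subgroup G) :=
        (equivMapOfInjective _ H.subtype H.subtype_injective).trans
          (MulEquiv.subgroupCongr hmapK)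
      have hf : ∀ x, ((f x : (⁅inertialGroup D β, D⁆ : Subgroup G)) : G) = ((x : H) : G) :=
        fun x => rfl
      refine hEq.congr ⟨f.symm, fun t' ht' => ⟨t', ?_, fun x y hxy => ?_⟩⟩
      · rw [← hST]
        exact (hmem t').1 ht'
      · apply Subtype.ext
        have h2 := hf (f.symm x)
        have h3 := hf (f.symm y)
        rw [MulEquiv.apply_symm_apply] at h2 h3
        change (((f.symm y : _) : H) : G) = t' * (((f.symm x : _) : H) : G) * (t' : G)⁻¹
        rw [← h2, ← h3, hxy]
  · push Not at hc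
    -- the fixed points are central
    let R : Subgroup G :=
      { carrier := {x | x ∈ D ∧ ∀ t ∈ stabT D l, t * x * t⁻¹ = x}
        mul_mem' := by
          rintro a b ⟨ha, ha'⟩ ⟨hb, hb'⟩
          refine ⟨mul_mem ha hb, fun t ht => ?_⟩
          calc t * (a * b) * t⁻¹ = t * a * t⁻¹ * (t * b * t⁻¹) := by group
            _ = a * b := by rw [ha' t ht, hb' t ht]
        one_mem' := ⟨one_mem D, fun t _ => by group⟩
        inv_mem' := by
          rintro a ⟨ha, ha'⟩
          refine ⟨inv_mem ha, fun t ht => ?_⟩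
          calc t * a⁻¹ * t⁻¹ = (t * a * t⁻¹)⁻¹ := by group
            _ = a⁻¹ := by rw [ha' t ht] }
    have hRmem : ∀ x, x ∈ R ↔ x ∈ D ∧ ∀ t ∈ stabT D l, t * x * t⁻¹ = x := fun x => Iff.rfl
    have hRc : R ≤ center G := fun x hx => hc x hx.1 hx.2
    have hRn : R.Normal := ⟨fun x hx g => by
      have h1 := (Subgroup.mem_center_iff.1 (hRc hx)) g
      rw [h1, mul_inv_cancel_right]
      exact hx⟩
    have hRp : IsPGroup p R := hD.to_le fun x hx => hx.1
    have hTN : stabT D l ≤ normalizer (D : Set G) := by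
      rw [hST]
      exact fun n hn => hn.1
    refine P179R.eq_of_quo p red R hRp hB fun B' hB' hBB' => ?_
    obtain ⟨β', hD', hβ', hβB', hact⟩ := hQ G R hRp hRc B D β hB hDB hab (fun x hx => hx.1) hβ hβB
      B' hB' hBB'
    have hKD : (⁅inertialGroup D β, D⁆ : Subgroup G) ≤ D := by
      rw [← hST]
      exact comm_le hTN
    have hgm : ∀ x : (⁅inertialGroup D β, D⁆ : Subgroup G),
        QuotientGroup.mk' R (x : G) ∈ D.map (QuotientGroup.mk' R) := fun x =>
      ⟨x, hKD x.2, rfl⟩
    let g : (⁅inertialGroup D β, D⁆ : Subgroup G) →* (D.map (QuotientGroup.mk' R)) :=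
      ((QuotientGroup.mk' R).comp (Subgroup.subtype _)).codRestrict _ hgm
    have hg : ∀ x, ((g x : D.map (QuotientGroup.mk' R)) : G ⧸ R) = QuotientGroup.mk' R (x : G) :=
      fun x => rfl
    have hgi : Function.Injective g := by
      rw [injective_iff_map_eq_one]
      intro x hgx
      have h1 : QuotientGroup.mk' R (x : G) = 1 := by
        rw [← hg, hgx]
        rfl
      have h2 : (x : G) ∈ R := by
        rw [QuotientGroup.mk'_apply, QuotientGroup.eq_one_iff] at h1
        exact h1
      apply Subtype.ext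
      refine comm_inf_fix hD hab hTN hT (x := (x : G)) ?_ h2.2
      rw [hST]
      exact x.2
    have hgs : Function.Surjective g := by
      rintro ⟨_, d, hd, rfl⟩
      obtain ⟨y, hy, hyfix, z, hz, hyz⟩ := mem_fix_mul hD hab hTN hT hd
      rw [hST] at hz
      refine ⟨⟨z, hz⟩, ?_⟩
      apply Subtype.ext
      change QuotientGroup.mk' R z = QuotientGroup.mk' R d
      have h1 : QuotientGroup.mk' R y = 1 := by
        rw [QuotientGroup.mk'_apply, QuotientGroup.eq_one_iff]
        exact ⟨hy, hyfix⟩
      rw [hyz, map_mul, h1, one_mul]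
    refine hEq (G ⧸ R) B' _ β' hB' hD' ?_ hβ' hβB'
      ⟨MulEquiv.ofBijective g ⟨hgi, hgs⟩, fun t' ht' => ?_⟩
    · rintro _ ⟨a, ha, rfl⟩ _ ⟨b, hb, rfl⟩
      rw [← map_mul, ← map_mul, hab a ha b hb]
    · obtain ⟨t, ht, htd⟩ := hact t' ht'
      refine ⟨t, ht, fun x y hxy => ?_⟩
      change QuotientGroup.mk' R (y : G) = t' * QuotientGroup.mk' R (x : G) * t'⁻¹
      rw [htd x (hKD x.2), hxy]

end

end P179H292
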