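import Vale.Agent.P179.H905.K4

/-!
# The bound for the number of rational characters from all regular elements
-/

namespace P179H292

open P179H524 P179C P179A Finset P179P Subgroup P179Y P179I

open P179X (pp SameSec IrrB Srat autOrd)

open P179B (inertialGroup inertialIndex regularElements)

open scoped Classical IsMulCommutative

set_option linter.unusedSectionVars false

/-- the pointwise bound -/
theorem point_mass {p a0 x : ℤ} (hp : 0 < p) (h0 : 0 < a0) (h1 : 2 * a0 < p) (h : p ∣ x - a0) :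
    (p - 1) - x ^ 2 ≤ (p - 2 * a0) * x := by
  obtain ⟨k, hk⟩ := h
  have hx : x = a0 + p * k := by omega
  have h2 : 0 ≤ k * (k + 1) := by
    rcases le_or_gt 0 k with h3 | h3
    · positivity
    · have h4 : k + 1 ≤ 0 := by omega
      nlinarith
  have h3 : (x - a0) * (x + p - a0) = p ^ 2 * (k * (k + 1)) := by
    rw [hx]
    ring
  have h4 : 0 ≤ p ^ 2 * (k * (k + 1)) := by positivity
  have h5 : (p - 1) ≤ a0 * (p - a0) := by nlinarith
  nlinarith

/-- the core: a set of integral vectors with the Gram relations and congruences -/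
theorem zcoreM {G : Type*} [Group G] [Fintype G] {p : ℕ} [hp : Fact p.Prime] (hp2 : p ≠ 2)
    {D T : Subgroup G} [IsMulCommutative D] (W : Finset G) (hWD : ∀ u ∈ W, u ∈ D)
    (hes : Nat.card D * (centralizer (D : Set G)).relIndex T < (p - 1) * W.card)
    (A : G → Irr G → ℂ)
    (hgram : ∀ u ∈ W, ∀ b ∈ W, ∑ χ, A u χ * (starRingEnd ℂ) (A b χ) =
      if ∃ t ∈ T, t * u * t⁻¹ = b then (Nat.card D : ℂ) else 0)
    (R : Finset (Irr G)) (a : Irr G → G → ℤ)
    (ha : ∀ χ ∈ R, ∀ u ∈ W, A u χ = a χ u)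
    (hne : ∀ χ ∈ R, ∀ u ∈ W, a χ u ≠ 0)
    (hcong : ∀ χ ∈ R, ∀ u ∈ W, ∀ v ∈ W, (p : ℤ) ∣ a χ u - a χ v) :
    R.card * ((p - 1) * W.card - Nat.card D * (centralizer (D : Set G)).relIndex T) ^ 2 ≤
      (p - 2) ^ 2 * (Nat.card D * (centralizer (D : Set G)).relIndex T * W.card) := by
  set e := (centralizer (D : Set G)).relIndex T with hedef
  set q := Nat.card D with hqdef
  have hqpos : 0 < q := Nat.card_pos
  have hppos : 0 < p := hp.out.pos
  have hp3 : 2 < p := lt_of_le_of_ne hp.out.two_le (Ne.symm hp2)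
  have hWpos : 0 < W.card := by
    rcases Nat.eq_zero_or_pos W.card with h0 | h0
    · rw [h0, mul_zero] at hes
      omega
    · exact h0
  obtain ⟨u₀, hu₀⟩ := Finset.card_pos.1 hWpos
  obtain ⟨N, hN⟩ : ∃ N : ℕ, (p - 1) * W.card = q * e + N := ⟨(p - 1) * W.card - q * e, by omega⟩
  have hN' : (p - 1) * W.card - q * e = N := by omega
  have hNZ : ((p : ℤ) - 1) * W.card = q * e + N := by
    have h1 : ((p - 1 : ℕ) : ℤ) = (p : ℤ) - 1 := by
      rw [Nat.cast_sub (by omega)]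
      rfl
    rw [← h1]
    exact_mod_cast hN
  -- the sums
  have key : ∀ χ ∈ R, (N : ℤ) ^ 2 ≤ ((p : ℤ) - 2) ^ 2 * (∑ u ∈ W, a χ u) ^ 2 := by
    intro χ hχ
    set a0 : ℤ := Int.bmod (a χ u₀) p with ha0
    have hdvd0 : (p : ℤ) ∣ a χ u₀ - a0 := by
      have := Int.dvd_bmod_sub_self (x := a χ u₀) (m := p)
      have h2 := (dvd_neg (α := ℤ)).2 this
      rwa [neg_sub] at h2
    have hmod : ∀ u ∈ W, (p : ℤ) ∣ a χ u - a0 := by
      intro u hu
      have := dvd_add (hcong χ hχ u hu u₀ hu₀) hdvd0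
      rwa [sub_add_sub_cancel] at this
    have h2a : 2 * |a0| < p := by
      have hodd := hp.out.odd_of_ne_two hp2
      obtain ⟨r, hr⟩ := hodd
      have h1 := Int.bmod_lt (x := a χ u₀) (m := p) hppos
      have h2 := Int.le_bmod (x := a χ u₀) (m := p) hppos
      rw [← ha0] at h1 h2
      rcases abs_cases a0 with ⟨h3, -⟩ | ⟨h3, -⟩ <;> rw [h3] <;> omega
    have hmass : ∑ u ∈ W, a χ u ^ 2 ≤ (q : ℤ) * e :=
      P179T.sum_sq_le hqpos.ne' W hWD A hgram R a ha χ hχ
    have ha0ne : a0 ≠ 0 := by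
      intro h0
      have h1 : ∀ u ∈ W, (p : ℤ) - 1 ≤ a χ u ^ 2 := by
        intro u hu
        have h2 := hmod u hu
        rw [h0, sub_zero] at h2
        have h3 := Int.natAbs_dvd_natAbs.2 h2
        have h4 := Nat.le_of_dvd (Int.natAbs_pos.2 (hne χ hχ u hu)) h3
        have h5 : (p : ℤ) ≤ |a χ u| := by
          rw [Int.abs_eq_natAbs]
          exact_mod_cast (by simpa using h4)
        rw [← sq_abs (a χ u)]
        have hp0 : (0 : ℤ) < p := by exact_mod_cast hppos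
        nlinarith
      have h2 := (Finset.sum_le_sum h1).trans hmass
      rw [Finset.sum_const, nsmul_eq_mul] at h2
      have h3 : (0 : ℤ) < N := by
        have : 0 < N := by omega
        exact_mod_cast this
      nlinarith
    -- the sign
    have hmain : ∀ (b0 : ℤ) (b : G → ℤ), 0 < b0 → 2 * b0 < p → (∀ u ∈ W, (p : ℤ) ∣ b u - b0) →
        (∑ u ∈ W, b u ^ 2 ≤ (q : ℤ) * e) → (N : ℤ) ^ 2 ≤ ((p : ℤ) - 2) ^ 2 * (∑ u ∈ W, b u) ^ 2 := by
      intro b0 b hb0 hb2 hbm hbs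
      have h1 : ∑ u ∈ W, (((p : ℤ) - 1) - b u ^ 2) ≤ ∑ u ∈ W, ((p : ℤ) - 2 * b0) * b u :=
        Finset.sum_le_sum fun u hu => point_mass (by exact_mod_cast hppos) hb0 hb2 (hbm u hu)
      rw [Finset.sum_sub_distrib, Finset.sum_const, nsmul_eq_mul, ← Finset.mul_sum] at h1
      have h2 : (N : ℤ) ≤ ((p : ℤ) - 2 * b0) * ∑ u ∈ W, b u := by
        nlinarith
      have h3 : (0 : ℤ) < N := by
        have : 0 < N := by omega
        exact_mod_cast this
      have h4 : (0 : ℤ) < (p : ℤ) - 2 * b0 := by omega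
      have h5 : 0 < ∑ u ∈ W, b u := by
        by_contra hcon
        push Not at hcon
        nlinarith
      have h6 : (N : ℤ) ≤ ((p : ℤ) - 2) * ∑ u ∈ W, b u := by nlinarith
      calc (N : ℤ) ^ 2 ≤ (((p : ℤ) - 2) * ∑ u ∈ W, b u) ^ 2 :=
            pow_le_pow_left₀ h3.le h6 2
        _ = _ := by ring
    rcases lt_or_gt_of_ne ha0ne with h0 | h0
    · have h1 := hmain (-a0) (fun u => -a χ u) (by omega) (by
        rw [abs_of_neg h0] at h2a
        exact h2a) (by
          intro u hu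
          have h2 := (dvd_neg (α := ℤ)).2 (hmod u hu)
          have h3 : -(a χ u - a0) = -a χ u - -a0 := by ring
          rwa [h3] at h2) (by simpa using hmass)
      rw [Finset.sum_neg_distrib, neg_sq] at h1
      exact h1
    · exact hmain a0 (fun u => a χ u) h0 (by
        rw [abs_of_pos h0] at h2a
        exact h2a) hmod hmass
  -- Bessel
  have h1 := P179T.bessel_int hqpos.ne' W hWD A hgram R a ha (fun _ => 1)
  have hp2R : (0 : ℝ) ≤ ((p - 2 : ℕ) : ℝ) ^ 2 := by positivity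
  have h2 : (R.card : ℝ) * (N : ℝ) ^ 2 ≤
      ((p - 2 : ℕ) : ℝ) ^ 2 * ∑ χ ∈ R, (∑ u ∈ W, (1 : ℝ) * a χ u) ^ 2 := by
    rw [← nsmul_eq_mul, ← Finset.sum_const, Finset.mul_sum]
    refine Finset.sum_le_sum fun χ hχ => ?_
    have h3 := key χ hχ
    have h4 : ∑ u ∈ W, (1 : ℝ) * a χ u = ((∑ u ∈ W, a χ u : ℤ) : ℝ) := by
      push_cast
      exact Finset.sum_congr rfl fun u _ => one_mul _
    rw [h4]
    have h5 : ((p - 2 : ℕ) : ℤ) = (p : ℤ) - 2 := by
      rw [Nat.cast_sub (by omega)]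
      rfl
    rw [← h5] at h3
    exact_mod_cast h3
  have h3 := h2.trans (mul_le_mul_of_nonneg_left h1 hp2R)
  have h4 : ∑ u ∈ W, (1 : ℝ) ^ 2 = W.card := by simp
  rw [h4] at h3
  rw [hN']
  have h5 : R.card * N ^ 2 ≤ (p - 2) ^ 2 * (q * e * W.card) := by exact_mod_cast h3
  exact h5

end P179H292
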