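import Vale.Agent.P179.R2.H292.Mass
import Vale.Agent.P179.R2.H351.Ind9

/-!
# The bound for the number of simple modules from all regular elements
-/

namespace P179H292

open P179H524 P179C P179A Finset P179P Subgroup P179Y P179I

open P179X (pp SameSec IrrB Srat autOrd)

open P179B (inertialGroup inertialIndex regularElements)

open scoped Classical IsMulCommutative

set_option linter.unusedSectionVars false

universe v

section

variable {p : ℕ} [hp : Fact p.Prime] {k : Type v} [Field k] [CharP k p] (red : AA →+* k)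
  {G : Type} [Group G] [Fintype G] {D : Subgroup G} {l : (G → k) → k}

/-- the number of rational characters of the block -/
theorem card_Srat_le_mass [IsAlgClosed k] (hl : BP p D l) (hD : IsPGroup p D)
    (hab : D ≤ centralizer (D : Set G)) (hp2 : p ≠ 2)
    (he : ((centralizer (D : Set G)).relIndex (stabT D l) : k) ≠ 0)
    {B : MonoidAlgebra k G} (hlB : ∀ χ : Irr G, InL red l χ.1 ↔ CharInBlock red χ.1 B)
    (W : Finset G) (hWreg : ∀ u ∈ W, RegT D l u ∧ u ≠ 1)
    (hes : Nat.card D * (centralizer (D : Set G)).relIndex (stabT D l) < (p - 1) * W.card) {m : ℕ}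
    (hm : m.Coprime (Nat.card G)) (hm1 : m ≡ 1 [MOD ordCompl[p] (Nat.card G)])
    (hgen : ∀ j : ℕ, ¬ p ∣ j → ∃ i : ℕ, m ^ i ≡ j [MOD ordProj[p] (Nat.card G)]) :
    (Srat red m B).card * ((p - 1) * W.card -
        Nat.card D * (centralizer (D : Set G)).relIndex (stabT D l)) ^ 2 ≤
      (p - 2) ^ 2 * (Nat.card D * (centralizer (D : Set G)).relIndex (stabT D l) * W.card) := by
  have hcomm : IsMulCommutative D := ⟨⟨fun a b => Subtype.ext
    (mem_centralizer_iff.1 (hab b.2) _ a.2)⟩⟩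
  obtain ⟨Φ, aH, bH, ε, κ₀, h⟩ := exists_LocR (red := red) hl hD hab
  -- the rational characters
  have hSmem : ∀ χ ∈ Srat red m B, χ ∈ IrrB red B ∧ ∀ g, χ (g ^ m) = χ g := by
    intro χ hχ
    simp only [P179X.Srat, mem_filter] at hχ
    exact hχ
  set R : Finset (Irr G) := univ.filter (fun χ : Irr G => χ.1 ∈ Srat red m B) with hR
  have hRS : R.card = (Srat red m B).card := by
    refine Finset.card_bij (fun χ _ => χ.1) (fun χ hχ => (mem_filter.1 hχ).2)
      (fun χ _ ψ _ h => Subtype.ext h) fun χ hχ => ?_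
    exact ⟨⟨χ, isIrr_of_mem_IrrB (hSmem χ hχ).1⟩, mem_filter.2 ⟨mem_univ _, hχ⟩, rfl⟩
  have hInL : ∀ χ ∈ R, InL red l χ.1 := by
    intro χ hχ
    rw [hlB]
    have h1 := (hSmem χ.1 (mem_filter.1 hχ).2).1
    unfold P179X.IrrB at h1
    exact (mem_filter.1 h1).2
  have hrat : ∀ χ ∈ R, ∀ g, χ.1 (g ^ m) = χ.1 g := fun χ hχ => (hSmem χ.1 (mem_filter.1 hχ).2).2
  have hA : ∀ χ : Irr G, ∃ A : G → ℤ, χ ∈ R →
      ((∀ u, RegT D l u → u ≠ 1 → Ad p D Φ ε u χ = (A u : AA)) ∧
      (∀ u, RegT D l u → u ≠ 1 → A u ≠ 0) ∧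
      (∀ u, RegT D l u → u ≠ 1 → ∀ j : ℕ, ¬ p ∣ j → A (u ^ j) = A u) ∧
      (∀ u, RegT D l u → u ≠ 1 → ∀ u', RegT D l u' → u' ≠ 1 → (p : ℤ) ∣ A u - A u') ∧
      (∀ u, RegT D l u → u ≠ 1 → ∀ t ∈ stabT D l, A (t * u * t⁻¹) = A u)) := by
    intro χ
    by_cases hχ : χ ∈ R
    · obtain ⟨A, hA⟩ := h.exists_A hl hD hab he hm hm1 hgen (hInL χ hχ) (hrat χ hχ)
      exact ⟨A, fun _ => hA⟩
    · exact ⟨fun _ => 0, fun h => absurd h hχ⟩
  choose a ha using hA
  rw [← hRS]
  refine zcoreM hp2 W (fun u hu => (hWreg u hu).1.1) hes (fun u χ => (Ad p D Φ ε u χ : ℂ)) ?_ R a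
    ?_ ?_ ?_
  · intro u hu b hb
    have hu' := hWreg u hu
    have hb' := hWreg b hb
    have h1 := h.gram hl hD hab hu'.1 hu'.2 (RegT.inv' hb'.1) (by simpa using hb'.2)
    have h2 := congrArg (fun x : AA => (x : ℂ)) h1
    rw [inv_inv] at h2
    have h3 : ∀ χ : Irr G, (Ad p D Φ ε u χ : ℂ) * (starRingEnd ℂ) (Ad p D Φ ε b χ : ℂ) =
        ((Ad p D Φ ε u χ * Ad p D Φ ε b⁻¹ χ : AA) : ℂ) := by
      intro χ
      rw [h.ad_star hb'.1 hb'.2 χ]
      push_cast
      rfl
    rw [Finset.sum_congr rfl fun χ _ => h3 χ]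
    have h4 : ((∑ χ : Irr G, Ad p D Φ ε u χ * Ad p D Φ ε b⁻¹ χ : AA) : ℂ) =
        ∑ χ : Irr G, ((Ad p D Φ ε u χ * Ad p D Φ ε b⁻¹ χ : AA) : ℂ) := by
      push_cast
      rfl
    rw [← h4, h2]
    split_ifs <;> simp
  · intro χ hχ u hu
    have hu' := hWreg u hu
    rw [(ha χ hχ).1 u hu'.1 hu'.2]
    simp
  · intro χ hχ u hu
    have hu' := hWreg u hu
    exact (ha χ hχ).2.1 u hu'.1 hu'.2
  · intro χ hχ u hu v hv
    have hu' := hWreg u hu
    have hv' := hWreg v hv
    exact (ha χ hχ).2.2.2.1 u hu'.1 hu'.2 v hv'.1 hv'.2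

end

section

variable {p : ℕ} [hp : Fact p.Prime] {k : Type v} [Field k] [IsAlgClosed k] [CharP k p]
  (red : integralClosure ℤ ℂ →+* k) {G : Type} [Group G] [Fintype G]

include red in
/-- **the bound from all regular elements**, in the forms of `P179C` -/
theorem bound_mass' {B : MonoidAlgebra k G} (hB : IsBlock B) {D : Subgroup G}
    (hD : IsDefectGroup B D) (hab : ∀ a ∈ D, ∀ b ∈ D, a * b = b * a)
    {b : MonoidAlgebra k (centralizer (D : Set G))} (hb : IsBlock b) (hbB : InducesTo b B)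
    (hp2 : p ≠ 2) (he1 : inertialIndex D b + 1 < p) (W : Finset G)
    (hW : ∀ u, u ∈ W ↔ u ∈ regularElements D b ∧ u ≠ 1)
    (hes : Nat.card D * inertialIndex D b < (p - 1) * W.card) :
    numSimpleIn B * ((p - 1) * W.card - Nat.card D * inertialIndex D b) ^ 2 ≤
      (p - 2) ^ 2 * (Nat.card D * inertialIndex D b * W.card) := by
  obtain ⟨hDp, -⟩ := exists_BP_of_block (p := p) B hB D hD
  obtain ⟨l, hl, hlz, hlb⟩ := exists_BP_of_subblock (p := p) hB hD hab hb hbB
  have hT := stabT_eq_inertialGroup hb hlb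
  have hlB : ∀ χ : Irr G, InL red l χ.1 ↔ CharInBlock red χ.1 B := inL_iff red hB hlz
  have hab' : D ≤ centralizer (D : Set G) := by
    intro x hx
    rw [mem_centralizer_iff]
    intro y hy
    exact hab y hy x hx
  have he : inertialIndex D b = (centralizer (D : Set G)).relIndex (stabT D l) := by
    rw [hT]
    rfl
  have hreg : ∀ u, RegT D l u ↔ u ∈ regularElements D b := by
    intro u
    unfold regularElements RegT
    rw [hT]
    rfl
  have hdiv := hT_of_block hB hD hDp hab hl hlz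
  obtain ⟨m, hmc, hm1, hgen⟩ := exists_exponent (p := p) hp2 (Nat.card G) Nat.card_pos.ne'
  have h1 : ∀ χ ∈ IrrB red B, (fun g => χ (g ^ m)) ∈ IrrB red B := by
    intro χ hχ
    simp only [P179X.IrrB, mem_filter, P179X.mem_Irr] at hχ ⊢
    refine ⟨irr_pow hχ.1 hmc, ?_⟩
    exact charInBlock_of_reg p red hχ.1 (irr_pow hχ.1 hmc)
      (fun g hg => by rw [pow_eq_of_regular hm1 hg]) hχ.2
  have h3 : numSimpleIn B ≤ (Srat red m B).card :=
    P7 red hB l hlB m hmc hm1 h1 (K7T red hl hDp hab (by omega) hmc hgen)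
  rw [he] at hes ⊢
  have h4 := card_Srat_le_mass red hl hDp hab' hp2 (by
    rw [Ne, CharP.cast_eq_zero_iff k p]
    exact hdiv) hlB W (fun u hu => ⟨(hreg u).2 ((hW u).1 hu).1, ((hW u).1 hu).2⟩) hes hmc hm1 hgen
  exact (Nat.mul_le_mul_right _ h3).trans h4

end

section

variable {p : ℕ} [hp : Fact p.Prime] {k : Type v} [Field k] [IsAlgClosed k] [CharP k p]
  (red : integralClosure ℤ ℂ →+* k) {G : Type} [Group G] [Finite G]

include red in
/-- **the bound from all regular elements**: if `e + 1 < p` and `e |D| < (p - 1) w` for the number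
`w` of the regular elements `≠ 1` of the abelian defect group `D`, then
`l(B) ((p - 1) w - e |D|)² ≤ (p - 2)² e |D| w` -/
theorem bound_mass {B : MonoidAlgebra k G} (hB : P179B.IsBlock B) {D : Subgroup G}
    (hD : P179B.IsDefectGroup B D) (hab : ∀ a ∈ D, ∀ b ∈ D, a * b = b * a)
    {b : MonoidAlgebra k (centralizer (D : Set G))} (hb : P179B.IsBlock b)
    (hbB : P179B.InducesTo b B) (hp2 : p ≠ 2) (he1 : inertialIndex D b + 1 < p)
    (hes : Nat.card D * inertialIndex D b <
      (p - 1) * Nat.card {u : G // u ∈ regularElements D b ∧ u ≠ 1}) :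
    P179B.numSimpleIn B * ((p - 1) * Nat.card {u : G // u ∈ regularElements D b ∧ u ≠ 1} -
        Nat.card D * inertialIndex D b) ^ 2 ≤
      (p - 2) ^ 2 * (Nat.card D * inertialIndex D b *
        Nat.card {u : G // u ∈ regularElements D b ∧ u ≠ 1}) := by
  have := Fintype.ofFinite G
  have hbB' := (P179B.inducesTo_iff b B).1 hbB
  rw [P179B.numSimpleIn_eq]
  have hc : Nat.card {u : G // u ∈ regularElements D b ∧ u ≠ 1} =
      (univ.filter fun u : G => u ∈ regularElements D b ∧ u ≠ 1).card := by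
    rw [Nat.card_eq_fintype_card, Fintype.card_subtype]
  rw [hc] at hes ⊢
  exact bound_mass' red hB hD hab hb hbB' hp2 he1 _
    (fun u => by rw [mem_filter, and_iff_right (mem_univ u)]) hes

end

end P179H292
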