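import Vale.Agent.P179.H526.KDef
import Vale.Agent.P179.H166.Osima
import Vale.Agent.P179.H524.Wr3

/-!
# Blocks of direct powers and of wreath products
-/

namespace P179H292

open Subgroup P179H524 P179A P179R P179Y P179C MonoidAlgebra

open scoped Classical

universe u

section Comm

theorem exists_hom_of_idem {k Z : Type*} [Field k] [IsAlgClosed k] [CommRing Z] [Algebra k Z]
    [Module.Finite k Z] (f : Z) (hf : f * f = f) (h0 : f ≠ 0) : ∃ L : Z →ₐ[k] k, L f = 1 := by
  have h1 : Ideal.span {1 - f} ≠ ⊤ := by
    intro h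
    rw [Ideal.eq_top_iff_one, Ideal.mem_span_singleton] at h
    obtain ⟨x, hx⟩ := h
    apply h0
    calc f = f * 1 := (mul_one f).symm
      _ = f * ((1 - f) * x) := by rw [← hx]
      _ = (f - f * f) * x := by ring
      _ = 0 := by rw [hf]; ring
  obtain ⟨m, hm, hle⟩ := Ideal.exists_le_maximal _ h1
  let _ : Field (Z ⧸ m) := Ideal.Quotient.field m
  have : Module.Finite k (Z ⧸ m) := inferInstance
  have : Algebra.IsIntegral k (Z ⧸ m) := Algebra.IsIntegral.of_finite k (Z ⧸ m)
  have hb := IsAlgClosed.algebraMap_bijective_of_isIntegral (k := k) (K := Z ⧸ m)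
  let e : k ≃ₐ[k] (Z ⧸ m) := AlgEquiv.ofBijective (Algebra.ofId k (Z ⧸ m)) hb
  refine ⟨e.symm.toAlgHom.comp (Ideal.Quotient.mkₐ k m), ?_⟩
  have h2 : Ideal.Quotient.mkₐ k m f = 1 := by
    have h3 : Ideal.Quotient.mkₐ k m (1 - f) = 0 := by
      rw [Ideal.Quotient.mkₐ_eq_mk, Ideal.Quotient.eq_zero_iff_mem]
      exact hle (Ideal.subset_span rfl)
    rw [map_sub, map_one, sub_eq_zero] at h3
    exact h3.symm
  change e.symm (Ideal.Quotient.mkₐ k m f) = 1
  rw [h2, map_one]

theorem prim_of_uniq {k Z : Type*} [Field k] [IsAlgClosed k] [CommRing Z] [Algebra k Z]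
    [Module.Finite k Z] {E : Z} (hEE : E * E = E) (h0 : E ≠ 0)
    (huniq : ∀ L L' : Z →ₐ[k] k, L E = 1 → L' E = 1 → L = L') : Prim E := by
  refine ⟨hEE, h0, ?_⟩
  intro f hff hfE
  by_contra hc
  push Not at hc
  obtain ⟨L, hL⟩ := exists_hom_of_idem (k := k) f hff hc.1
  have h1 : (E - f) * (E - f) = E - f := by
    have : (E - f) * (E - f) = E * E - f * E - f * E + f * f := by ring
    rw [this, hEE, hfE, hff]; ring
  obtain ⟨L', hL'⟩ := exists_hom_of_idem (k := k) (E - f) h1 (sub_ne_zero.2 (Ne.symm hc.2))
  have h2 : L E = 1 := by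
    have := congrArg L hfE
    rw [map_mul, hL, one_mul] at this
    exact this
  have h3 : L' E = 1 := by
    have h4 : (E - f) * E = E - f := by rw [sub_mul, hEE, hfE]
    have := congrArg L' h4
    rw [map_mul, hL', one_mul] at this
    exact this
  have h5 := huniq L L' h2 h3
  rw [map_sub, h3, ← h5, hL, sub_self] at hL'
  exact zero_ne_one hL'

end Comm

section Tens

variable {k : Type u} [Field k] {G : Type} [Group G] [Fintype G] {Q : Type} [Fintype Q]

omit [Fintype G] in
theorem coeff_one_pi (y : Q → G) : (1 : MonoidAlgebra k (Q → G)).coeff y =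
    ∏ q, (1 : MonoidAlgebra k G).coeff (y q) := by
  simp only [MonoidAlgebra.one_def, MonoidAlgebra.coeff_single, Finsupp.single_apply]
  by_cases h : y = 1
  · subst h
    simp
  · rw [if_neg (fun h' => h h'.symm)]
    obtain ⟨q, hq⟩ : ∃ q, y q ≠ 1 := by
      by_contra hc
      push Not at hc
      exact h (funext hc)
    exact (Finset.prod_eq_zero (Finset.mem_univ q) (if_neg (fun h' => hq h'.symm))).symm

/-- products of central elements -/
noncomputable def tens : (Q → Subalgebra.center k (MonoidAlgebra k G)) →*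
    Subalgebra.center k (MonoidAlgebra k (Q → G)) where
  toFun a := ⟨mkF (fun y => ∏ q, (a q).1.coeff (y q)), mkF_mem (fun g x =>
    Finset.prod_congr rfl fun q _ => (P179C.mem_center_iff _).1 (a q).2 (g q) (x q))⟩
  map_one' := by
    apply Subtype.ext
    ext y
    change (mkF _).coeff y = (1 : MonoidAlgebra k (Q → G)).coeff y
    rw [coeff_mkF, coeff_one_pi]
    rfl
  map_mul' a b := by
    apply Subtype.ext
    ext y
    change (mkF (fun y => ∏ q, ((a * b) q).1.coeff (y q))).coeff y =
      (mkF (fun y : Q → G => ∏ q, (a q).1.coeff (y q)) *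
        mkF (fun y : Q → G => ∏ q, (b q).1.coeff (y q)) : MonoidAlgebra k (Q → G)).coeff y
    rw [coeff_mkF, coeff_mul_eq_conv]
    unfold conv
    simp only [coeff_mkF]
    have h1 : ∀ q, ((a * b) q).1.coeff (y q) =
        ∑ g : G, (a q).1.coeff g * (b q).1.coeff (g⁻¹ * y q) := fun q =>
      coeff_mul_eq_conv (a q).1 (b q).1 (y q)
    rw [Finset.prod_congr rfl fun q _ => h1 q, Finset.prod_univ_sum, Fintype.piFinset_univ]
    exact Finset.sum_congr rfl fun h _ => Finset.prod_mul_distrib

theorem coeff_tens (a : Q → Subalgebra.center k (MonoidAlgebra k G)) (y : Q → G) :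
    (tens a).1.coeff y = ∏ q, (a q).1.coeff (y q) := coeff_mkF _ y

theorem coeff_tens_single (q : Q) (z : Subalgebra.center k (MonoidAlgebra k G)) (y : Q → G) :
    (tens (Pi.mulSingle q z : Q → Subalgebra.center k (MonoidAlgebra k G))).1.coeff y =
      z.1.coeff (y q) * ∏ q' ∈ Finset.univ.erase q, (1 : MonoidAlgebra k G).coeff (y q') := by
  rw [coeff_tens, ← Finset.mul_prod_erase _ _ (Finset.mem_univ q), Pi.mulSingle_eq_same]
  congr 1
  refine Finset.prod_congr rfl fun q' hq' => ?_
  rw [Pi.mulSingle_eq_of_ne (Finset.ne_of_mem_erase hq')]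
  rfl

/-- the factors of an algebra homomorphism -/
noncomputable def facHom (L : Subalgebra.center k (MonoidAlgebra k (Q → G)) →ₐ[k] k) (q : Q) :
    Subalgebra.center k (MonoidAlgebra k G) →ₐ[k] k :=
  AlgHom.ofLinearMap
    { toFun := fun z => L (tens (Pi.mulSingle q z))
      map_add' := fun a b => by
        rw [← map_add]
        congr 1
        apply Subtype.ext
        ext y
        change (tens (Pi.mulSingle q (a + b))).1.coeff y =
          ((tens (Pi.mulSingle q a)).1 + (tens (Pi.mulSingle q b)).1).coeff y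
        rw [MonoidAlgebra.coeff_add, Finsupp.add_apply, coeff_tens_single, coeff_tens_single,
          coeff_tens_single, ← add_mul]
        congr 1
      map_smul' := fun c a => by
        rw [RingHom.id_apply, ← map_smul]
        congr 1
        apply Subtype.ext
        ext y
        change (tens (Pi.mulSingle q (c • a))).1.coeff y =
          (c • (tens (Pi.mulSingle q a)).1).coeff y
        rw [MonoidAlgebra.coeff_smul, Finsupp.smul_apply, coeff_tens_single, coeff_tens_single,
          smul_eq_mul, ← mul_assoc]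
        congr 1 }
    (by
      change L (tens (Pi.mulSingle q 1)) = 1
      rw [Pi.mulSingle_one, map_one, map_one])
    (fun a b => by
      change L (tens (Pi.mulSingle q (a * b))) =
        L (tens (Pi.mulSingle q a)) * L (tens (Pi.mulSingle q b))
      rw [Pi.mulSingle_mul, map_mul, map_mul])

theorem hom_tens (L : Subalgebra.center k (MonoidAlgebra k (Q → G)) →ₐ[k] k)
    (a : Q → Subalgebra.center k (MonoidAlgebra k G)) :
    L (tens a) = ∏ q, facHom L q (a q) := by
  conv_lhs => rw [← Finset.univ_prod_mulSingle a]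
  rw [map_prod, map_prod]
  rfl

theorem tens_span (z : Subalgebra.center k (MonoidAlgebra k (Q → G)))
    [Fintype (ConjClasses G)] :
    z = ∑ D : Q → ConjClasses G, z.1.coeff (fun q => (D q).out) •
      tens (fun q => (⟨classSum k (D q).out, classSum_mem_center _⟩ :
        Subalgebra.center k (MonoidAlgebra k G))) := by
  apply Subtype.ext
  ext y
  have hz := (P179C.mem_center_iff _).1 z.2
  rw [AddSubmonoidClass.coe_finsetSum, MonoidAlgebra.coeff_sum, Finsupp.finsetSum_apply]
  have h1 : ∀ D : Q → ConjClasses G, (z.1.coeff (fun q => (D q).out) •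
      tens (fun q => (⟨classSum k (D q).out, classSum_mem_center _⟩ :
        Subalgebra.center k (MonoidAlgebra k G)))).1.coeff y =
      if D = fun q => ConjClasses.mk (y q) then z.1.coeff y else 0 := by
    intro D
    change (z.1.coeff (fun q => (D q).out) • (tens _).1).coeff y = _
    rw [MonoidAlgebra.coeff_smul, Finsupp.smul_apply, coeff_tens, smul_eq_mul]
    have h2 : ∀ q, (classSum k (D q).out).coeff (y q) =
        if D q = ConjClasses.mk (y q) then 1 else 0 := by
      intro q
      rw [coeff_classSum, show ConjClasses.mk (D q).out = D q from Quot.out_eq _]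
      unfold ind
      by_cases h : ConjClasses.mk (y q) = D q
      · rw [if_pos h, if_pos h.symm, Int.cast_one]
      · rw [if_neg h, if_neg (fun h' => h h'.symm), Int.cast_zero]
    change _ * ∏ q, (classSum k (D q).out).coeff (y q) = _
    rw [Finset.prod_congr rfl fun q _ => h2 q]
    by_cases h : D = fun q => ConjClasses.mk (y q)
    · rw [if_pos h, Finset.prod_eq_one fun q _ => if_pos (congrFun h q), mul_one]
      have h3 : ∀ q, ∃ c, c * (D q).out * c⁻¹ = y q := by
        intro q
        have h4 : ConjClasses.mk (D q).out = ConjClasses.mk (y q) :=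
          (Quot.out_eq _).trans (congrFun h q)
        exact isConj_iff.1 (ConjClasses.mk_eq_mk_iff_isConj.1 h4)
      choose c hc using h3
      have h5 := hz c (fun q => (D q).out)
      have h6 : c * (fun q => (D q).out) * c⁻¹ = y := funext hc
      rw [h6] at h5
      exact h5.symm
    · rw [if_neg h]
      obtain ⟨q, hq⟩ : ∃ q, D q ≠ ConjClasses.mk (y q) := by
        by_contra hc
        push Not at hc
        exact h (funext hc)
      rw [Finset.prod_eq_zero (Finset.mem_univ q) (if_neg hq), mul_zero]
  rw [Finset.sum_congr rfl fun D _ => h1 D, Finset.sum_ite_eq' , if_pos (Finset.mem_univ _)]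

theorem hom_ext_tens (L L' : Subalgebra.center k (MonoidAlgebra k (Q → G)) →ₐ[k] k)
    (h : ∀ q, facHom L q = facHom L' q) : L = L' := by
  have := Fintype.ofFinite (ConjClasses G)
  ext z
  rw [tens_span z, map_sum, map_sum]
  refine Finset.sum_congr rfl fun D _ => ?_
  rw [map_smul, map_smul, hom_tens, hom_tens]
  simp only [h]

/-- the direct power of a block is a block -/
theorem prim_tens [IsAlgClosed k] {e : MonoidAlgebra k G} (he : IsBlock e) :
    Prim (tens (fun _ : Q => (⟨e, he.1⟩ : Subalgebra.center k (MonoidAlgebra k G)))) := by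
  have hprim := (isBlock_iff_prim ⟨e, he.1⟩).1 he
  set E := tens (fun _ : Q => (⟨e, he.1⟩ : Subalgebra.center k (MonoidAlgebra k G))) with hE
  have hEE : E * E = E := by
    rw [hE, ← map_mul]
    congr 1
    funext q
    exact hprim.1
  have huniq : ∀ L L' : Subalgebra.center k (MonoidAlgebra k (Q → G)) →ₐ[k] k,
      L E = 1 → L' E = 1 → L = L' := by
    intro L L' h h'
    have key : ∀ M : Subalgebra.center k (MonoidAlgebra k (Q → G)) →ₐ[k] k, M E = 1 →
        ∀ q, facHom M q ⟨e, he.1⟩ = 1 := by
      intro M hM q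
      rcases apply_idem (facHom M q) hprim.1 with h0 | h0
      · rw [hE, hom_tens, Finset.prod_eq_zero (Finset.mem_univ q) h0] at hM
        exact absurd hM zero_ne_one
      · exact h0
    exact hom_ext_tens L L' fun q => eq_of_prim hprim _ _ (key L h q) (key L' h' q)
  refine prim_of_uniq hEE ?_ huniq
  intro h
  obtain ⟨g, hg⟩ : ∃ g, e.coeff g ≠ 0 := by
    by_contra hc
    push Not at hc
    exact he.2.2.1 (by ext g; exact hc g)
  have h1 : E.1.coeff (fun _ => g) = 0 := by
    rw [h]; rfl
  rw [hE, coeff_tens] at h1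
  exact Finset.prod_ne_zero_iff.2 (fun _ _ => hg) h1

end Tens

end P179H292
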